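import Vale.Agent.P097.H707.Mean

/-! # P097 / Theorem A / THMA-TOOLS, part 3: identity theorems, limits, division by `ε ^ k` -/

set_option linter.all false

open scoped ComplexConjugate Topology Interval
open Filter Metric

namespace Vale.Agent.P097.TA

/-! ## identity theorems -/

/-- a holomorphic function on a strip vanishing on the real axis vanishes -/
theorem eq_zero_of_real {g : ℂ → ℂ} {r : ℝ} (hg : DifferentiableOn ℂ g {x | |x.im| < r})
    (h0 : ∀ t : ℝ, g t = 0) {x : ℂ} (hx : |x.im| < r) : g x = 0 := by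
  have hr : 0 < r := lt_of_le_of_lt (abs_nonneg _) hx
  have hO : IsOpen {x : ℂ | |x.im| < r} :=
    isOpen_lt (Complex.continuous_im.abs) continuous_const
  have hconv : Convex ℝ {x : ℂ | |x.im| < r} := by
    have := convex_WW (a := 0) (r := r) (e := 1) le_rfl
    intro x hx y hy s t hs ht hst
    have h := this (show (x, (0 : ℂ)) ∈ _ from ⟨by simp, by simpa using hx⟩)
      (show (y, (0 : ℂ)) ∈ _ from ⟨by simp, by simpa using hy⟩) hs ht hst
    simpa using h.2
  have han : AnalyticOnNhd ℂ g {x : ℂ | |x.im| < r} := hg.analyticOnNhd hO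
  have hfr : ∃ᶠ z in 𝓝[≠] (0 : ℂ), g z = 0 := by
    rw [Filter.frequently_iff]
    intro U hU
    rw [mem_nhdsWithin] at hU
    obtain ⟨V, hV, h0V, hVU⟩ := hU
    have hc : ContinuousAt (fun t : ℝ => (t : ℂ)) 0 := Complex.continuous_ofReal.continuousAt
    have h1 : ∀ᶠ t : ℝ in 𝓝[≠] 0, (t : ℂ) ∈ V := by
      apply hc.continuousWithinAt.eventually
      simpa using hV.mem_nhds h0V
    have h2 : ∀ᶠ t : ℝ in 𝓝[≠] 0, t ≠ 0 := eventually_mem_nhdsWithin
    obtain ⟨t, ht1, ht2⟩ := (h1.and h2).exists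
    exact ⟨(t : ℂ), hVU ⟨ht1, by simpa using ht2⟩, h0 t⟩
  have := han.eqOn_zero_of_preconnected_of_frequently_eq_zero hconv.isPreconnected
    (z₀ := 0) (by simpa using hr) hfr
  exact this hx

theorem strip_of_WW {a r e : ℝ} {ε : ℂ} {U : Set ℂ} (hε : ‖ε‖ < e) :
    {x : ℂ | (x, ε) ∈ WW a r e} = {x : ℂ | |x.im| < r - a * |ε.im|} := by
  ext x
  simp only [Set.mem_setOf_eq, WW]
  constructor
  · rintro ⟨_, h⟩; linarith
  · intro h; exact ⟨hε, by linarith⟩

/-- vanishing at all real phases implies vanishing -/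
theorem JD.eq_zero_of_real {f : ℂ → ℂ → ℂ} {a r e : ℝ} (hf : JD f (WW a r e)) {ε : ℂ}
    (h0 : ∀ t : ℝ, f t ε = 0) {x : ℂ} (hx : (x, ε) ∈ WW a r e) : f x ε = 0 := by
  have hstrip := strip_of_WW (a := a) (r := r) (U := Set.univ) hx.1
  have h1 : DifferentiableOn ℂ (fun x => f x ε) {x : ℂ | |x.im| < r - a * |ε.im|} := by
    refine hf.differentiableOn_x fun y hy => ?_
    rw [← hstrip] at hy
    exact hy
  refine TA.eq_zero_of_real h1 h0 ?_
  have : x ∈ {x : ℂ | (x, ε) ∈ WW a r e} := hx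
  rw [hstrip] at this
  exact this

/-- two functions with the same values at real phases (fixed `ε`) agree -/
theorem JD.eq_of_real {f g : ℂ → ℂ → ℂ} {a r e : ℝ} (hf : JD f (WW a r e)) (hg : JD g (WW a r e))
    {ε : ℂ} (h0 : ∀ t : ℝ, f t ε = g t ε) {x : ℂ} (hx : (x, ε) ∈ WW a r e) : f x ε = g x ε := by
  have := (hf.sub hg).eq_zero_of_real (ε := ε) (fun t => by simp only [h0 t, sub_self]) hx
  exact sub_eq_zero.1 this

/-- `ε` fixed in a set accumulating at `ε₀`, real phases: `f` vanishes identically -/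
theorem JD.eq_zero_of_accum {f : ℂ → ℂ → ℂ} {a r e : ℝ} (ha : 0 ≤ a) (hf : JD f (WW a r e))
    {ε₀ : ℂ} (hε₀ : ε₀ ∈ BB a r e) {A : Set ℂ} (hA : ∃ᶠ z in 𝓝[≠] ε₀, z ∈ A)
    (h0 : ∀ ε ∈ A, ∀ t : ℝ, f t ε = 0) {x ε : ℂ} (hx : (x, ε) ∈ WW a r e) : f x ε = 0 := by
  refine hf.eq_zero_of_real (fun t => ?_) hx
  have h1 : DifferentiableOn ℂ (fun ε => f t ε) (BB a r e) :=
    hf.differentiableOn_e fun w hw => BB_real hw t
  have han : AnalyticOnNhd ℂ (fun ε => f t ε) (BB a r e) := h1.analyticOnNhd (isOpen_BB a r e)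
  have := han.eqOn_zero_of_preconnected_of_frequently_eq_zero (convex_BB ha).isPreconnected
    (z₀ := ε₀) hε₀ (hA.mono fun z hz => h0 z hz t)
  exact this (mem_BB hx)

/-- `0` is an accumulation point of the rational rotation numbers `1 / n` -/
theorem frequently_inv_nat {A : Set ℂ} {N : ℕ} (h : ∀ n : ℕ, N ≤ n → 0 < n → (1 / (n : ℂ)) ∈ A) :
    ∃ᶠ z in 𝓝[≠] (0 : ℂ), z ∈ A := by
  have h1 : Tendsto (fun n : ℕ => (1 / (n : ℂ))) atTop (𝓝[≠] (0 : ℂ)) := by
    rw [tendsto_nhdsWithin_iff]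
    refine ⟨?_, ?_⟩
    · exact tendsto_one_div_atTop_nhds_zero_nat
    · filter_upwards [eventually_gt_atTop 0] with n hn
      have : (n : ℂ) ≠ 0 := by exact_mod_cast hn.ne'
      simpa using this
  refine h1.frequently ?_
  apply Eventually.frequently
  filter_upwards [eventually_gt_atTop 0, eventually_ge_atTop N] with n hn hN using h n hN hn

/-! ## limits -/

/-- a sequence of jointly holomorphic functions with summable differences converges to a jointly
holomorphic function -/
theorem exists_limit {f : ℕ → ℂ → ℂ → ℂ} {S : Set (ℂ × ℂ)} {δ : ℕ → ℝ} (hS : IsOpen S)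
    (hf : ∀ j, JD (f j) S) (hδ : Summable δ)
    (hd : ∀ j, Bd (fun x ε => f (j + 1) x ε - f j x ε) (δ j) S) :
    ∃ g : ℂ → ℂ → ℂ, JD g S ∧
      (∀ x ε, (x, ε) ∈ S → Tendsto (fun j => f j x ε) atTop (𝓝 (g x ε))) ∧
      ∀ j, Bd (fun x ε => g x ε - f j x ε) (∑' i, δ (i + j)) S := by
  classical
  have hcau : ∀ x ε, (x, ε) ∈ S → CauchySeq fun j => f j x ε := fun x ε hx =>
    cauchySeq_of_dist_le_of_summable δ (fun j => by
      rw [dist_comm, dist_eq_norm]; exact hd j x ε hx) hδ
  have hex : ∀ p : ℂ × ℂ, ∃ w, p ∈ S → Tendsto (fun j => f j p.1 p.2) atTop (𝓝 w) := by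
    intro p
    by_cases hp : p ∈ S
    · obtain ⟨w, hw⟩ := cauchySeq_tendsto_of_complete (hcau p.1 p.2 hp)
      exact ⟨w, fun _ => hw⟩
    · exact ⟨0, fun h => absurd h hp⟩
  choose G hG using hex
  have hlim : ∀ x ε, (x, ε) ∈ S → Tendsto (fun j => f j x ε) atTop (𝓝 (G (x, ε))) :=
    fun x ε hx => hG (x, ε) hx
  have hbd : ∀ j, Bd (fun x ε => G (x, ε) - f j x ε) (∑' i, δ (i + j)) S := by
    intro j x ε hx
    have h1 := dist_le_tsum_of_dist_le_of_tendsto δ (f := fun j => f j x ε)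
      (fun n => by rw [dist_comm, dist_eq_norm]; exact hd n x ε hx) hδ (hlim x ε hx) j
    rw [dist_comm, dist_eq_norm] at h1
    simpa only [add_comm] using h1
  refine ⟨fun x ε => G (x, ε), ?_, hlim, hbd⟩
  have hunif : TendstoUniformlyOn (fun j (p : ℂ × ℂ) => f j p.1 p.2) G atTop S := by
    rw [Metric.tendstoUniformlyOn_iff]
    intro η hη
    have h1 : Tendsto (fun j => ∑' i, δ (i + j)) atTop (𝓝 0) := tendsto_sum_nat_add δ
    filter_upwards [h1.eventually (gt_mem_nhds hη)] with j hj p hp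
    rw [dist_eq_norm]
    exact lt_of_le_of_lt (hbd j p.1 p.2 hp) hj
  exact Vale.Agent.P250.H3.holo_of_tendstoLocallyUniformlyOn hS hf hunif.tendstoLocallyUniformlyOn

/-! ## division by powers of `ε` -/

/-- a function vanishing at `ε = 0` is divisible by `ε` -/
theorem exists_div_e {f : ℂ → ℂ → ℂ} {a r e : ℝ} (hf : JD f (WW a r e))
    (h0 : ∀ x : ℂ, |x.im| < r → f x 0 = 0) :
    ∃ g : ℂ → ℂ → ℂ, JD g (WW a r e) ∧ (∀ x ε, (x, ε) ∈ WW a r e → f x ε = ε * g x ε) ∧
      (∀ x, g x 0 = de f x 0) ∧ ∀ x ε, ε ≠ 0 → g x ε = f x ε / ε := by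
  classical
  have hO := isOpen_WW a r e
  set g : ℂ → ℂ → ℂ := fun x ε => if ε = 0 then de f x 0 else f x ε / ε with hg
  refine ⟨g, ?_, ?_, fun x => by simp [hg], fun x ε h => by simp [hg, h]⟩
  · rintro ⟨x, ε⟩ hx
    apply DifferentiableAt.differentiableWithinAt
    by_cases hε : ε = 0
    · subst hε
      -- a polydisc around `(x, 0)`
      obtain ⟨ρ, hρ, hsub⟩ : ∃ ρ > 0, ball (x, (0 : ℂ)) (3 * ρ) ⊆ WW a r e := by
        obtain ⟨ρ, hρ, h⟩ := Metric.isOpen_iff.1 hO _ hx
        exact ⟨ρ / 3, by positivity, by rwa [mul_div_cancel₀ _ (by norm_num : (3 : ℝ) ≠ 0)]⟩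
      have hmem : ∀ y w : ℂ, ‖y - x‖ < 3 * ρ → ‖w‖ < 3 * ρ → (y, w) ∈ WW a r e := by
        intro y w hy hw
        apply hsub
        rw [mem_ball, Prod.dist_eq, max_lt_iff]
        simp only [dist_eq_norm, sub_zero]
        exact ⟨hy, hw⟩
      set U : Set (ℂ × ℂ) := ball x ρ ×ˢ ball (0 : ℂ) ρ with hU
      set W : Set ℂ := {w | ρ < ‖w‖ ∧ ‖w‖ < 3 * ρ} with hW
      have hUo : IsOpen U := isOpen_ball.prod isOpen_ball
      have hWo : IsOpen W := (isOpen_lt continuous_const continuous_norm).inter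
        (isOpen_lt continuous_norm continuous_const)
      have hsW : sphere (0 : ℂ) (2 * ρ) ⊆ W := by
        intro w hw
        rw [mem_sphere_zero_iff_norm] at hw
        exact ⟨by rw [hw]; linarith, by rw [hw]; linarith⟩
      have hGd : DifferentiableOn ℂ (fun q : (ℂ × ℂ) × ℂ =>
          f q.1.1 q.2 / (q.2 * (q.2 - q.1.2))) (U ×ˢ W) := by
        rintro ⟨⟨y, v⟩, w⟩ ⟨⟨hy, hv⟩, hw1, hw2⟩
        apply DifferentiableAt.differentiableWithinAt
        simp only [mem_ball, dist_eq_norm, sub_zero] at hy hv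
        have hyw : (y, w) ∈ WW a r e := hmem y w (by linarith) hw2
        have h1 : DifferentiableAt ℂ (fun q : (ℂ × ℂ) × ℂ => f q.1.1 q.2) ((y, v), w) := by
          have h2 : DifferentiableAt ℂ (fun q : (ℂ × ℂ) × ℂ => (q.1.1, q.2)) ((y, v), w) := by
            fun_prop
          exact DifferentiableAt.comp (g := fun p : ℂ × ℂ => f p.1 p.2)
            (f := fun q : (ℂ × ℂ) × ℂ => (q.1.1, q.2)) ((y, v), w) (hf.at hO hyw) h2
        have hw0 : w ≠ 0 := by
          intro h; simp only [h, norm_zero] at hw1; linarith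
        have hwv : w - v ≠ 0 := by
          intro h
          have : w = v := sub_eq_zero.1 h
          rw [this] at hw1
          linarith
        have h3 : DifferentiableAt ℂ (fun q : (ℂ × ℂ) × ℂ => q.2 * (q.2 - q.1.2)) ((y, v), w) := by
          fun_prop
        exact (h1.mul (h3.inv (mul_ne_zero hw0 hwv))).congr_of_eventuallyEq
          (Eventually.of_forall fun q => by simp [div_eq_mul_inv])
      have hI := Vale.Agent.P268.differentiableOn_circleIntegral (c := 0) (R := 2 * ρ)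
        (by positivity) hUo hWo hsW hGd
      have hI2 : DifferentiableAt ℂ (fun p : ℂ × ℂ => (2 * Real.pi * Complex.I : ℂ)⁻¹ •
          ∮ t in C(0, 2 * ρ), f p.1 t / (t * (t - p.2))) (x, 0) :=
        (hI.differentiableAt (hUo.mem_nhds (show (x, (0 : ℂ)) ∈ U from
          ⟨mem_ball_self hρ, mem_ball_self hρ⟩))).const_smul (2 * Real.pi * Complex.I : ℂ)⁻¹
      refine hI2.congr_of_eventuallyEq ?_
      filter_upwards [hUo.mem_nhds (show (x, (0 : ℂ)) ∈ U from
        ⟨mem_ball_self hρ, mem_ball_self hρ⟩)] with p hp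
      obtain ⟨y, v⟩ := p
      obtain ⟨hy, hv⟩ := hp
      simp only [mem_ball, dist_eq_norm, sub_zero] at hy hv
      have hd : DifferentiableOn ℂ (fun w => f y w) (ball 0 (3 * ρ)) :=
        hf.differentiableOn_e fun w hw => hmem y w (by linarith) (by simpa using hw)
      have hdc : DiffContOnCl ℂ (fun w => f y w) (ball 0 (2 * ρ)) :=
        (hd.mono (closedBall_subset_ball (by linarith))).diffContOnCl_ball (le_refl _)
      have hpos : (0 : ℝ) < 2 * ρ := by positivity
      have hy0 : f y 0 = 0 := by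
        apply h0
        have := (hmem y 0 (by linarith) (by simpa using by positivity)).2
        simpa using this
      simp only [hg]
      by_cases hv0 : v = 0
      · subst hv0
        rw [if_pos rfl]
        have := hdc.deriv_eq_smul_circleIntegral hpos
        have hpi : (2 * Real.pi * Complex.I : ℂ) ≠ 0 := by
          simp [Real.pi_ne_zero, Complex.I_ne_zero]
        have h5 : ∮ t in C(0, 2 * ρ), f y t / (t * (t - 0)) =
            (2 * Real.pi * Complex.I : ℂ) • deriv (fun w => f y w) 0 := by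
          rw [← this]
          refine circleIntegral.integral_congr hpos.le fun t ht => ?_
          simp only [sub_zero, smul_eq_mul]
          rw [div_eq_mul_inv, mul_comm, one_div, pow_two]
        rw [h5, smul_smul, inv_mul_cancel₀ hpi, one_smul]
        rfl
      · rw [if_neg hv0]
        have hvb : v ∈ ball (0 : ℂ) (2 * ρ) := by simp; linarith
        have e1 := hdc.circleIntegral_sub_inv_smul hvb
        have e2 := hdc.circleIntegral_sub_inv_smul (mem_ball_self hpos)
        rw [hy0, smul_zero] at e2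
        have hci : ∀ u ∈ ball (0 : ℂ) (2 * ρ), CircleIntegrable (fun z => (z - u)⁻¹ • f y z) 0 (2 * ρ) := by
          intro u hu
          apply ContinuousOn.circleIntegrable hpos.le
          refine ContinuousOn.smul (f := fun z => (z - u)⁻¹) (g := fun z => f y z) ?_ ?_
          · apply ContinuousOn.inv₀ (by fun_prop)
            intro z hz h
            rw [sub_eq_zero] at h
            subst h
            rw [mem_sphere_zero_iff_norm] at hz
            rw [mem_ball_zero_iff] at hu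
            linarith
          · exact hd.continuousOn.mono (sphere_subset_closedBall.trans
              (closedBall_subset_ball (by linarith)))
        have e3 : (∮ t in C(0, 2 * ρ), (t - v)⁻¹ • f y t) - (∮ t in C(0, 2 * ρ), (t - 0)⁻¹ • f y t)
            = v * ∮ t in C(0, 2 * ρ), f y t / (t * (t - v)) := by
          rw [← circleIntegral.integral_sub (hci v hvb) (hci 0 (mem_ball_self hpos)),
            ← smul_eq_mul v, ← circleIntegral.integral_smul]
          refine circleIntegral.integral_congr hpos.le fun t ht => ?_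
          rw [mem_sphere_zero_iff_norm] at ht
          have ht0 : t ≠ 0 := by
            intro h; rw [h, norm_zero] at ht; linarith
          have htv : t - v ≠ 0 := by
            intro h
            rw [sub_eq_zero] at h
            rw [h] at ht
            linarith
          simp only [smul_eq_mul, sub_zero]
          field_simp
          ring
        rw [e1, e2, sub_zero] at e3
        have hpi : (2 * Real.pi * Complex.I : ℂ) ≠ 0 := by
          simp [Real.pi_ne_zero, Complex.I_ne_zero]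
        rw [smul_eq_mul] at e3 ⊢
        field_simp
        linear_combination e3
    · have h1 : DifferentiableAt ℂ (fun p : ℂ × ℂ => f p.1 p.2 * p.2⁻¹) (x, ε) :=
        (hf.at hO hx).mul (differentiableAt_snd.inv hε)
      refine h1.congr_of_eventuallyEq ?_
      have hc : ContinuousAt (fun p : ℂ × ℂ => p.2) (x, ε) := continuous_snd.continuousAt
      filter_upwards [hc.eventually_ne hε] with p hp
      simp [hg, hp, div_eq_mul_inv]
  · intro x ε hx
    by_cases hε : ε = 0
    · subst hε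
      rw [zero_mul]
      exact h0 x (by simpa using hx.2)
    · simp [hg, hε, mul_div_cancel₀]

/-- bound of the quotient by `ε ^ k` -/
theorem Bd.div_pow {f g : ℂ → ℂ → ℂ} {a r e r' δ M : ℝ} {k : ℕ} (ha : 0 ≤ a)
    (hg : JD g (WW a r e)) (hfg : ∀ x ε, (x, ε) ∈ WW a r e → f x ε = ε ^ k * g x ε)
    (hM : Bd f M (WW a r e)) (hδ : 0 < δ) (h1 : δ < e) (h2 : a * δ ≤ r - r') (hr : r' ≤ r) :
    Bd g (M / δ ^ k) (WW a r' e) := by
  intro x ε hx
  have hxr : (x, ε) ∈ WW a r e := WW_mono le_rfl hr le_rfl hx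
  have hbig : ∀ w : ℂ, (x, w) ∈ WW a r e → δ ≤ ‖w‖ → ‖g x w‖ ≤ M / δ ^ k := by
    intro w hw hwδ
    have h3 := hM x w hw
    rw [hfg x w hw, norm_mul, norm_pow] at h3
    rw [le_div_iff₀ (by positivity)]
    have h4 : δ ^ k ≤ ‖w‖ ^ k := pow_le_pow_left₀ hδ.le hwδ k
    nlinarith [norm_nonneg (g x w)]
  by_cases hεδ : δ ≤ ‖ε‖
  · exact hbig ε hxr hεδ
  · have hin : ∀ w : ℂ, ‖w‖ ≤ δ → (x, w) ∈ WW a r e := by
      intro w hw
      have h3 : |x.im| + a * |ε.im| < r' := hx.2
      have h4 : |w.im| ≤ δ := (Complex.abs_im_le_norm w).trans hw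
      have h5 := mul_le_mul_of_nonneg_left h4 ha
      have h6 := mul_nonneg ha (abs_nonneg ε.im)
      exact ⟨lt_of_le_of_lt hw h1, by simp only; linarith⟩
    have hd : DifferentiableOn ℂ (fun w => g x w) (closedBall 0 δ) :=
      hg.differentiableOn_e fun w hw => hin w (by simpa using hw)
    have hmax := Complex.norm_le_of_forall_mem_frontier_norm_le (f := fun w => g x w)
      (U := ball (0 : ℂ) δ) isBounded_ball (hd.diffContOnCl_ball (le_refl _)) (C := M / δ ^ k)
      (fun w hw => by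
        rw [frontier_ball (0 : ℂ) hδ.ne', mem_sphere_zero_iff_norm] at hw
        exact hbig w (hin w hw.le) hw.ge) (z := ε) ?_
    · exact hmax
    · apply subset_closure
      rw [mem_ball_zero_iff]
      exact lt_of_not_ge hεδ

/-- Schwarz-type bound -/
theorem Bd.pow_bound {f g : ℂ → ℂ → ℂ} {a r e r' δ M : ℝ} {k : ℕ} (ha : 0 ≤ a)
    (hg : JD g (WW a r e)) (hfg : ∀ x ε, (x, ε) ∈ WW a r e → f x ε = ε ^ k * g x ε)
    (hM : Bd f M (WW a r e)) (hδ : 0 < δ) (h1 : δ < e) (h2 : a * δ ≤ r - r') (hr : r' ≤ r)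
    {x ε : ℂ} (hx : (x, ε) ∈ WW a r' e) : ‖f x ε‖ ≤ M * (‖ε‖ / δ) ^ k := by
  have h3 := Bd.div_pow ha hg hfg hM hδ h1 h2 hr x ε hx
  rw [hfg x ε (WW_mono le_rfl hr le_rfl hx), norm_mul, norm_pow]
  calc ‖ε‖ ^ k * ‖g x ε‖ ≤ ‖ε‖ ^ k * (M / δ ^ k) := by gcongr
    _ = M * (‖ε‖ / δ) ^ k := by rw [_root_.div_pow]; ring

end Vale.Agent.P097.TA
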