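import Vale.Agent.P097.H900.Defs
import Vale.Agent.P268.Hol

/-! # P097 / Theorem A / THMA-TOOLS, part 1: domains, joint holomorphy, derivatives, Cauchy bounds -/

set_option linter.all false

open scoped ComplexConjugate Topology
open Filter Metric

namespace Vale.Agent.P097.TA

/-! ## the domains `WW` -/

theorem mem_WW {a r e : ℝ} {x ε : ℂ} :
    (x, ε) ∈ WW a r e ↔ ‖ε‖ < e ∧ |x.im| + a * |ε.im| < r := Iff.rfl

theorem isOpen_WW (a r e : ℝ) : IsOpen (WW a r e) := by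
  have h1 : Continuous fun p : ℂ × ℂ => ‖p.2‖ := by fun_prop
  have h2 : Continuous fun p : ℂ × ℂ => |p.1.im| + a * |p.2.im| :=
    ((Complex.continuous_im.comp continuous_fst).abs).add
      (continuous_const.mul ((Complex.continuous_im.comp continuous_snd).abs))
  exact (isOpen_lt h1 continuous_const).inter (isOpen_lt h2 continuous_const)

theorem WW_mono {a a' r r' e e' : ℝ} (ha : a ≤ a') (hr : r' ≤ r) (he : e' ≤ e) :
    WW a' r' e' ⊆ WW a r e := by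
  rintro ⟨x, ε⟩ ⟨h1, h2⟩
  refine ⟨lt_of_lt_of_le h1 he, ?_⟩
  have : a * |ε.im| ≤ a' * |ε.im| := mul_le_mul_of_nonneg_right ha (abs_nonneg _)
  simp only at *
  linarith

theorem convex_WW {a r e : ℝ} (ha : 0 ≤ a) : Convex ℝ (WW a r e) := by
  rintro ⟨x, ε⟩ ⟨h1, h2⟩ ⟨y, δ⟩ ⟨h3, h4⟩ s t hs ht hst
  simp only at h1 h2 h3 h4
  refine ⟨?_, ?_⟩
  · simp only [Prod.smul_mk, Prod.mk_add_mk]
    have : ‖s • ε + t • δ‖ ≤ s * ‖ε‖ + t * ‖δ‖ := by
      refine (norm_add_le _ _).trans ?_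
      rw [norm_smul, norm_smul, Real.norm_of_nonneg hs, Real.norm_of_nonneg ht]
    rcases hs.eq_or_lt with rfl | hs'
    · have : t = 1 := by linarith
      subst this; simpa using h3
    · have h5 : s * e + t * e = e := by rw [← add_mul, hst, one_mul]
      nlinarith [mul_lt_mul_of_pos_left h1 hs', mul_le_mul_of_nonneg_left h3.le ht]
  · simp only [Prod.smul_mk, Prod.mk_add_mk, Complex.add_im, Complex.smul_im, smul_eq_mul]
    have e1 : |s * x.im + t * y.im| ≤ s * |x.im| + t * |y.im| := by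
      refine (abs_add_le _ _).trans ?_
      rw [abs_mul, abs_mul, abs_of_nonneg hs, abs_of_nonneg ht]
    have e2 : |s * ε.im + t * δ.im| ≤ s * |ε.im| + t * |δ.im| := by
      refine (abs_add_le _ _).trans ?_
      rw [abs_mul, abs_mul, abs_of_nonneg hs, abs_of_nonneg ht]
    have e3 := mul_le_mul_of_nonneg_left e2 ha
    rcases hs.eq_or_lt with rfl | hs'
    · have : t = 1 := by linarith
      subst this; simpa using h4
    · have h5 : s * r + t * r = r := by rw [← add_mul, hst, one_mul]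
      nlinarith [mul_lt_mul_of_pos_left h2 hs', mul_le_mul_of_nonneg_left h4.le ht]

theorem WW_shift {a r e s : ℝ} {x ε : ℂ} (h : (x, ε) ∈ WW (a + |s|) r e) :
    (x + s * ε, ε) ∈ WW a r e := by
  refine ⟨h.1, ?_⟩
  have h2 : |x.im| + (a + |s|) * |ε.im| < r := h.2
  have : |(x + s * ε).im| ≤ |x.im| + |s| * |ε.im| := by
    have : (x + s * ε).im = x.im + s * ε.im := by simp
    rw [this]
    refine (abs_add_le _ _).trans ?_
    rw [abs_mul]
  simp only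
  nlinarith [abs_nonneg ε.im]

theorem WW_add_half {a r e : ℝ} {x ε : ℂ} (h : (x, ε) ∈ WW (a + 1 / 2) r e) :
    (x + ε / 2, ε) ∈ WW a r e := by
  have := WW_shift (a := a) (s := 1 / 2) (x := x) (ε := ε) (r := r) (e := e)
    (by rwa [abs_of_pos (by norm_num : (0 : ℝ) < 1 / 2)])
  convert this using 2
  push_cast; ring

theorem WW_sub_half {a r e : ℝ} {x ε : ℂ} (h : (x, ε) ∈ WW (a + 1 / 2) r e) :
    (x - ε / 2, ε) ∈ WW a r e := by
  have := WW_shift (a := a) (s := -(1 / 2)) (x := x) (ε := ε) (r := r) (e := e)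
    (by rwa [abs_neg, abs_of_pos (by norm_num : (0 : ℝ) < 1 / 2)])
  convert this using 2
  push_cast; ring

theorem WW_add {a r e : ℝ} {x ε : ℂ} (h : (x, ε) ∈ WW (a + 1) r e) :
    (x + ε, ε) ∈ WW a r e := by
  have := WW_shift (a := a) (s := 1) (x := x) (ε := ε) (r := r) (e := e)
    (by rwa [abs_one])
  convert this using 2
  push_cast; ring

theorem WW_sub {a r e : ℝ} {x ε : ℂ} (h : (x, ε) ∈ WW (a + 1) r e) :
    (x - ε, ε) ∈ WW a r e := by
  have := WW_shift (a := a) (s := -1) (x := x) (ε := ε) (r := r) (e := e)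
    (by rwa [abs_neg, abs_one])
  convert this using 2
  push_cast; ring

theorem WW_real {a r e : ℝ} {x ε : ℂ} (h : (x, ε) ∈ WW a r e) (t : ℝ) :
    (x + t, ε) ∈ WW a r e := by
  refine ⟨h.1, ?_⟩
  have : (x + t).im = x.im := by simp
  simpa [this] using h.2

theorem WW_one {a r e : ℝ} {x ε : ℂ} (h : (x, ε) ∈ WW a r e) : (x + 1, ε) ∈ WW a r e := by
  simpa using WW_real h 1

theorem WW_neg {a r e : ℝ} {x ε : ℂ} (h : (x, ε) ∈ WW a r e) : (x, -ε) ∈ WW a r e := by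
  refine ⟨by simpa using h.1, ?_⟩
  simpa using h.2

theorem WW_negx {a r e : ℝ} {x ε : ℂ} (h : (x, ε) ∈ WW a r e) : (-x, ε) ∈ WW a r e := by
  refine ⟨by simpa using h.1, ?_⟩
  simpa using h.2

theorem WW_conj {a r e : ℝ} {x ε : ℂ} (h : (x, ε) ∈ WW a r e) : (conj x, conj ε) ∈ WW a r e := by
  refine ⟨by simpa using h.1, ?_⟩
  simpa using h.2

/-- real phases -/
theorem WW_ofReal {a r e : ℝ} {x ε : ℂ} (h : (x, ε) ∈ WW a r e) (t : ℝ) :
    ((t : ℂ), ε) ∈ WW a r e := by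
  refine ⟨h.1, ?_⟩
  have h2 : |x.im| + a * |ε.im| < r := h.2
  have := abs_nonneg x.im
  simp only [Complex.ofReal_im, abs_zero]
  linarith

/-- phase with smaller imaginary part -/
theorem WW_of_im_le {a r e : ℝ} {x y ε : ℂ} (h : (x, ε) ∈ WW a r e) (hy : |y.im| ≤ |x.im|) :
    (y, ε) ∈ WW a r e := by
  refine ⟨h.1, ?_⟩
  have h2 : |x.im| + a * |ε.im| < r := h.2
  simp only
  linarith

theorem WW_ball_x {a r r' e : ℝ} {x ε ζ : ℂ} (h : (x, ε) ∈ WW a r' e) (hζ : ‖ζ‖ ≤ r - r') :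
    (x + ζ, ε) ∈ WW a r e := by
  refine ⟨h.1, ?_⟩
  have h2 : |x.im| + a * |ε.im| < r' := h.2
  have h3 : |(x + ζ).im| ≤ |x.im| + ‖ζ‖ := by
    rw [Complex.add_im]
    exact (abs_add_le _ _).trans (add_le_add le_rfl (Complex.abs_im_le_norm ζ))
  simp only
  linarith

theorem WW_ball_e {a r r' e e' δ : ℝ} {x ε ζ : ℂ} (ha : 0 ≤ a) (h : (x, ε) ∈ WW a r' e')
    (hζ : ‖ζ‖ ≤ δ) (h1 : δ ≤ e - e') (h2 : a * δ ≤ r - r') :
    (x, ε + ζ) ∈ WW a r e := by
  have hA : ‖ε‖ < e' := h.1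
  have hB : |x.im| + a * |ε.im| < r' := h.2
  refine ⟨?_, ?_⟩
  · have := norm_add_le ε ζ
    simp only
    linarith
  · have h3 : |(ε + ζ).im| ≤ |ε.im| + δ := by
      rw [Complex.add_im]
      exact (abs_add_le _ _).trans (add_le_add le_rfl ((Complex.abs_im_le_norm ζ).trans hζ))
    have := mul_le_mul_of_nonneg_left h3 ha
    simp only
    nlinarith

/-! ## `Bd`, `Per` -/

theorem Bd.mono {f : ℂ → ℂ → ℂ} {M M' : ℝ} {S T : Set (ℂ × ℂ)} (h : Bd f M S) (hM : M ≤ M')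
    (hS : T ⊆ S) : Bd f M' T := fun x ε hx => (h x ε (hS hx)).trans hM

theorem Bd.add {f g : ℂ → ℂ → ℂ} {M N : ℝ} {S : Set (ℂ × ℂ)} (hf : Bd f M S) (hg : Bd g N S) :
    Bd (fun x ε => f x ε + g x ε) (M + N) S := fun x ε hx =>
  (norm_add_le _ _).trans (add_le_add (hf x ε hx) (hg x ε hx))

theorem Bd.sub {f g : ℂ → ℂ → ℂ} {M N : ℝ} {S : Set (ℂ × ℂ)} (hf : Bd f M S) (hg : Bd g N S) :
    Bd (fun x ε => f x ε - g x ε) (M + N) S := fun x ε hx =>
  (norm_sub_le _ _).trans (add_le_add (hf x ε hx) (hg x ε hx))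

theorem Bd.neg {f : ℂ → ℂ → ℂ} {M : ℝ} {S : Set (ℂ × ℂ)} (hf : Bd f M S) :
    Bd (fun x ε => -f x ε) M S := fun x ε hx => by simpa using hf x ε hx

theorem Bd.mul {f g : ℂ → ℂ → ℂ} {M N : ℝ} {S : Set (ℂ × ℂ)} (hf : Bd f M S) (hg : Bd g N S)
    (hM : 0 ≤ M) : Bd (fun x ε => f x ε * g x ε) (M * N) S := fun x ε hx => by
  rw [norm_mul]
  exact mul_le_mul (hf x ε hx) (hg x ε hx) (norm_nonneg _) hM

theorem Per.add {f g : ℂ → ℂ → ℂ} {S : Set (ℂ × ℂ)} (hf : Per f S) (hg : Per g S) :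
    Per (fun x ε => f x ε + g x ε) S := fun x ε hx => by simp only [hf x ε hx, hg x ε hx]

theorem Per.sub {f g : ℂ → ℂ → ℂ} {S : Set (ℂ × ℂ)} (hf : Per f S) (hg : Per g S) :
    Per (fun x ε => f x ε - g x ε) S := fun x ε hx => by simp only [hf x ε hx, hg x ε hx]

theorem Per.mul {f g : ℂ → ℂ → ℂ} {S : Set (ℂ × ℂ)} (hf : Per f S) (hg : Per g S) :
    Per (fun x ε => f x ε * g x ε) S := fun x ε hx => by simp only [hf x ε hx, hg x ε hx]

theorem Per.neg {f : ℂ → ℂ → ℂ} {S : Set (ℂ × ℂ)} (hf : Per f S) :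
    Per (fun x ε => -f x ε) S := fun x ε hx => by simp only [hf x ε hx]

theorem Per.div {f g : ℂ → ℂ → ℂ} {S : Set (ℂ × ℂ)} (hf : Per f S) (hg : Per g S) :
    Per (fun x ε => f x ε / g x ε) S := fun x ε hx => by simp only [hf x ε hx, hg x ε hx]

theorem Per.mono {f : ℂ → ℂ → ℂ} {S T : Set (ℂ × ℂ)} (hf : Per f S) (h : T ⊆ S) : Per f T :=
  fun x ε hx => hf x ε (h hx)

/-! ## `JD` -/

section JDsec
variable {f g : ℂ → ℂ → ℂ} {S T : Set (ℂ × ℂ)}

theorem JD.mono (hf : JD f S) (h : T ⊆ S) : JD f T := DifferentiableOn.mono hf h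

theorem JD.at (hf : JD f S) (hS : IsOpen S) {x ε : ℂ} (hx : (x, ε) ∈ S) :
    DifferentiableAt ℂ (fun p : ℂ × ℂ => f p.1 p.2) (x, ε) :=
  DifferentiableOn.differentiableAt hf (hS.mem_nhds hx)

theorem JD.congr (hf : JD f S) (h : ∀ x ε, (x, ε) ∈ S → g x ε = f x ε) : JD g S :=
  DifferentiableOn.congr hf fun p hp => h p.1 p.2 hp

theorem JD.const (c : ℂ) : JD (fun _ _ => c) S := differentiableOn_const _

theorem JD.fst : JD (fun x _ => x) S := differentiable_fst.differentiableOn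

theorem JD.snd : JD (fun _ ε => ε) S := differentiable_snd.differentiableOn

theorem JD.add (hf : JD f S) (hg : JD g S) : JD (fun x ε => f x ε + g x ε) S :=
  DifferentiableOn.add hf hg

theorem JD.sub (hf : JD f S) (hg : JD g S) : JD (fun x ε => f x ε - g x ε) S :=
  DifferentiableOn.sub hf hg

theorem JD.neg (hf : JD f S) : JD (fun x ε => -f x ε) S := DifferentiableOn.neg hf

theorem JD.mul (hf : JD f S) (hg : JD g S) : JD (fun x ε => f x ε * g x ε) S :=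
  DifferentiableOn.mul hf hg

theorem JD.const_mul (c : ℂ) (hf : JD f S) : JD (fun x ε => c * f x ε) S :=
  DifferentiableOn.const_mul hf c

theorem JD.pow (hf : JD f S) (n : ℕ) : JD (fun x ε => f x ε ^ n) S :=
  DifferentiableOn.pow hf n

theorem JD.inv (hg : JD g S) (h0 : ∀ x ε, (x, ε) ∈ S → g x ε ≠ 0) :
    JD (fun x ε => (g x ε)⁻¹) S :=
  DifferentiableOn.inv hg fun p hp => h0 p.1 p.2 hp

theorem JD.div (hf : JD f S) (hg : JD g S) (h0 : ∀ x ε, (x, ε) ∈ S → g x ε ≠ 0) :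
    JD (fun x ε => f x ε / g x ε) S :=
  (hf.mul (hg.inv h0)).congr fun x ε _ => by rw [div_eq_mul_inv]

/-- substitution of a pair of holomorphic functions -/
theorem JD.comp {F : ℂ → ℂ → ℂ} (hF : JD F T) (hf : JD f S) (hg : JD g S)
    (h : ∀ x ε, (x, ε) ∈ S → (f x ε, g x ε) ∈ T) : JD (fun x ε => F (f x ε) (g x ε)) S := by
  have h1 : DifferentiableOn ℂ (fun p : ℂ × ℂ => (f p.1 p.2, g p.1 p.2)) S :=
    DifferentiableOn.prodMk hf hg
  exact DifferentiableOn.comp hF h1 fun p hp => h p.1 p.2 hp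

theorem JD.comp_snd {u : ℂ → ℂ} {U : Set ℂ} (hu : DifferentiableOn ℂ u U)
    (h : ∀ x ε, (x, ε) ∈ S → ε ∈ U) : JD (fun _ ε => u ε) S :=
  hu.comp differentiableOn_snd fun p hp => h p.1 p.2 hp

theorem JD.comp_one {u : ℂ → ℂ} {U : Set ℂ} (hu : DifferentiableOn ℂ u U) (hf : JD f S)
    (h : ∀ x ε, (x, ε) ∈ S → f x ε ∈ U) : JD (fun x ε => u (f x ε)) S :=
  DifferentiableOn.comp hu hf fun p hp => h p.1 p.2 hp

theorem JD.continuousOn (hf : JD f S) : ContinuousOn (fun p : ℂ × ℂ => f p.1 p.2) S :=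
  DifferentiableOn.continuousOn hf

end JDsec

theorem JD.shift {f : ℂ → ℂ → ℂ} {a r e : ℝ} (hf : JD f (WW a r e)) (s : ℝ) :
    JD (fun x ε => f (x + s * ε) ε) (WW (a + |s|) r e) :=
  JD.comp (f := fun x ε => x + s * ε) (g := fun _ ε => ε) hf (JD.fst.add (JD.const_mul _ JD.snd))
    JD.snd fun _ _ h => WW_shift h

theorem JD.add_half {f : ℂ → ℂ → ℂ} {a r e : ℝ} (hf : JD f (WW a r e)) :
    JD (fun x ε => f (x + ε / 2) ε) (WW (a + 1 / 2) r e) :=
  JD.comp (f := fun x ε => x + ε / 2) (g := fun _ ε => ε) hf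
    (JD.fst.add (JD.snd.div (JD.const 2) fun _ _ _ => two_ne_zero)) JD.snd fun _ _ h => WW_add_half h

theorem JD.sub_half {f : ℂ → ℂ → ℂ} {a r e : ℝ} (hf : JD f (WW a r e)) :
    JD (fun x ε => f (x - ε / 2) ε) (WW (a + 1 / 2) r e) :=
  JD.comp (f := fun x ε => x - ε / 2) (g := fun _ ε => ε) hf
    (JD.fst.sub (JD.snd.div (JD.const 2) fun _ _ _ => two_ne_zero)) JD.snd fun _ _ h => WW_sub_half h

theorem JD.Dl {f : ℂ → ℂ → ℂ} {a r e : ℝ} (hf : JD f (WW a r e)) :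
    JD (Dl f) (WW (a + 1 / 2) r e) := hf.add_half.sub hf.sub_half

/-- centred average -/
noncomputable def Av (f : ℂ → ℂ → ℂ) (x ε : ℂ) : ℂ := (f (x + ε / 2) ε + f (x - ε / 2) ε) / 2

theorem JD.Av {f : ℂ → ℂ → ℂ} {a r e : ℝ} (hf : JD f (WW a r e)) :
    JD (Av f) (WW (a + 1 / 2) r e) :=
  (hf.add_half.add hf.sub_half).div (JD.const 2) fun _ _ _ => two_ne_zero

theorem Bd.Dl {f : ℂ → ℂ → ℂ} {a r e M : ℝ} (hf : Bd f M (WW a r e)) :
    Bd (Dl f) (2 * M) (WW (a + 1 / 2) r e) := fun x ε hx => by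
  have := (norm_sub_le (f (x + ε / 2) ε) (f (x - ε / 2) ε)).trans
    (add_le_add (hf _ _ (WW_add_half hx)) (hf _ _ (WW_sub_half hx)))
  rw [two_mul]
  exact this

theorem Bd.Av {f : ℂ → ℂ → ℂ} {a r e M : ℝ} (hf : Bd f M (WW a r e)) :
    Bd (Av f) M (WW (a + 1 / 2) r e) := fun x ε hx => by
  have h := (norm_add_le (f (x + ε / 2) ε) (f (x - ε / 2) ε)).trans
    (add_le_add (hf _ _ (WW_add_half hx)) (hf _ _ (WW_sub_half hx)))
  unfold TA.Av
  rw [norm_div, Complex.norm_ofNat]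
  linarith

theorem Per.Dl {f : ℂ → ℂ → ℂ} {a r e : ℝ} (hf : Per f (WW a r e)) :
    Per (Dl f) (WW (a + 1 / 2) r e) := fun x ε hx => by
  unfold TA.Dl
  rw [show x + 1 + ε / 2 = x + ε / 2 + 1 by ring, show x + 1 - ε / 2 = x - ε / 2 + 1 by ring,
    hf _ _ (WW_add_half hx), hf _ _ (WW_sub_half hx)]

theorem Per.Av {f : ℂ → ℂ → ℂ} {a r e : ℝ} (hf : Per f (WW a r e)) :
    Per (Av f) (WW (a + 1 / 2) r e) := fun x ε hx => by
  unfold TA.Av
  rw [show x + 1 + ε / 2 = x + ε / 2 + 1 by ring, show x + 1 - ε / 2 = x - ε / 2 + 1 by ring,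
    hf _ _ (WW_add_half hx), hf _ _ (WW_sub_half hx)]

/-! ## derivatives -/

section Der
variable {f g : ℂ → ℂ → ℂ} {S : Set (ℂ × ℂ)}

theorem JD.hasFDerivAt (hf : JD f S) (hS : IsOpen S) {x ε : ℂ} (hx : (x, ε) ∈ S) :
    HasFDerivAt (fun p : ℂ × ℂ => f p.1 p.2)
      (fderiv ℂ (fun p : ℂ × ℂ => f p.1 p.2) (x, ε)) (x, ε) := (hf.at hS hx).hasFDerivAt

theorem JD.hasDerivAt_x' (hf : JD f S) (hS : IsOpen S) {x ε : ℂ} (hx : (x, ε) ∈ S) :
    HasDerivAt (fun t => f t ε) (fderiv ℂ (fun p : ℂ × ℂ => f p.1 p.2) (x, ε) (1, 0)) x := by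
  have h1 : HasDerivAt (fun t : ℂ => (t, ε)) ((1 : ℂ), (0 : ℂ)) x :=
    (hasDerivAt_id x).prodMk (hasDerivAt_const x ε)
  exact (hf.hasFDerivAt hS hx).comp_hasDerivAt x h1

theorem JD.hasDerivAt_e' (hf : JD f S) (hS : IsOpen S) {x ε : ℂ} (hx : (x, ε) ∈ S) :
    HasDerivAt (fun t => f x t) (fderiv ℂ (fun p : ℂ × ℂ => f p.1 p.2) (x, ε) (0, 1)) ε := by
  have h1 : HasDerivAt (fun t : ℂ => (x, t)) ((0 : ℂ), (1 : ℂ)) ε :=
    (hasDerivAt_const ε x).prodMk (hasDerivAt_id ε)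
  exact (hf.hasFDerivAt hS hx).comp_hasDerivAt ε h1

theorem JD.dx_eq (hf : JD f S) (hS : IsOpen S) {x ε : ℂ} (hx : (x, ε) ∈ S) :
    dx f x ε = fderiv ℂ (fun p : ℂ × ℂ => f p.1 p.2) (x, ε) (1, 0) :=
  (hf.hasDerivAt_x' hS hx).deriv

theorem JD.de_eq (hf : JD f S) (hS : IsOpen S) {x ε : ℂ} (hx : (x, ε) ∈ S) :
    de f x ε = fderiv ℂ (fun p : ℂ × ℂ => f p.1 p.2) (x, ε) (0, 1) :=
  (hf.hasDerivAt_e' hS hx).deriv

theorem JD.hasDerivAt_x (hf : JD f S) (hS : IsOpen S) {x ε : ℂ} (hx : (x, ε) ∈ S) :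
    HasDerivAt (fun t => f t ε) (dx f x ε) x := by
  rw [hf.dx_eq hS hx]; exact hf.hasDerivAt_x' hS hx

theorem JD.hasDerivAt_e (hf : JD f S) (hS : IsOpen S) {x ε : ℂ} (hx : (x, ε) ∈ S) :
    HasDerivAt (fun t => f x t) (de f x ε) ε := by
  rw [hf.de_eq hS hx]; exact hf.hasDerivAt_e' hS hx

theorem JD.fderiv_apply (hf : JD f S) (hS : IsOpen S) {x ε : ℂ} (hx : (x, ε) ∈ S) (u v : ℂ) :
    fderiv ℂ (fun p : ℂ × ℂ => f p.1 p.2) (x, ε) (u, v) = dx f x ε * u + de f x ε * v := by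
  rw [hf.dx_eq hS hx, hf.de_eq hS hx]
  have : ((u, v) : ℂ × ℂ) = u • ((1 : ℂ), (0 : ℂ)) + v • ((0 : ℂ), (1 : ℂ)) := by simp
  rw [this, map_add, map_smul, map_smul]
  simp only [smul_eq_mul]
  ring

theorem JD.dx (hf : JD f S) (hS : IsOpen S) : JD (dx f) S := by
  refine DifferentiableOn.congr (Vale.Agent.P268.differentiableOn_fderiv_apply hS hf (1, 0)) ?_
  rintro ⟨x, ε⟩ hx
  exact hf.dx_eq hS hx

theorem JD.de (hf : JD f S) (hS : IsOpen S) : JD (de f) S := by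
  refine DifferentiableOn.congr (Vale.Agent.P268.differentiableOn_fderiv_apply hS hf (0, 1)) ?_
  rintro ⟨x, ε⟩ hx
  exact hf.de_eq hS hx

/-- chain rule along a curve -/
theorem JD.hasDerivAt_comp (hf : JD f S) (hS : IsOpen S) {u v : ℂ → ℂ} {u' v' t : ℂ}
    (hu : HasDerivAt u u' t) (hv : HasDerivAt v v' t) (hx : (u t, v t) ∈ S) :
    HasDerivAt (fun s => f (u s) (v s)) (TA.dx f (u t) (v t) * u' + TA.de f (u t) (v t) * v') t := by
  have h := (hf.hasFDerivAt hS hx).comp_hasDerivAt t (hu.prodMk hv)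
  rw [hf.fderiv_apply hS hx] at h
  exact h

/-- mixed derivatives commute -/
theorem JD.dx_de (hf : JD f S) (hS : IsOpen S) {x ε : ℂ} (hx : (x, ε) ∈ S) :
    TA.dx (TA.de f) x ε = TA.de (TA.dx f) x ε := by
  set F : ℂ × ℂ → ℂ := fun p => f p.1 p.2 with hF
  have han : AnalyticAt ℂ F (x, ε) := Vale.Agent.P268.analyticAt_of_differentiableOn hS hf hx
  have hsym : IsSymmSndFDerivAt ℂ F (x, ε) := by
    apply ContDiffAt.isSymmSndFDerivAt (n := 2)
    · exact han.contDiffAt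
    · simp
  have h2 : DifferentiableAt ℂ (fderiv ℂ F) (x, ε) := by
    have : ContDiffAt ℂ 2 F (x, ε) := han.contDiffAt
    exact (this.fderiv_right (m := 1) (by norm_num)).differentiableAt (by norm_num)
  have key : ∀ v w : ℂ × ℂ, fderiv ℂ (fun p => fderiv ℂ F p v) (x, ε) w
      = fderiv ℂ (fderiv ℂ F) (x, ε) w v := by
    intro v w
    have h3 : HasFDerivAt (fun p => fderiv ℂ F p v)
        ((ContinuousLinearMap.apply ℂ ℂ v).comp (fderiv ℂ (fderiv ℂ F) (x, ε))) (x, ε) :=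
      (ContinuousLinearMap.apply ℂ ℂ v).hasFDerivAt.comp (x, ε) h2.hasFDerivAt
    rw [h3.fderiv]
    rfl
  have e1 : (fun p : ℂ × ℂ => TA.de f p.1 p.2) =ᶠ[𝓝 (x, ε)] fun p => fderiv ℂ F p (0, 1) := by
    filter_upwards [hS.mem_nhds hx] with p hp using hf.de_eq hS hp
  have e2 : (fun p : ℂ × ℂ => TA.dx f p.1 p.2) =ᶠ[𝓝 (x, ε)] fun p => fderiv ℂ F p (1, 0) := by
    filter_upwards [hS.mem_nhds hx] with p hp using hf.dx_eq hS hp
  rw [(hf.de hS).dx_eq hS hx, (hf.dx hS).de_eq hS hx, e1.fderiv_eq, e2.fderiv_eq, key, key]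
  exact hsym _ _

theorem JD.differentiableOn_x (hf : JD f S) {ε : ℂ} {U : Set ℂ} (hU : ∀ x ∈ U, (x, ε) ∈ S) :
    DifferentiableOn ℂ (fun x => f x ε) U := by
  have h1 : DifferentiableOn ℂ (fun t : ℂ => (t, ε)) U := by fun_prop
  exact DifferentiableOn.comp (g := fun p : ℂ × ℂ => f p.1 p.2) hf h1 hU

theorem JD.differentiableOn_e (hf : JD f S) {x : ℂ} {U : Set ℂ} (hU : ∀ ε ∈ U, (x, ε) ∈ S) :
    DifferentiableOn ℂ (fun ε => f x ε) U := by
  have h1 : DifferentiableOn ℂ (fun t : ℂ => (x, t)) U := by fun_prop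
  exact DifferentiableOn.comp (g := fun p : ℂ × ℂ => f p.1 p.2) hf h1 hU

end Der

/-! ## Cauchy bounds -/

/-- Cauchy bound for the phase derivative: loss `r - r'`, no loss in `e` -/
theorem Bd.dx {f : ℂ → ℂ → ℂ} {a r e r' M : ℝ} (hf : JD f (WW a r e)) (hM : Bd f M (WW a r e))
    (hr : r' < r) : Bd (dx f) (M / (r - r')) (WW a r' e) := by
  intro x ε hx
  have hpos : 0 < r - r' := by linarith
  have hsub : ∀ y ∈ closedBall x (r - r'), (y, ε) ∈ WW a r e := by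
    intro y hy
    have h1 : ‖y - x‖ ≤ r - r' := by rwa [mem_closedBall, dist_eq_norm] at hy
    have := WW_ball_x (ζ := y - x) hx h1
    rwa [add_sub_cancel] at this
  refine Complex.norm_deriv_le_of_forall_mem_sphere_norm_le hpos ?_ ?_
  · exact (hf.differentiableOn_x (U := closedBall x (r - r')) hsub).diffContOnCl_ball
      (le_refl _)
  · intro z hz
    exact hM _ _ (hsub z (sphere_subset_closedBall hz))

/-- Cauchy bound for the `ε`-derivative: loss `δ` with `δ ≤ e - e'`, `a δ ≤ r - r'` -/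
theorem Bd.de {f : ℂ → ℂ → ℂ} {a r e r' e' δ M : ℝ} (ha : 0 ≤ a) (hf : JD f (WW a r e))
    (hM : Bd f M (WW a r e)) (hδ : 0 < δ) (h1 : δ ≤ e - e') (h2 : a * δ ≤ r - r') :
    Bd (de f) (M / δ) (WW a r' e') := by
  intro x ε hx
  have hsub : ∀ y ∈ closedBall ε δ, (x, y) ∈ WW a r e := by
    intro y hy
    have h3 : ‖y - ε‖ ≤ δ := by rwa [mem_closedBall, dist_eq_norm] at hy
    have := WW_ball_e (ζ := y - ε) ha hx h3 h1 h2
    rwa [add_sub_cancel] at this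
  refine Complex.norm_deriv_le_of_forall_mem_sphere_norm_le hδ ?_ ?_
  · exact (hf.differentiableOn_e (U := closedBall ε δ) hsub).diffContOnCl_ball (le_refl _)
  · intro z hz
    exact hM _ _ (hsub z (sphere_subset_closedBall hz))

/-! ## derivatives of shifts, `Dl`, `Av`; periodicity -/

theorem Per.dx {f : ℂ → ℂ → ℂ} {S : Set (ℂ × ℂ)} (hS : IsOpen S) (hf : Per f S) :
    Per (dx f) S := by
  intro x ε hx
  have h1 : (fun t => f (t + 1) ε) =ᶠ[𝓝 x] fun t => f t ε := by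
    have hc : ContinuousAt (fun t : ℂ => (t, ε)) x := by fun_prop
    filter_upwards [hc.eventually (hS.mem_nhds hx)] with t ht using hf t ε ht
  have h2 := h1.deriv_eq
  rw [deriv_comp_add_const (fun t => f t ε) 1 x] at h2
  exact h2

theorem Per.de {f : ℂ → ℂ → ℂ} {S : Set (ℂ × ℂ)} (hS : IsOpen S) (hf : Per f S) :
    Per (de f) S := by
  intro x ε hx
  have h1 : (fun t => f (x + 1) t) =ᶠ[𝓝 ε] fun t => f x t := by
    have hc : ContinuousAt (fun t : ℂ => (x, t)) ε := by fun_prop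
    filter_upwards [hc.eventually (hS.mem_nhds hx)] with t ht using hf x t ht
  exact h1.deriv_eq

theorem hasDerivAt_add_half_x {f : ℂ → ℂ → ℂ} {a r e : ℝ} (hf : JD f (WW a r e)) {x ε : ℂ}
    (hx : (x, ε) ∈ WW (a + 1 / 2) r e) :
    HasDerivAt (fun t => f (t + ε / 2) ε) (dx f (x + ε / 2) ε) x := by
  have := hf.hasDerivAt_comp (isOpen_WW a r e) (u := fun t => t + ε / 2) (v := fun _ => ε)
    ((hasDerivAt_id x).add_const (ε / 2)) (hasDerivAt_const x ε) (WW_add_half hx)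
  simpa using this

theorem hasDerivAt_sub_half_x {f : ℂ → ℂ → ℂ} {a r e : ℝ} (hf : JD f (WW a r e)) {x ε : ℂ}
    (hx : (x, ε) ∈ WW (a + 1 / 2) r e) :
    HasDerivAt (fun t => f (t - ε / 2) ε) (dx f (x - ε / 2) ε) x := by
  have := hf.hasDerivAt_comp (isOpen_WW a r e) (u := fun t => t - ε / 2) (v := fun _ => ε)
    ((hasDerivAt_id x).sub_const (ε / 2)) (hasDerivAt_const x ε) (WW_sub_half hx)
  simpa using this

theorem hasDerivAt_add_half_e {f : ℂ → ℂ → ℂ} {a r e : ℝ} (hf : JD f (WW a r e)) {x ε : ℂ}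
    (hx : (x, ε) ∈ WW (a + 1 / 2) r e) :
    HasDerivAt (fun t => f (x + t / 2) t) (dx f (x + ε / 2) ε / 2 + de f (x + ε / 2) ε) ε := by
  have := hf.hasDerivAt_comp (isOpen_WW a r e) (u := fun t => x + t / 2) (v := fun t => t)
    (((hasDerivAt_id ε).div_const 2).const_add x) (hasDerivAt_id ε) (WW_add_half hx)
  convert this using 1
  simp; ring

theorem hasDerivAt_sub_half_e {f : ℂ → ℂ → ℂ} {a r e : ℝ} (hf : JD f (WW a r e)) {x ε : ℂ}
    (hx : (x, ε) ∈ WW (a + 1 / 2) r e) :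
    HasDerivAt (fun t => f (x - t / 2) t) (-(dx f (x - ε / 2) ε / 2) + de f (x - ε / 2) ε) ε := by
  have := hf.hasDerivAt_comp (isOpen_WW a r e) (u := fun t => x - t / 2) (v := fun t => t)
    (((hasDerivAt_id ε).div_const 2).const_sub x) (hasDerivAt_id ε) (WW_sub_half hx)
  convert this using 1
  simp; ring

theorem dx_Dl {f : ℂ → ℂ → ℂ} {a r e : ℝ} (hf : JD f (WW a r e)) {x ε : ℂ}
    (hx : (x, ε) ∈ WW (a + 1 / 2) r e) : dx (Dl f) x ε = Dl (dx f) x ε :=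
  ((hasDerivAt_add_half_x hf hx).sub (hasDerivAt_sub_half_x hf hx)).deriv

theorem dx_Av {f : ℂ → ℂ → ℂ} {a r e : ℝ} (hf : JD f (WW a r e)) {x ε : ℂ}
    (hx : (x, ε) ∈ WW (a + 1 / 2) r e) : dx (Av f) x ε = Av (dx f) x ε :=
  (((hasDerivAt_add_half_x hf hx).add (hasDerivAt_sub_half_x hf hx)).div_const 2).deriv

theorem de_Dl {f : ℂ → ℂ → ℂ} {a r e : ℝ} (hf : JD f (WW a r e)) {x ε : ℂ}
    (hx : (x, ε) ∈ WW (a + 1 / 2) r e) : de (Dl f) x ε = Dl (de f) x ε + Av (dx f) x ε := by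
  have h := ((hasDerivAt_add_half_e hf hx).sub (hasDerivAt_sub_half_e hf hx)).deriv
  have h' : de (Dl f) x ε = dx f (x + ε / 2) ε / 2 + de f (x + ε / 2) ε -
      (-(dx f (x - ε / 2) ε / 2) + de f (x - ε / 2) ε) := h
  rw [h']
  unfold TA.Dl TA.Av
  ring

theorem de_Av {f : ℂ → ℂ → ℂ} {a r e : ℝ} (hf : JD f (WW a r e)) {x ε : ℂ}
    (hx : (x, ε) ∈ WW (a + 1 / 2) r e) : de (Av f) x ε = Av (de f) x ε + Dl (dx f) x ε / 4 := by
  have h := (((hasDerivAt_add_half_e hf hx).add (hasDerivAt_sub_half_e hf hx)).div_const 2).deriv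
  have h' : de (Av f) x ε = (dx f (x + ε / 2) ε / 2 + de f (x + ε / 2) ε +
      (-(dx f (x - ε / 2) ε / 2) + de f (x - ε / 2) ε)) / 2 := h
  rw [h']
  unfold TA.Dl TA.Av
  ring

/-- Leibniz rules for `Dl`, `Av` (pure algebra) -/
theorem Dl_mul (g h : ℂ → ℂ → ℂ) (x ε : ℂ) :
    Dl (fun x ε => g x ε * h x ε) x ε = Av g x ε * Dl h x ε + Dl g x ε * Av h x ε := by
  unfold TA.Dl TA.Av; ring

theorem Av_mul (g h : ℂ → ℂ → ℂ) (x ε : ℂ) :
    Av (fun x ε => g x ε * h x ε) x ε = Av g x ε * Av h x ε + Dl g x ε * Dl h x ε / 4 := by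
  unfold TA.Dl TA.Av; ring

theorem Dl_add (g h : ℂ → ℂ → ℂ) (x ε : ℂ) :
    Dl (fun x ε => g x ε + h x ε) x ε = Dl g x ε + Dl h x ε := by unfold TA.Dl; ring

theorem Dl_sub (g h : ℂ → ℂ → ℂ) (x ε : ℂ) :
    Dl (fun x ε => g x ε - h x ε) x ε = Dl g x ε - Dl h x ε := by unfold TA.Dl; ring

theorem Dl_snd (u : ℂ → ℂ) (x ε : ℂ) : Dl (fun _ ε => u ε) x ε = 0 := by unfold TA.Dl; ring

theorem Av_snd (u : ℂ → ℂ) (x ε : ℂ) : Av (fun _ ε => u ε) x ε = u ε := by unfold TA.Av; ring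

end Vale.Agent.P097.TA
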