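import Vale.Agent.P097.H707.Tools
import Vale.Agent.P250.H3.Lim

/-! # P097 / Theorem A / THMA-TOOLS, part 2: means, identity theorems, limits, division by `ε` -/

set_option linter.all false

open scoped ComplexConjugate Topology Interval
open Filter Metric

namespace Vale.Agent.P097.TA

/-! ## means -/

/-- base of the domain `WW a r e`: the `ε` for which real phases are in the domain -/
def BB (a r e : ℝ) : Set ℂ := {ε | ((0 : ℂ), ε) ∈ WW a r e}

theorem mem_BB {a r e : ℝ} {x ε : ℂ} (h : (x, ε) ∈ WW a r e) : ε ∈ BB a r e := by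
  have := WW_ofReal h 0
  rw [Complex.ofReal_zero] at this
  exact this

theorem BB_real {a r e : ℝ} {ε : ℂ} (h : ε ∈ BB a r e) (t : ℝ) : ((t : ℂ), ε) ∈ WW a r e :=
  WW_ofReal h t

theorem isOpen_BB (a r e : ℝ) : IsOpen (BB a r e) := by
  have hc : Continuous fun ε : ℂ => ((0 : ℂ), ε) := by fun_prop
  exact (isOpen_WW a r e).preimage hc

theorem convex_BB {a r e : ℝ} (ha : 0 ≤ a) : Convex ℝ (BB a r e) := by
  intro x hx y hy s t hs ht hst
  have := convex_WW ha hx hy hs ht hst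
  simpa [BB] using this

theorem BB_eq_ball {r e : ℝ} (hr : 0 < r) : BB 0 r e = ball (0 : ℂ) e := by
  ext ε
  simp [BB, WW, hr]

theorem intervalIntegrable_mn {f : ℂ → ℂ → ℂ} {a r e : ℝ} (hf : JD f (WW a r e)) {z ε : ℂ}
    (hε : (z, ε) ∈ WW a r e) (s t : ℝ) :
    IntervalIntegrable (fun u : ℝ => f (u + z) ε) MeasureTheory.volume s t := by
  apply Continuous.intervalIntegrable
  rw [continuous_iff_continuousAt]
  intro u
  have h1 : ((u : ℂ) + z, ε) ∈ WW a r e := by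
    have := WW_real hε u
    rwa [add_comm] at this
  have h2 : ContinuousAt (fun x => f x ε) ((u : ℂ) + z) :=
    (hf.hasDerivAt_x (isOpen_WW a r e) h1).continuousAt
  have h3 : ContinuousAt (fun u : ℝ => (u : ℂ) + z) u := by fun_prop
  exact ContinuousAt.comp (f := fun u : ℝ => (u : ℂ) + z) (g := fun x => f x ε) h2 h3

theorem intervalIntegrable_mn0 {f : ℂ → ℂ → ℂ} {a r e : ℝ} (hf : JD f (WW a r e)) {ε : ℂ}
    (hε : ε ∈ BB a r e) (s t : ℝ) :
    IntervalIntegrable (fun u : ℝ => f u ε) MeasureTheory.volume s t := by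
  simpa using intervalIntegrable_mn hf (z := 0) hε s t

theorem norm_mn_le {f : ℂ → ℂ → ℂ} {a r e M : ℝ} (hM : Bd f M (WW a r e)) {ε : ℂ}
    (hε : ε ∈ BB a r e) : ‖mn f ε‖ ≤ M := by
  have := intervalIntegral.norm_integral_le_of_norm_le_const (a := (0 : ℝ)) (b := 1) (C := M)
    (f := fun t : ℝ => f t ε) fun t _ => hM t ε (BB_real hε t)
  simpa [mn] using this

theorem mn_snd (u : ℂ → ℂ) (ε : ℂ) : mn (fun _ ε => u ε) ε = u ε := by simp [mn]

theorem mn_add {f g : ℂ → ℂ → ℂ} {a r e : ℝ} (hf : JD f (WW a r e)) (hg : JD g (WW a r e)) {ε : ℂ}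
    (hε : ε ∈ BB a r e) : mn (fun x ε => f x ε + g x ε) ε = mn f ε + mn g ε :=
  intervalIntegral.integral_add (intervalIntegrable_mn0 hf hε 0 1) (intervalIntegrable_mn0 hg hε 0 1)

theorem mn_sub {f g : ℂ → ℂ → ℂ} {a r e : ℝ} (hf : JD f (WW a r e)) (hg : JD g (WW a r e)) {ε : ℂ}
    (hε : ε ∈ BB a r e) : mn (fun x ε => f x ε - g x ε) ε = mn f ε - mn g ε :=
  intervalIntegral.integral_sub (intervalIntegrable_mn0 hf hε 0 1) (intervalIntegrable_mn0 hg hε 0 1)

theorem mn_neg (f : ℂ → ℂ → ℂ) (ε : ℂ) : mn (fun x ε => -f x ε) ε = -mn f ε := by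
  simp [mn]

theorem mn_snd_mul (u : ℂ → ℂ) (f : ℂ → ℂ → ℂ) (ε : ℂ) :
    mn (fun x ε => u ε * f x ε) ε = u ε * mn f ε := by
  simp [mn]

theorem mn_mul_snd (f : ℂ → ℂ → ℂ) (u : ℂ → ℂ) (ε : ℂ) :
    mn (fun x ε => f x ε * u ε) ε = mn f ε * u ε := by
  simp [mn]

theorem mn_congr {f g : ℂ → ℂ → ℂ} {ε : ℂ} (h : ∀ t : ℝ, f t ε = g t ε) : mn f ε = mn g ε := by
  simp only [mn, h]

/-- subtracting the mean gives mean zero -/
theorem mn_sub_mn {f : ℂ → ℂ → ℂ} {a r e : ℝ} (hf : JD f (WW a r e)) {ε : ℂ}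
    (hε : ε ∈ BB a r e) : mn (fun x ε => f x ε - mn f ε) ε = 0 := by
  have h := intervalIntegral.integral_sub (intervalIntegrable_mn0 hf hε 0 1)
    (intervalIntegrable_const (c := mn f ε) (μ := MeasureTheory.volume) (a := 0) (b := 1))
  have h' : mn (fun x ε => f x ε - mn f ε) ε = (∫ t in (0 : ℝ)..1, f t ε) -
      ∫ t in (0 : ℝ)..1, mn f ε := h
  rw [h']
  simp [mn]

/-- the shifted mean, as a function of `ε`: differentiation under the integral sign -/
theorem hasDerivAt_mn_shift {f : ℂ → ℂ → ℂ} {a r e : ℝ} (hf : JD f (WW a r e)) {z ε : ℂ}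
    (hε : (z, ε) ∈ WW a r e) :
    HasDerivAt (fun w => ∫ t in (0 : ℝ)..1, f (t + z) w) (∫ t in (0 : ℝ)..1, de f (t + z) ε) ε := by
  have hO := isOpen_WW a r e
  obtain ⟨δ, hδ, hsub⟩ : ∃ δ > 0, ∀ w, ‖w - ε‖ ≤ δ → (z, w) ∈ WW a r e := by
    have hc : Continuous fun w : ℂ => (z, w) := by fun_prop
    obtain ⟨δ, hδ, h⟩ := Metric.isOpen_iff.1 (hO.preimage hc) ε hε
    refine ⟨δ / 2, by positivity, fun w hw => h ?_⟩
    rw [mem_ball, dist_eq_norm]; linarith
  have hsub' : ∀ (t : ℝ) w, ‖w - ε‖ ≤ δ → ((t : ℂ) + z, w) ∈ WW a r e := by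
    intro t w hw
    have := WW_real (hsub w hw) t
    rwa [add_comm] at this
  set K : Set (ℂ × ℂ) := (fun p : ℝ × ℂ => ((p.1 : ℂ) + z, p.2)) '' (Set.Icc (0 : ℝ) 1 ×ˢ closedBall ε δ)
    with hK
  have hKc : IsCompact K := (isCompact_Icc.prod (isCompact_closedBall ε δ)).image (by fun_prop)
  have hKs : K ⊆ WW a r e := by
    rintro _ ⟨⟨t, w⟩, ⟨_, hw⟩, rfl⟩
    rw [mem_closedBall, dist_eq_norm] at hw
    exact hsub' t w hw
  obtain ⟨C, hC⟩ := hKc.exists_bound_of_continuousOn (((hf.de hO).continuousOn).mono hKs)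
  have hder := intervalIntegral.hasDerivAt_integral_of_dominated_loc_of_deriv_le
    (μ := MeasureTheory.volume) (a := (0 : ℝ)) (b := 1) (F := fun w (t : ℝ) => f (t + z) w)
    (F' := fun w (t : ℝ) => de f (t + z) w) (x₀ := ε) (s := ball ε δ) (bound := fun _ => C)
    (ball_mem_nhds ε hδ) ?_ ?_ ?_ ?_ ?_ ?_
  · exact hder.2
  · filter_upwards [ball_mem_nhds ε hδ] with w hw
    rw [mem_ball, dist_eq_norm] at hw
    exact (intervalIntegrable_mn hf (hsub w hw.le) 0 1).def'.aestronglyMeasurable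
  · exact intervalIntegrable_mn hf hε 0 1
  · exact (intervalIntegrable_mn (hf.de hO) hε 0 1).def'.aestronglyMeasurable
  · refine Eventually.of_forall fun t ht w hw => ?_
    rw [Set.uIoc_of_le zero_le_one] at ht
    exact hC ((t : ℂ) + z, w) ⟨(t, w), ⟨⟨ht.1.le, ht.2⟩, ball_subset_closedBall hw⟩, rfl⟩
  · exact intervalIntegrable_const
  · refine Eventually.of_forall fun t ht w hw => ?_
    rw [mem_ball, dist_eq_norm] at hw
    exact hf.hasDerivAt_e hO (hsub' t w hw.le)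

/-- the mean is holomorphic in `ε`, with derivative the mean of the derivative -/
theorem hasDerivAt_mn {f : ℂ → ℂ → ℂ} {a r e : ℝ} (hf : JD f (WW a r e)) {ε : ℂ}
    (hε : ε ∈ BB a r e) : HasDerivAt (mn f) (mn (de f) ε) ε := by
  have := hasDerivAt_mn_shift hf (z := 0) hε
  simp only [add_zero] at this
  exact this

theorem differentiableOn_mn {f : ℂ → ℂ → ℂ} {a r e : ℝ} (hf : JD f (WW a r e)) :
    DifferentiableOn ℂ (mn f) (BB a r e) := fun _ hε =>
  (hasDerivAt_mn hf hε).differentiableAt.differentiableWithinAt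

theorem JD.mn {f : ℂ → ℂ → ℂ} {a r e : ℝ} (hf : JD f (WW a r e)) :
    JD (fun _ ε => mn f ε) (WW a r e) :=
  JD.comp_snd (differentiableOn_mn hf) fun _ _ h => mem_BB h

theorem Bd.mn {f : ℂ → ℂ → ℂ} {a r e M : ℝ} (hM : Bd f M (WW a r e)) :
    Bd (fun _ ε => mn f ε) M (WW a r e) := fun _ _ h => norm_mn_le hM (mem_BB h)

/-- `f - mn f`: bound `2 M` -/
theorem Bd.sub_mn {f : ℂ → ℂ → ℂ} {a r e M : ℝ} (hM : Bd f M (WW a r e)) :
    Bd (fun x ε => f x ε - TA.mn f ε) (2 * M) (WW a r e) := by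
  have := hM.sub hM.mn
  rwa [← two_mul] at this

/-- contour shift: the mean over `[z, z+1]` is the mean over `[0, 1]` -/
theorem mn_shift {f : ℂ → ℂ → ℂ} {a r e : ℝ} (ha : 0 ≤ a) (hf : JD f (WW a r e))
    (hp : Per f (WW a r e)) {z ε : ℂ} (hz : (z, ε) ∈ WW a r e) :
    ∫ t in (0 : ℝ)..1, f (t + z) ε = TA.mn f ε := by
  have hO := isOpen_WW a r e
  set U : Set ℂ := {z | (z, ε) ∈ WW a r e} with hU
  have hUo : IsOpen U := hO.preimage (by fun_prop : Continuous fun z : ℂ => (z, ε))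
  have hUc : IsPreconnected U := by
    apply Convex.isPreconnected
    intro x hx y hy s t hs ht hst
    have := convex_WW ha hx hy hs ht hst
    simpa [hU, ← add_smul, hst, ← add_mul, ← Complex.ofReal_add] using this
  -- consider `g z w = f (w + z) ε` as a function on `WW`
  have key : ∀ z ∈ U, HasDerivAt (fun z => ∫ t in (0 : ℝ)..1, f (t + z) ε) 0 z := by
    intro z hz
    obtain ⟨δ, hδ, hsub⟩ := Metric.isOpen_iff.1 hUo z hz
    have hsub' : ∀ (t : ℝ) w, w ∈ closedBall z (δ / 2) → ((t : ℂ) + w, ε) ∈ WW a r e := by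
      intro t w hw
      have h1 : w ∈ U := hsub (closedBall_subset_ball (by linarith) hw)
      have := WW_real (show (w, ε) ∈ WW a r e from h1) t
      rwa [add_comm] at this
    set K : Set (ℂ × ℂ) := (fun p : ℝ × ℂ => ((p.1 : ℂ) + p.2, ε)) ''
      (Set.Icc (0 : ℝ) 1 ×ˢ closedBall z (δ / 2)) with hK
    have hKc : IsCompact K := (isCompact_Icc.prod (isCompact_closedBall z _)).image (by fun_prop)
    have hKs : K ⊆ WW a r e := by
      rintro _ ⟨⟨t, w⟩, ⟨_, hw⟩, rfl⟩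
      exact hsub' t w hw
    obtain ⟨C, hC⟩ := hKc.exists_bound_of_continuousOn (((hf.dx hO).continuousOn).mono hKs)
    have hder := intervalIntegral.hasDerivAt_integral_of_dominated_loc_of_deriv_le
      (μ := MeasureTheory.volume) (a := (0 : ℝ)) (b := 1) (F := fun w (t : ℝ) => f (t + w) ε)
      (F' := fun w (t : ℝ) => dx f (t + w) ε) (x₀ := z) (s := ball z (δ / 2)) (bound := fun _ => C)
      (ball_mem_nhds z (by positivity)) ?_ ?_ ?_ ?_ ?_ ?_
    · have h0 : ∫ t in (0 : ℝ)..1, dx f (t + z) ε = 0 := by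
        have h1 : ∀ t ∈ Set.uIcc (0 : ℝ) 1, HasDerivAt (fun t : ℝ => f (t + z) ε) (dx f (t + z) ε) t := by
          intro t _
          have h2 := hf.hasDerivAt_x hO (hsub' t z (mem_closedBall_self (by positivity)))
          have h3 : HasDerivAt (fun t : ℝ => (t : ℂ) + z) 1 t :=
            (Complex.ofRealCLM.hasDerivAt (x := t)).add_const z
          have := HasDerivAt.comp (h₂ := fun x => f x ε) (h := fun t : ℝ => (t : ℂ) + z) t h2 h3
          rw [mul_one] at this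
          exact this
        rw [intervalIntegral.integral_eq_sub_of_hasDerivAt h1
          (intervalIntegrable_mn (hf.dx hO) hz 0 1)]
        have h4 := hp z ε hz
        have h5 : (((1 : ℝ) : ℂ) + z) = z + 1 := by push_cast; ring
        have h6 : (((0 : ℝ) : ℂ) + z) = z := by push_cast; ring
        rw [h5, h6, h4, sub_self]
      rw [h0] at hder
      exact hder.2
    · filter_upwards [ball_mem_nhds z (by positivity : 0 < δ / 2)] with w hw
      have h1 : w ∈ U := hsub (ball_subset_ball (by linarith) hw)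
      exact (intervalIntegrable_mn hf h1 0 1).def'.aestronglyMeasurable
    · exact intervalIntegrable_mn hf hz 0 1
    · exact (intervalIntegrable_mn (hf.dx hO) hz 0 1).def'.aestronglyMeasurable
    · refine Eventually.of_forall fun t ht w hw => ?_
      rw [Set.uIoc_of_le zero_le_one] at ht
      exact hC ((t : ℂ) + w, ε) ⟨(t, w), ⟨⟨ht.1.le, ht.2⟩, ball_subset_closedBall hw⟩, rfl⟩
    · exact intervalIntegrable_const
    · refine Eventually.of_forall fun t ht w hw => ?_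
      have h2 := hf.hasDerivAt_x hO (hsub' t w (ball_subset_closedBall hw))
      have h3 : HasDerivAt (fun w : ℂ => (t : ℂ) + w) 1 w := (hasDerivAt_id w).const_add _
      have := HasDerivAt.comp (h₂ := fun x => f x ε) (h := fun w : ℂ => (t : ℂ) + w) w h2 h3
      rw [mul_one] at this
      exact this
  have h0 : (0 : ℂ) ∈ U := mem_BB hz
  have := hUo.is_const_of_deriv_eq_zero hUc
    (fun z hz => (key z hz).differentiableAt.differentiableWithinAt)
    (fun z hz => (key z hz).deriv) hz h0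
  rw [this]
  simp [TA.mn]

theorem mn_add_half {f : ℂ → ℂ → ℂ} {a r e : ℝ} (ha : 0 ≤ a) (hf : JD f (WW a r e))
    (hp : Per f (WW a r e)) {ε : ℂ} (hε : ε ∈ BB (a + 1 / 2) r e) :
    mn (fun x ε => f (x + ε / 2) ε) ε = mn f ε := by
  have h1 : (ε / 2, ε) ∈ WW a r e := by simpa using WW_add_half (x := 0) hε
  exact mn_shift ha hf hp h1

theorem mn_sub_half {f : ℂ → ℂ → ℂ} {a r e : ℝ} (ha : 0 ≤ a) (hf : JD f (WW a r e))
    (hp : Per f (WW a r e)) {ε : ℂ} (hε : ε ∈ BB (a + 1 / 2) r e) :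
    mn (fun x ε => f (x - ε / 2) ε) ε = mn f ε := by
  have h1 : (-(ε / 2), ε) ∈ WW a r e := by simpa using WW_sub_half (x := 0) hε
  have := mn_shift ha hf hp h1
  rw [← this]
  simp [mn, sub_eq_add_neg]

theorem mn_Dl {f : ℂ → ℂ → ℂ} {a r e : ℝ} (ha : 0 ≤ a) (hf : JD f (WW a r e))
    (hp : Per f (WW a r e)) {ε : ℂ} (hε : ε ∈ BB (a + 1 / 2) r e) : mn (Dl f) ε = 0 := by
  have h1 := mn_sub (hf.add_half) (hf.sub_half) hε
  have h2 : mn (Dl f) ε = mn (fun x ε => f (x + ε / 2) ε - f (x - ε / 2) ε) ε := rfl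
  rw [h2, h1, mn_add_half ha hf hp hε, mn_sub_half ha hf hp hε, sub_self]

theorem mn_Av {f : ℂ → ℂ → ℂ} {a r e : ℝ} (ha : 0 ≤ a) (hf : JD f (WW a r e))
    (hp : Per f (WW a r e)) {ε : ℂ} (hε : ε ∈ BB (a + 1 / 2) r e) : mn (Av f) ε = mn f ε := by
  have h1 := mn_add (hf.add_half) (hf.sub_half) hε
  have h2 : mn (Av f) ε = mn (fun x ε => f (x + ε / 2) ε + f (x - ε / 2) ε) ε / 2 := by
    simp [mn, Av]
  rw [h2, h1, mn_add_half ha hf hp hε, mn_sub_half ha hf hp hε]
  ring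

theorem mn_dx {f : ℂ → ℂ → ℂ} {a r e : ℝ} (hf : JD f (WW a r e))
    (hp : Per f (WW a r e)) {ε : ℂ} (hε : ε ∈ BB a r e) : mn (dx f) ε = 0 := by
  have hO := isOpen_WW a r e
  have h1 : ∀ t ∈ Set.uIcc (0 : ℝ) 1, HasDerivAt (fun t : ℝ => f t ε) (dx f t ε) t := by
    intro t _
    have h2 := hf.hasDerivAt_x hO (BB_real hε t)
    have h3 : HasDerivAt (fun t : ℝ => (t : ℂ)) 1 t := Complex.ofRealCLM.hasDerivAt (x := t)
    have := HasDerivAt.comp (h₂ := fun x => f x ε) (h := fun t : ℝ => (t : ℂ)) t h2 h3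
    rw [mul_one] at this
    exact this
  have h := intervalIntegral.integral_eq_sub_of_hasDerivAt h1
    (intervalIntegrable_mn0 (hf.dx hO) hε 0 1)
  have h4 := hp 0 ε hε
  rw [mn, h]
  simp only [zero_add] at h4
  simp [h4]

end Vale.Agent.P097.TA
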