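import Vale.Agent.P097.H707.FfBasic

/-! # P097 / Theorem A / A6, part 2: interfaces (RES, L2, one step) and the combined step -/

set_option linter.all false

open scoped ComplexConjugate Topology
open Filter Metric

namespace Vale.Agent.P097.TA

/-- the resonance conditions, for approximate families (package A4) -/
def ResP (b : ℂ → ℂ → ℂ) (B : ℕ) (C d0 e0 r0 : ℝ) : Prop :=
  ∀ (r r' e dl E : ℝ) (θ : ℂ → ℂ → ℂ) (K : ℕ), 0 < r' → r' < r → r ≤ r0 → 0 < e → e ≤ e0 →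
    0 ≤ dl → dl ≤ d0 → 0 < E → 1 ≤ K → C * (K : ℝ) ^ B * E ≤ r - r' → Apx b θ r e dl E →
    Res (ff b θ) r' e K (C * (K : ℝ) ^ B * E ^ 2)

/-- the division (package L2), sharp in `e` -/
def L2P (A : ℕ) (C : ℝ) : Prop :=
  ∀ (r e r' M μ : ℝ) (K : ℕ) (f : ℂ → ℂ → ℂ), 1 ≤ K →
    0 < r' → r' < r → r ≤ 1 → 0 < e → e ≤ r' → 0 ≤ M → 0 ≤ μ →
    JD f (WW (1 / 2) r e) → Per f (WW (1 / 2) r e) → (∀ x : ℂ, |x.im| < r → f x 0 = 0) →
    Bd (fun x ε => f x ε - mn f ε) M (WW (1 / 2) r e) → Res f r e K μ →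
    ∃ S : ℂ → ℂ → ℂ, JD S {p | ‖p.2‖ < e} ∧ (∀ x ε, S (x + 1) ε = S x ε) ∧
      Bd (fun x ε => f x ε - mn f ε - Dl S x ε)
        (C / (r - r') ^ A * (K * e * μ + M * Real.exp (-(2 * Real.pi * K * (r - r')))))
        (WW (1 / 2) r' e) ∧
      ((∀ x ε : ℂ, (x, ε) ∈ WW (1 / 2) r e → f x (-ε) = -f x ε) → ∀ x ε, S x (-ε) = S x ε) ∧
      ((∀ x ε : ℂ, (x, ε) ∈ WW (1 / 2) r e → f (conj x) (conj ε) = conj (f x ε)) →
        ∀ x ε, S (conj x) (conj ε) = conj (S x ε))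

/-- one step (package A5) -/
def StepP (b : ℂ → ℂ → ℂ) (A : ℕ) (C d0 e0 r0 : ℝ) : Prop :=
  ∀ (r e r' e' dl E ν q : ℝ) (θ S : ℂ → ℂ → ℂ), 0 < r' → r' < r → r ≤ r0 → 0 < e' → e' < e →
    e ≤ e0 → e ≤ r' → 0 ≤ dl → dl ≤ d0 → 0 < E → 0 ≤ ν →
    q = C / ((r - r') * ((e - e') / e)) ^ A → q * (E + ν) ≤ e ^ 4 →
    Apx b θ r e dl E → JD S (WW 0 r e) → (∀ x ε : ℂ, (x, ε) ∈ WW 0 r e → S (x + 1) ε = S x ε) →
    (∀ x ε : ℂ, (x, ε) ∈ WW 0 r e → S x (-ε) = S x ε) →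
    (∀ x ε : ℂ, (x, ε) ∈ WW 0 r e → S (conj x) (conj ε) = conj (S x ε)) →
    Bd (fun x ε => ff b θ x ε - mn (ff b θ) ε - Dl S x ε) ν (WW (1 / 2) r e) →
    ∃ θ' : ℂ → ℂ → ℂ, JD θ' (WW 0 r' e') ∧
      (∀ x ε : ℂ, (x, ε) ∈ WW 0 r' e' → θ' (x + 1) ε = θ' x ε + 1) ∧
      (∀ x ε : ℂ, (x, ε) ∈ WW 0 r' e' → θ' x (-ε) = θ' x ε) ∧
      (∀ x ε : ℂ, (x, ε) ∈ WW 0 r' e' → θ' (conj x) (conj ε) = conj (θ' x ε)) ∧
      Bd (fun x ε => θ' x ε - θ x ε) (q / e ^ 3 * (E + ν)) (WW 0 r' e') ∧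
      Bd (Er b θ') (q * (ν / e + (E + ν) ^ 2 / e ^ 4)) (WW 1 r' e')

/-- a full step of the iteration, uniform in `θ` -/
def OneStep (b : ℂ → ℂ → ℂ) (d0 r e r' e' E E' δ : ℝ) : Prop :=
  ∀ (θ : ℂ → ℂ → ℂ) (dl : ℝ), 0 ≤ dl → dl ≤ d0 → Apx b θ r e dl E →
    ∃ θ' : ℂ → ℂ → ℂ, Apx b θ' r' e' (dl + δ) E' ∧ Bd (fun x ε => θ' x ε - θ x ε) δ (WW 0 r' e')

/-- perturbation of an approximate family -/
theorem Apx.perturb {b θ θ' : ℂ → ℂ → ℂ} {r e dl E r1 e1 r' e' m δ E' : ℝ}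
    (hA : Apx b θ r e dl E) (hr1 : r1 ≤ r) (he1 : e1 ≤ e) (hr' : r' < r1) (he' : e' < e1)
    (hJ : JD θ' (WW 0 r1 e1))
    (hper : ∀ x ε : ℂ, (x, ε) ∈ WW 0 r1 e1 → θ' (x + 1) ε = θ' x ε + 1)
    (hev : ∀ x ε : ℂ, (x, ε) ∈ WW 0 r1 e1 → θ' x (-ε) = θ' x ε)
    (hre : ∀ x ε : ℂ, (x, ε) ∈ WW 0 r1 e1 → θ' (conj x) (conj ε) = conj (θ' x ε))
    (hB : Bd (fun x ε => θ' x ε - θ x ε) m (WW 0 r1 e1))
    (h1 : m ≤ δ) (h2 : m / (r1 - r') ≤ δ) (h3 : m / (e1 - e') ≤ δ)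
    (hE : Bd (Er b θ') E' (WW 1 r' e')) : Apx b θ' r' e' (dl + δ) E' := by
  have hs : WW 0 r' e' ⊆ WW 0 r1 e1 := WW_mono le_rfl hr'.le he'.le
  have hs1 : WW 0 r1 e1 ⊆ WW 0 r e := WW_mono le_rfl hr1 he1
  have hO := isOpen_WW 0 r1 e1
  have hθ : JD θ (WW 0 r1 e1) := hA.hol.mono hs1
  have hD : JD (fun x ε => θ' x ε - θ x ε) (WW 0 r1 e1) := hJ.sub hθ
  have hdx := Bd.dx hD hB hr'
  have hde := Bd.de (r' := r') le_rfl hD hB (sub_pos.2 he') le_rfl (by simp; exact hr'.le)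
  refine ⟨hJ.mono hs, fun x ε h => hper x ε (hs h), fun x ε h => hev x ε (hs h),
    fun x ε h => hre x ε (hs h), fun x ε h => ?_, fun x ε h => ?_, fun x ε h => ?_, hE⟩
  · have e1 : θ' x ε - x = (θ x ε - x) + (θ' x ε - θ x ε) := by ring
    rw [e1]
    exact (norm_add_le _ _).trans (add_le_add (hA.cl x ε (hs1 (hs h))) ((hB x ε (hs h)).trans h1))
  · have h0 : (x, ε) ∈ WW 0 r1 e1 := hs h
    have e1 : TA.dx (fun x ε => θ' x ε - θ x ε) x ε = TA.dx θ' x ε - TA.dx θ x ε :=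
      ((hJ.hasDerivAt_x hO h0).sub (hθ.hasDerivAt_x hO h0)).deriv
    have h4 := hdx x ε (WW_mono le_rfl le_rfl he'.le h)
    rw [e1] at h4
    have e2 : TA.dx θ' x ε - 1 = (TA.dx θ x ε - 1) + (TA.dx θ' x ε - TA.dx θ x ε) := by ring
    rw [e2]
    exact (norm_add_le _ _).trans (add_le_add (hA.dx1 x ε (hs1 h0)) (h4.trans h2))
  · have h0 : (x, ε) ∈ WW 0 r1 e1 := hs h
    have e1 : TA.de (fun x ε => θ' x ε - θ x ε) x ε = TA.de θ' x ε - TA.de θ x ε :=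
      ((hJ.hasDerivAt_e hO h0).sub (hθ.hasDerivAt_e hO h0)).deriv
    have h4 := hde x ε h
    rw [e1] at h4
    have e2 : TA.de θ' x ε = (TA.de θ x ε) + (TA.de θ' x ε - TA.de θ x ε) := by ring
    rw [e2]
    exact (norm_add_le _ _).trans (add_le_add (hA.de0 x ε (hs1 h0)) (h4.trans h3))

/-- the combined step: resonances, division, Newton step, Cauchy estimates -/
theorem oneStep {ρ M : ℝ} {b : ℂ → ℂ → ℂ} (hG : Gen ρ M b)
    {B A2 A : ℕ} {CR dR eR rR C2 C dS eS rS : ℝ}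
    (hRes : ResP b B CR dR eR rR) (hL2 : L2P A2 C2) (hStep : StepP b A C dS eS rS)
    (hCR : 0 < CR) (hC2 : 0 < C2) (hC : 0 < C)
    {d0 r e r' e' E E' δ l ν q : ℝ} {K : ℕ}
    (hd1 : d0 ≤ dR) (hd2 : d0 ≤ dS) (hd3 : d0 ≤ ρ / 8)
    (hr1 : r ≤ rR) (hr2 : r ≤ rS) (hr3 : r ≤ ρ / 4) (hr' : 0 < r') (hrr : r' < r)
    (he1 : e ≤ eR) (he2 : e ≤ eS) (he3 : e ≤ ρ / 4) (he4 : e ≤ r') (he' : 0 < e') (hee : e' < e)
    (hE : 0 < E) (hK : 1 ≤ K) (hl : l = (r - r') / 4)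
    (h1 : CR * (K : ℝ) ^ B * E ≤ l)
    (hν : ν = C2 / l ^ A2 * (K * e * (CR * (K : ℝ) ^ B * E ^ 2) +
      4 * M * Real.exp (-(2 * Real.pi * K * l))))
    (h2 : ν ≤ E) (hq : q = C / (l * ((e - (e + e') / 2) / e)) ^ A)
    (h3 : q * (2 * E) ≤ e ^ 4)
    (h4 : q * (ν / e + (2 * E) ^ 2 / e ^ 4) ≤ E')
    (h5 : q / e ^ 3 * (2 * E) ≤ δ) (h6 : q / e ^ 3 * (2 * E) / l ≤ δ)
    (h7 : q / e ^ 3 * (2 * E) / ((e - e') / 2) ≤ δ) :
    OneStep b d0 r e r' e' E E' δ := by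
  intro θ dl hdl0 hdl hA
  have hρ := hG.hρ
  have hρ1 := hG.hρ1
  have hM := hG.hM
  have hl0 : 0 < l := by rw [hl]; linarith
  have he0 : 0 < e := by linarith
  -- radii
  have hA1 : Apx b θ (r - l) e dl E := hA.mono (by linarith) le_rfl le_rfl le_rfl
  have hA2 : Apx b θ (r - 2 * l) e dl E := hA.mono (by linarith) le_rfl le_rfl le_rfl
  have hs : r - l + dl ≤ ρ := by linarith
  have ht : e + 2 * dl ≤ ρ := by linarith
  set f := ff b θ with hf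
  have hμ0 : 0 ≤ CR * (K : ℝ) ^ B * E ^ 2 := by positivity
  have hres : Res f (r - l) e K (CR * (K : ℝ) ^ B * E ^ 2) :=
    hRes r (r - l) e dl E θ K (by linarith) (by linarith) hr1 he0 he1 hdl0 (hdl.trans hd1) hE hK
      (by linarith) hA
  have hMf : Bd (fun x ε => f x ε - mn f ε) (4 * M) (WW (1 / 2) (r - l) e) := by
    have := (hA1.Bd_ff hG hs ht).sub_mn
    refine this.mono (by linarith) subset_rfl
  obtain ⟨S, hS1, hS2, hS3, hS4, hS5⟩ := hL2 (r - l) e (r - 2 * l) (4 * M)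
    (CR * (K : ℝ) ^ B * E ^ 2) K f hK (by linarith) (by linarith) (by linarith) he0 (by linarith)
    (by linarith) hμ0 (hA1.JD_ff hG hs ht) (hA1.Per_ff hG hs ht)
    (fun x _ => Apx.ff_zero b θ x) hMf hres
  have hS4' := hS4 fun x ε h => hA1.ff_neg hG hs ht h
  have hS5' := hS5 fun x ε h => hA1.ff_conj hG hs ht h
  have e1 : r - l - (r - 2 * l) = l := by ring
  rw [e1, ← hν] at hS3
  have hν0 : 0 ≤ ν := by
    rw [hν]
    positivity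
  -- the step
  have hq0 : 0 ≤ q := by
    rw [hq]
    have : 0 < (e - (e + e') / 2) / e := div_pos (by linarith) he0
    positivity
  have hEν : E + ν ≤ 2 * E := by linarith
  obtain ⟨θ', hJ, hper, hev, hre, hB, hEr⟩ := hStep (r - 2 * l) e (r - 3 * l) ((e + e') / 2) dl E ν q
    θ S (by linarith) (by linarith) (by linarith) (by linarith) (by linarith) he2 (by linarith)
    hdl0 (hdl.trans hd2) hE hν0 (by rw [hq]; congr 3; ring)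
    (le_trans (mul_le_mul_of_nonneg_left hEν hq0) h3) hA2
    (hS1.mono fun p hp => hp.1) (fun x ε _ => hS2 x ε) (fun x ε _ => hS4' x ε)
    (fun x ε _ => hS5' x ε) hS3
  have hm : q / e ^ 3 * (E + ν) ≤ q / e ^ 3 * (2 * E) :=
    mul_le_mul_of_nonneg_left hEν (by positivity)
  have hB' : Bd (fun x ε => θ' x ε - θ x ε) (q / e ^ 3 * (2 * E)) (WW 0 (r - 3 * l) ((e + e') / 2)) :=
    hB.mono hm subset_rfl
  have hEr' : Bd (Er b θ') E' (WW 1 r' e') := by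
    refine hEr.mono ?_ (WW_mono le_rfl (by linarith) (by linarith))
    refine le_trans ?_ h4
    have : (E + ν) ^ 2 ≤ (2 * E) ^ 2 := by gcongr
    gcongr
  refine ⟨θ', ?_, hB'.mono h5 (WW_mono le_rfl (by linarith) (by linarith))⟩
  refine hA.perturb (r1 := r - 3 * l) (e1 := (e + e') / 2) (m := q / e ^ 3 * (2 * E)) (by linarith)
    (by linarith) (by linarith) (by linarith) hJ hper hev hre hB' h5 ?_ ?_ hEr'
  · have : r - 3 * l - r' = l := by rw [hl]; ring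
    rw [this]; exact h6
  · have : (e + e') / 2 - e' = (e - e') / 2 := by ring
    rw [this]; exact h7

end Vale.Agent.P097.TA
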