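import Mathlib

/-! # P097 / Theorem A / A6, part 5: the numbers of the iteration -/

set_option linter.all false

open scoped Topology
open Filter

namespace Vale.Agent.P097.TA

theorem ev_small (c β : ℝ) (hc : 0 ≤ c) (hβ : 0 ≤ β) :
    ∀ᶠ t : ℝ in 𝓝[>] 0, ∀ j : ℕ, c * β ^ j * t ^ (j + 1) ≤ 1 := by
  have h1 : ∀ᶠ t : ℝ in 𝓝[>] 0, c * t < 1 := by
    have : Tendsto (fun t : ℝ => c * t) (𝓝[>] 0) (𝓝 (c * 0)) :=
      ((continuous_const.mul continuous_id).tendsto 0).mono_left nhdsWithin_le_nhds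
    rw [mul_zero] at this
    exact this.eventually (gt_mem_nhds one_pos)
  have h2 : ∀ᶠ t : ℝ in 𝓝[>] 0, β * t < 1 := by
    have : Tendsto (fun t : ℝ => β * t) (𝓝[>] 0) (𝓝 (β * 0)) :=
      ((continuous_const.mul continuous_id).tendsto 0).mono_left nhdsWithin_le_nhds
    rw [mul_zero] at this
    exact this.eventually (gt_mem_nhds one_pos)
  filter_upwards [h1, h2, self_mem_nhdsWithin] with t a1 a2 a3 j
  have ht : (0 : ℝ) < t := a3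
  calc c * β ^ j * t ^ (j + 1) = (c * t) * (β * t) ^ j := by rw [mul_pow, pow_succ]; ring
    _ ≤ 1 * 1 := by
      apply mul_le_mul a1.le (pow_le_one₀ (by positivity) a2.le) (by positivity) zero_le_one
    _ = 1 := one_mul 1

theorem ev_exp (c : ℝ) (hc : 0 < c) (P : ℕ) :
    ∀ᶠ t : ℝ in 𝓝[>] 0, Real.exp (-(c / t)) ≤ t ^ P := by
  have h1 := ev_small (((P + 1).factorial : ℝ) / c ^ (P + 1)) 0 (by positivity) le_rfl
  filter_upwards [h1, self_mem_nhdsWithin] with t a1 a3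
  have ht : (0 : ℝ) < t := a3
  have h2 := Real.pow_div_factorial_le_exp (c / t) (by positivity) (P + 1)
  have h3 := a1 0
  simp only [pow_zero, mul_one, zero_add, pow_one] at h3
  have h4 : 0 < (c / t) ^ (P + 1) / ((P + 1).factorial : ℝ) := by positivity
  rw [Real.exp_neg]
  have h5 : (Real.exp (c / t))⁻¹ ≤ ((c / t) ^ (P + 1) / ((P + 1).factorial : ℝ))⁻¹ :=
    inv_anti₀ h4 h2
  refine h5.trans ?_
  rw [inv_div, div_pow, div_div_eq_mul_div]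
  calc ((P + 1).factorial : ℝ) * t ^ (P + 1) / c ^ (P + 1)
      = (((P + 1).factorial : ℝ) / c ^ (P + 1) * t) * t ^ P := by rw [pow_succ]; ring
    _ ≤ 1 * t ^ P := by gcongr
    _ = t ^ P := one_mul _

/-- radii -/
noncomputable def rj (R : ℝ) (j : ℕ) : ℝ := R / 2 * (1 + (1 / 2) ^ j)

/-- errors -/
noncomputable def Ej (t : ℝ) (B j : ℕ) : ℝ := t ^ (4 * B + 14 + j)

/-- cut-offs -/
noncomputable def Kj (t : ℝ) (j : ℕ) : ℕ := ⌈(4 : ℝ) ^ j / t⌉₊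

theorem rj_sub (R : ℝ) (j : ℕ) : rj R j - rj R (j + 1) = R * (1 / 2) ^ j / 4 := by
  unfold rj; rw [pow_succ]; ring

theorem rj_lt {R : ℝ} (hR : 0 < R) (j : ℕ) : rj R (j + 1) < rj R j := by
  have := rj_sub R j
  have h : 0 < R * (1 / 2) ^ j / 4 := by positivity
  linarith

theorem rj_le {R : ℝ} (hR : 0 < R) (j : ℕ) : rj R j ≤ R := by
  unfold rj
  have : ((1 : ℝ) / 2) ^ j ≤ 1 := pow_le_one₀ (by norm_num) (by norm_num)
  nlinarith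

theorem rj_gt {R : ℝ} (hR : 0 < R) (j : ℕ) : R / 2 < rj R j := by
  unfold rj
  have : 0 < ((1 : ℝ) / 2) ^ j := by positivity
  nlinarith

theorem one_le_Kj {t : ℝ} (ht : 0 < t) (j : ℕ) : 1 ≤ Kj t j := by
  have h1 : 0 < (4 : ℝ) ^ j / t := by positivity
  exact Nat.one_le_iff_ne_zero.2 (Nat.ceil_pos.2 h1).ne'

theorem Kj_ge (t : ℝ) (j : ℕ) : (4 : ℝ) ^ j / t ≤ Kj t j := Nat.le_ceil _

theorem Kj_le {t : ℝ} (ht : 0 < t) (ht1 : t ≤ 1) (j : ℕ) : (Kj t j : ℝ) ≤ 2 * 4 ^ j / t := by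
  have h1 : 0 ≤ (4 : ℝ) ^ j / t := by positivity
  have h2 := (Nat.ceil_lt_add_one h1).le
  have h3 : 1 ≤ (4 : ℝ) ^ j / t := by
    rw [le_div_iff₀ ht, one_mul]
    exact ht1.trans (one_le_pow₀ (by norm_num))
  have h4 : 2 * (4 : ℝ) ^ j / t = 4 ^ j / t + 4 ^ j / t := by ring
  rw [h4]
  exact h2.trans (by linarith)

theorem Kj_pow {t : ℝ} (ht : 0 < t) (ht1 : t ≤ 1) (B j : ℕ) :
    (Kj t j : ℝ) ^ B ≤ 2 ^ B * (4 ^ B) ^ j / t ^ B := by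
  have h1 := Kj_le ht ht1 j
  have h2 : (Kj t j : ℝ) ^ B ≤ (2 * 4 ^ j / t) ^ B := by gcongr
  refine h2.trans (le_of_eq ?_)
  rw [div_pow, mul_pow, ← pow_mul, ← pow_mul, mul_comm j B]

theorem two_mul_half (j : ℕ) : (2 : ℝ) ^ j * (1 / 2) ^ j = 1 := by
  rw [← mul_pow]; norm_num

theorem four_eq (j : ℕ) : (4 : ℝ) ^ j = 2 ^ j * 2 ^ j := by rw [← mul_pow]; norm_num

/-- bound of the factor `q` -/
theorem num_q {A : ℕ} {C R ee e e' l q : ℝ} (j : ℕ) (hC : 0 < C) (hR : 0 < R) (hee : 0 < ee)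
    (he0 : 0 < e) (he1 : e ≤ ee) (hede : e - e' = ee * (1 / 2) ^ j / 4)
    (hl : l = R * (1 / 2) ^ j / 16) (hq : q = C / (l * ((e - (e + e') / 2) / e)) ^ A) :
    0 ≤ q ∧ q ≤ C * (128 / R) ^ A * (4 ^ A) ^ j := by
  have hu0 : 0 < ((1 : ℝ) / 2) ^ j := by positivity
  have hl0 : 0 < l := by rw [hl]; positivity
  have hd : e - (e + e') / 2 = ee * (1 / 2) ^ j / 8 := by linarith
  have hd0 : 0 < (e - (e + e') / 2) / e := by rw [hd]; positivity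
  constructor
  · rw [hq]; positivity
  · have h1 : ((1 : ℝ) / 2) ^ j / 8 ≤ (e - (e + e') / 2) / e := by
      rw [hd, le_div_iff₀ he0]
      have h5 : ((1 : ℝ) / 2) ^ j / 8 * e ≤ ((1 : ℝ) / 2) ^ j / 8 * ee := by gcongr
      linarith
    have h2 : R / (128 * 4 ^ j) ≤ l * ((e - (e + e') / 2) / e) := by
      have h3 : R / (128 * 4 ^ j) = l * (((1 : ℝ) / 2) ^ j / 8) := by
        rw [hl, four_eq, one_div, inv_pow]
        field_simp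
        norm_num
      rw [h3]
      gcongr
    rw [hq]
    calc C / (l * ((e - (e + e') / 2) / e)) ^ A ≤ C / (R / (128 * 4 ^ j)) ^ A := by gcongr
      _ = C * (128 / R) ^ A * (4 ^ A) ^ j := by
        rw [div_pow, mul_pow, div_pow, ← pow_mul, ← pow_mul, mul_comm j A]
        field_simp

theorem num_V {A2 : ℕ} {C2 R : ℝ} (j : ℕ) (hR : 0 < R) :
    C2 / (R * (1 / 2) ^ j / 16) ^ A2 = C2 * (16 / R) ^ A2 * (2 ^ A2) ^ j := by
  have h1 : R * (1 / 2) ^ j / 16 = R / (16 * 2 ^ j) := by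
    rw [one_div, inv_pow]; field_simp
  rw [h1, div_pow, mul_pow, div_pow, ← pow_mul, ← pow_mul, mul_comm j A2]
  field_simp

theorem num_exp {R t σ : ℝ} {P : ℕ} (j : ℕ) {K : ℕ} {l : ℝ} (hR : 0 < R) (ht : 0 < t)
    (ht1 : t ≤ 1) (hl : l = R * (1 / 2) ^ j / 16) (hK : (4 : ℝ) ^ j / t ≤ K)
    (cx : Real.exp (-(R / 4 / t)) ≤ t ^ (P + 2)) :
    Real.exp (-(2 * Real.pi * K * l)) ≤ t ^ (P + 2 + 2 * j) := by
  have hl0 : 0 < l := by rw [hl]; positivity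
  have h1 : (R / 4 / t) * (j + 1) ≤ 2 * Real.pi * K * l := by
    have h4 : ((j : ℝ) + 1) ≤ 2 ^ j := by
      have := one_add_mul_le_pow (a := (1 : ℝ)) (by norm_num) j
      have h6 : (1 + (1 : ℝ)) = 2 := by norm_num
      rw [h6] at this
      linarith
    have hpi := Real.pi_gt_three
    calc (R / 4 / t) * (j + 1) ≤ (R / 4 / t) * 2 ^ j := by gcongr
      _ = (4 * ((4 : ℝ) ^ j / t)) * l := by
        have h5 := two_mul_half j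
        rw [hl, four_eq]
        have : 4 * (2 ^ j * 2 ^ j / t) * (R * (1 / 2) ^ j / 16) =
          R / 4 / t * 2 ^ j * (2 ^ j * (1 / 2) ^ j) := by ring
        rw [this, h5, mul_one]
      _ ≤ (2 * Real.pi * K) * l := by
        apply mul_le_mul_of_nonneg_right _ hl0.le
        have hK0 : (0 : ℝ) ≤ K := Nat.cast_nonneg K
        nlinarith
  have h5 : Real.exp (-(2 * Real.pi * K * l)) ≤ (Real.exp (-(R / 4 / t))) ^ (j + 1) := by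
    rw [← Real.exp_nat_mul]
    apply Real.exp_le_exp.2
    push_cast
    linarith
  refine h5.trans ?_
  calc (Real.exp (-(R / 4 / t))) ^ (j + 1) ≤ (t ^ (P + 2)) ^ (j + 1) := by
        gcongr
    _ = t ^ ((P + 2) * (j + 1)) := by rw [← pow_mul]
    _ ≤ t ^ (P + 2 + 2 * j) := by
      apply pow_le_pow_of_le_one ht.le ht1
      nlinarith

theorem num_nu {A2 B : ℕ} {C2 CR M R t : ℝ} (j : ℕ) {e E l ν : ℝ} {K : ℕ}
    (hC2 : 0 < C2) (hCR : 0 < CR) (hM : 0 < M) (hR : 0 < R) (ht : 0 < t)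
    (he0 : 0 < e) (he1 : e ≤ t ^ (B + 3)) (hE : E = t ^ (4 * B + 14 + j))
    (hl : l = R * (1 / 2) ^ j / 16)
    (hKB : (K : ℝ) ^ B ≤ 2 ^ B * (4 ^ B) ^ j / t ^ B)
    (hx : Real.exp (-(2 * Real.pi * K * l)) ≤ t ^ (5 * B + 20 + 2 * j))
    (hν : ν = C2 / l ^ A2 * (e * (CR * (K : ℝ) ^ B * E ^ 2) +
      4 * M * Real.exp (-(2 * Real.pi * K * l)))) :
    ν ≤ (C2 * (16 / R) ^ A2 * CR * 2 ^ B) * (2 ^ A2 * 4 ^ B) ^ j * t ^ (8 * B + 31 + 2 * j) +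
      (C2 * (16 / R) ^ A2 * (4 * M)) * (2 ^ A2) ^ j * t ^ (5 * B + 20 + 2 * j) := by
  have hE0 : 0 < E := by rw [hE]; positivity
  rw [hν, hl, num_V j hR, mul_add, ← hl]
  have p1 : C2 * (16 / R) ^ A2 * (2 ^ A2) ^ j * (e * (CR * (K : ℝ) ^ B * E ^ 2)) ≤
      (C2 * (16 / R) ^ A2 * CR * 2 ^ B) * (2 ^ A2 * 4 ^ B) ^ j * t ^ (8 * B + 31 + 2 * j) := by
    calc C2 * (16 / R) ^ A2 * (2 ^ A2) ^ j * (e * (CR * (K : ℝ) ^ B * E ^ 2))
        ≤ C2 * (16 / R) ^ A2 * (2 ^ A2) ^ j *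
          (t ^ (B + 3) * (CR * (2 ^ B * (4 ^ B) ^ j / t ^ B) * E ^ 2)) := by
          gcongr
      _ = (C2 * (16 / R) ^ A2 * CR * 2 ^ B) * (2 ^ A2 * 4 ^ B) ^ j *
          (t ^ (B + 3) * E ^ 2 / t ^ B) := by
        rw [mul_pow (2 ^ A2 : ℝ) (4 ^ B) j]; ring
      _ = _ := by
        congr 1
        rw [hE, ← pow_mul, eq_comm, eq_div_iff (by positivity)]
        ring
  have p2 : C2 * (16 / R) ^ A2 * (2 ^ A2) ^ j * (4 * M * Real.exp (-(2 * Real.pi * K * l))) ≤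
      (C2 * (16 / R) ^ A2 * (4 * M)) * (2 ^ A2) ^ j * t ^ (5 * B + 20 + 2 * j) := by
    calc C2 * (16 / R) ^ A2 * (2 ^ A2) ^ j * (4 * M * Real.exp (-(2 * Real.pi * K * l)))
        ≤ C2 * (16 / R) ^ A2 * (2 ^ A2) ^ j * (4 * M * t ^ (5 * B + 20 + 2 * j)) := by gcongr
      _ = _ := by ring
  exact add_le_add p1 p2

theorem num_H1 {B : ℕ} {CR R t : ℝ} (j : ℕ) {E l : ℝ} {K : ℕ}
    (hCR : 0 < CR) (hR : 0 < R) (ht : 0 < t) (ht1 : t ≤ 1) (hE : E = t ^ (4 * B + 14 + j))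
    (hl : l = R * (1 / 2) ^ j / 16)
    (hKB : (K : ℝ) ^ B ≤ 2 ^ B * (4 ^ B) ^ j / t ^ B)
    (c1 : (16 * CR * 2 ^ B / R) * (2 * 4 ^ B) ^ j * t ^ (j + 1) ≤ 1) :
    CR * (K : ℝ) ^ B * E ≤ l := by
  have hE0 : 0 < E := by rw [hE]; positivity
  have e1 : CR * (2 ^ B * (4 ^ B) ^ j / t ^ B) * E =
      CR * 2 ^ B * (4 ^ B) ^ j * t ^ (j + 1) * t ^ (3 * B + 13) := by
    have h0 : E / t ^ B = t ^ (j + 1) * t ^ (3 * B + 13) := by
      rw [hE, div_eq_iff (by positivity)]; ring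
    calc CR * (2 ^ B * (4 ^ B) ^ j / t ^ B) * E = CR * 2 ^ B * (4 ^ B) ^ j * (E / t ^ B) := by ring
      _ = _ := by rw [h0]; ring
  calc CR * (K : ℝ) ^ B * E ≤ CR * (2 ^ B * (4 ^ B) ^ j / t ^ B) * E := by gcongr
    _ = CR * 2 ^ B * (4 ^ B) ^ j * t ^ (j + 1) * t ^ (3 * B + 13) := e1
    _ ≤ CR * 2 ^ B * (4 ^ B) ^ j * t ^ (j + 1) * 1 := by
      gcongr
      exact pow_le_one₀ ht.le ht1
    _ = (CR * 2 ^ B * (4 ^ B) ^ j * t ^ (j + 1)) * (2 ^ j * (1 / 2) ^ j) := by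
      rw [two_mul_half]
    _ = (16 * CR * 2 ^ B / R * (2 * 4 ^ B) ^ j * t ^ (j + 1)) * (R * (1 / 2) ^ j / 16) := by
      rw [mul_pow 2 (4 ^ B : ℝ) j]
      field_simp
    _ ≤ 1 * (R * (1 / 2) ^ j / 16) := by gcongr
    _ = l := by rw [hl, one_mul]

theorem num_H2 {B : ℕ} {C1 C3 β1 β3 t : ℝ} (j : ℕ) {E ν : ℝ}
    (ht : 0 < t) (ht1 : t ≤ 1) (hE : E = t ^ (4 * B + 14 + j))
    (hν : ν ≤ C1 * β1 ^ j * t ^ (8 * B + 31 + 2 * j) + C3 * β3 ^ j * t ^ (5 * B + 20 + 2 * j))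
    (h0 : 0 ≤ C1 * β1 ^ j) (h0' : 0 ≤ C3 * β3 ^ j)
    (c2 : (2 * C1) * β1 ^ j * t ^ (j + 1) ≤ 1)
    (c3 : (2 * C3) * β3 ^ j * t ^ (j + 1) ≤ 1) : ν ≤ E := by
  have hE0 : 0 < E := by rw [hE]; positivity
  have hpow1 : ∀ n : ℕ, t ^ n ≤ 1 := fun n => pow_le_one₀ ht.le ht1
  refine hν.trans ?_
  have s1 : C1 * β1 ^ j * t ^ (8 * B + 31 + 2 * j) ≤ E / 2 := by
    have e1 : t ^ (8 * B + 31 + 2 * j) = t ^ (j + 1) * t ^ (4 * B + 16) * E := by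
      rw [hE]; ring
    calc C1 * β1 ^ j * t ^ (8 * B + 31 + 2 * j)
        = ((2 * C1) * β1 ^ j * t ^ (j + 1)) * t ^ (4 * B + 16) * (E / 2) := by
          rw [e1]; ring
      _ ≤ 1 * 1 * (E / 2) := by
        gcongr
        exact hpow1 _
      _ = E / 2 := by ring
  have s2 : C3 * β3 ^ j * t ^ (5 * B + 20 + 2 * j) ≤ E / 2 := by
    have e1 : t ^ (5 * B + 20 + 2 * j) = t ^ (j + 1) * t ^ (B + 5) * E := by
      rw [hE]; ring
    calc C3 * β3 ^ j * t ^ (5 * B + 20 + 2 * j)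
        = ((2 * C3) * β3 ^ j * t ^ (j + 1)) * t ^ (B + 5) * (E / 2) := by
          rw [e1]; ring
      _ ≤ 1 * 1 * (E / 2) := by
        gcongr
        exact hpow1 _
      _ = E / 2 := by ring
  linarith

theorem num_H3 {B : ℕ} {Cq β t : ℝ} (j : ℕ) {e E q : ℝ}
    (ht : 0 < t) (ht1 : t ≤ 1) (hE : E = t ^ (4 * B + 14 + j)) (hq : q ≤ Cq * β ^ j)
    (he : t ^ (B + 3) / 2 < e) (h0 : 0 ≤ Cq * β ^ j)
    (c4 : (32 * Cq) * β ^ j * t ^ (j + 1) ≤ 1) : q * (2 * E) ≤ e ^ 4 := by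
  have hE0 : 0 < E := by rw [hE]; positivity
  have s1 : (t ^ (B + 3) / 2) ^ 4 ≤ e ^ 4 := by gcongr
  refine le_trans ?_ s1
  have e1 : E = t ^ (j + 1) * t * (t ^ (B + 3)) ^ 4 := by
    rw [hE, ← pow_mul]; ring
  calc q * (2 * E) ≤ (Cq * β ^ j) * (2 * E) := by gcongr
    _ = ((32 * Cq) * β ^ j * t ^ (j + 1)) * t * (t ^ (B + 3) / 2) ^ 4 := by
      rw [e1]; ring
    _ ≤ 1 * 1 * (t ^ (B + 3) / 2) ^ 4 := by gcongr
    _ = (t ^ (B + 3) / 2) ^ 4 := by ring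

theorem num_H4 {B : ℕ} {Cq β C1 β1 C3 β3 t : ℝ} (j : ℕ) {e E E' q ν : ℝ}
    (ht : 0 < t) (ht1 : t ≤ 1) (hE : E = t ^ (4 * B + 14 + j)) (hE' : E' = t ^ (4 * B + 15 + j))
    (hq0 : 0 ≤ q) (hν0 : 0 ≤ ν) (hq : q ≤ Cq * β ^ j) (he : t ^ (B + 3) / 2 < e)
    (h0 : 0 ≤ Cq * β ^ j) (h1 : 0 ≤ C1 * β1 ^ j) (h3 : 0 ≤ C3 * β3 ^ j)
    (hν : ν ≤ C1 * β1 ^ j * t ^ (8 * B + 31 + 2 * j) + C3 * β3 ^ j * t ^ (5 * B + 20 + 2 * j))
    (c5 : (8 * Cq * C1) * (β * β1) ^ j * t ^ (j + 1) ≤ 1)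
    (c6 : (8 * Cq * C3) * (β * β3) ^ j * t ^ (j + 1) ≤ 1)
    (c7 : (128 * Cq) * β ^ j * t ^ (j + 1) ≤ 1) :
    q * (ν / e + (2 * E) ^ 2 / e ^ 4) ≤ E' := by
  have hE0 : 0 < E := by rw [hE]; positivity
  have hE'0 : 0 < E' := by rw [hE']; positivity
  have hpow1 : ∀ n : ℕ, t ^ n ≤ 1 := fun n => pow_le_one₀ ht.le ht1
  have hee0 : 0 < t ^ (B + 3) := by positivity
  have he0 : 0 < e := by linarith
  have s1 : q * (ν / e) ≤ E' / 4 + E' / 4 := by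
    have p1 : ν / e ≤ (C1 * β1 ^ j * t ^ (8 * B + 31 + 2 * j) +
        C3 * β3 ^ j * t ^ (5 * B + 20 + 2 * j)) / (t ^ (B + 3) / 2) := by
      have : 0 ≤ C1 * β1 ^ j * t ^ (8 * B + 31 + 2 * j) +
        C3 * β3 ^ j * t ^ (5 * B + 20 + 2 * j) := by positivity
      gcongr
    have p2 : (C1 * β1 ^ j * t ^ (8 * B + 31 + 2 * j) +
        C3 * β3 ^ j * t ^ (5 * B + 20 + 2 * j)) / (t ^ (B + 3) / 2) =
        2 * C1 * β1 ^ j * (t ^ (j + 1) * t ^ (3 * B + 12) * E') +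
        2 * C3 * β3 ^ j * (t ^ (j + 1) * t * E') := by
      rw [div_eq_iff (by positivity), hE']
      ring
    rw [p2] at p1
    have p0 : 0 ≤ 2 * C1 * β1 ^ j * (t ^ (j + 1) * t ^ (3 * B + 12) * E') +
        2 * C3 * β3 ^ j * (t ^ (j + 1) * t * E') := by
      have a1 : 2 * C1 * β1 ^ j * (t ^ (j + 1) * t ^ (3 * B + 12) * E') =
        (C1 * β1 ^ j) * (2 * (t ^ (j + 1) * t ^ (3 * B + 12) * E')) := by ring
      have a2 : 2 * C3 * β3 ^ j * (t ^ (j + 1) * t * E') =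
        (C3 * β3 ^ j) * (2 * (t ^ (j + 1) * t * E')) := by ring
      rw [a1, a2]
      positivity
    calc q * (ν / e) ≤ (Cq * β ^ j) *
          (2 * C1 * β1 ^ j * (t ^ (j + 1) * t ^ (3 * B + 12) * E') +
        2 * C3 * β3 ^ j * (t ^ (j + 1) * t * E')) := mul_le_mul hq p1 (by positivity) h0
      _ = ((8 * Cq * C1) * (β * β1) ^ j * t ^ (j + 1)) * t ^ (3 * B + 12) * (E' / 4) +
          ((8 * Cq * C3) * (β * β3) ^ j * t ^ (j + 1)) * t * (E' / 4) := by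
        rw [mul_pow, mul_pow]
        ring
      _ ≤ 1 * 1 * (E' / 4) + 1 * 1 * (E' / 4) := by
        gcongr
        exact hpow1 _
      _ = E' / 4 + E' / 4 := by ring
  have s2 : q * ((2 * E) ^ 2 / e ^ 4) ≤ E' / 2 := by
    have p1 : (2 * E) ^ 2 / e ^ 4 ≤ (2 * E) ^ 2 / (t ^ (B + 3) / 2) ^ 4 := by gcongr
    have p2 : (2 * E) ^ 2 / (t ^ (B + 3) / 2) ^ 4 = 64 * (t ^ (j + 1) * E') := by
      rw [div_eq_iff (by positivity), hE, hE']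
      ring
    rw [p2] at p1
    calc q * ((2 * E) ^ 2 / e ^ 4) ≤ (Cq * β ^ j) * (64 * (t ^ (j + 1) * E')) :=
          mul_le_mul hq p1 (by positivity) h0
      _ = ((128 * Cq) * β ^ j * t ^ (j + 1)) * (E' / 2) := by ring
      _ ≤ 1 * (E' / 2) := by gcongr
      _ = E' / 2 := by ring
  rw [mul_add]
  linarith

theorem num_key {B : ℕ} {Cq β R d0 t : ℝ} (j : ℕ) {e E q : ℝ}
    (hR : 0 < R) (hd0 : 0 < d0)
    (ht : 0 < t) (ht1 : t ≤ 1) (hE : E = t ^ (4 * B + 14 + j)) (hq : q ≤ Cq * β ^ j)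
    (he : t ^ (B + 3) / 2 < e) (h0 : 0 ≤ Cq * β ^ j)
    (c8 : (512 * Cq / (R * d0)) * (4 * β) ^ j * t ^ (j + 1) ≤ 1) :
    q / e ^ 3 * (2 * E) ≤ R * (t ^ (B + 3) * (1 / 2) ^ j / 8) * (d0 / 2 * (1 / 2) ^ j) := by
  have hE0 : 0 < E := by rw [hE]; positivity
  have hee0 : 0 < t ^ (B + 3) := by positivity
  have he0 : 0 < e := by linarith
  have p1 : q / e ^ 3 ≤ (Cq * β ^ j) / (t ^ (B + 3) / 2) ^ 3 := by gcongr
  have e1 : E = t ^ (j + 1) * t * (t ^ (B + 3)) ^ 4 := by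
    rw [hE, ← pow_mul]; ring
  have e2 : (4 : ℝ) ^ j * ((1 / 2) ^ j * (1 / 2) ^ j) = 1 := by
    rw [four_eq]
    calc (2 : ℝ) ^ j * 2 ^ j * ((1 / 2) ^ j * (1 / 2) ^ j) =
        (2 ^ j * (1 / 2) ^ j) * (2 ^ j * (1 / 2) ^ j) := by ring
      _ = 1 := by rw [two_mul_half, one_mul]
  calc q / e ^ 3 * (2 * E) ≤ (Cq * β ^ j) / (t ^ (B + 3) / 2) ^ 3 * (2 * E) := by gcongr
    _ = 16 * Cq * β ^ j * (t ^ (j + 1) * t) * t ^ (B + 3) := by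
      rw [e1]; field_simp; ring
    _ = 16 * Cq * β ^ j * (t ^ (j + 1) * t) * t ^ (B + 3) *
        ((4 : ℝ) ^ j * ((1 / 2) ^ j * (1 / 2) ^ j)) := by rw [e2, mul_one]
    _ = ((512 * Cq / (R * d0)) * (4 * β) ^ j * t ^ (j + 1)) * t *
        (R * (t ^ (B + 3) * (1 / 2) ^ j / 8) * (d0 / 2 * (1 / 2) ^ j)) / 2 := by
      rw [mul_pow 4 β j]; field_simp; ring
    _ ≤ 1 * 1 * (R * (t ^ (B + 3) * (1 / 2) ^ j / 8) * (d0 / 2 * (1 / 2) ^ j)) / 2 := by gcongr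
    _ ≤ R * (t ^ (B + 3) * (1 / 2) ^ j / 8) * (d0 / 2 * (1 / 2) ^ j) := by
      have : 0 ≤ R * (t ^ (B + 3) * (1 / 2) ^ j / 8) * (d0 / 2 * (1 / 2) ^ j) := by positivity
      linarith

/-- the numbers of one step -/
theorem num_step {A A2 B : ℕ} {C C2 CR M R d0 t : ℝ} (hC : 0 < C) (hC2 : 0 < C2) (hCR : 0 < CR)
    (hM : 0 < M) (hR : 0 < R) (hR1 : R ≤ 1) (hd0 : 0 < d0) (ht : 0 < t) (ht1 : t ≤ 1)
    (c1 : ∀ j : ℕ, (16 * CR * 2 ^ B / R) * (2 * 4 ^ B) ^ j * t ^ (j + 1) ≤ 1)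
    (c2 : ∀ j : ℕ, (2 * (C2 * (16 / R) ^ A2 * CR * 2 ^ B)) * (2 ^ A2 * 4 ^ B) ^ j * t ^ (j + 1) ≤ 1)
    (c3 : ∀ j : ℕ, (2 * (C2 * (16 / R) ^ A2 * (4 * M))) * (2 ^ A2) ^ j * t ^ (j + 1) ≤ 1)
    (c4 : ∀ j : ℕ, (32 * (C * (128 / R) ^ A)) * (4 ^ A) ^ j * t ^ (j + 1) ≤ 1)
    (c5 : ∀ j : ℕ, (8 * (C * (128 / R) ^ A) * (C2 * (16 / R) ^ A2 * CR * 2 ^ B)) *
      (4 ^ A * (2 ^ A2 * 4 ^ B)) ^ j * t ^ (j + 1) ≤ 1)
    (c6 : ∀ j : ℕ, (8 * (C * (128 / R) ^ A) * (C2 * (16 / R) ^ A2 * (4 * M))) *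
      (4 ^ A * 2 ^ A2) ^ j * t ^ (j + 1) ≤ 1)
    (c7 : ∀ j : ℕ, (128 * (C * (128 / R) ^ A)) * (4 ^ A) ^ j * t ^ (j + 1) ≤ 1)
    (c8 : ∀ j : ℕ, (512 * (C * (128 / R) ^ A) / (R * d0)) * (4 * 4 ^ A) ^ j * t ^ (j + 1) ≤ 1)
    (c9 : 2 * t ≤ 1)
    (cx : Real.exp (-(R / 4 / t)) ≤ t ^ (5 * B + 20))
    (j : ℕ) {r r' e e' E E' δ l ν q : ℝ} {K : ℕ}
    (hr : r = rj R j) (hr' : r' = rj R (j + 1))
    (he : e = rj (t ^ (B + 3)) j) (he' : e' = rj (t ^ (B + 3)) (j + 1))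
    (hE : E = Ej t B j) (hE' : E' = Ej t B (j + 1)) (hδ : δ = d0 / 2 * (1 / 2) ^ j)
    (hK : K = Kj t j) (hl : l = (r - r') / 4)
    (hν : ν = C2 / l ^ A2 * (e * (CR * (K : ℝ) ^ B * E ^ 2) +
      4 * M * Real.exp (-(2 * Real.pi * K * l))))
    (hq : q = C / (l * ((e - (e + e') / 2) / e)) ^ A) :
    CR * (K : ℝ) ^ B * E ≤ l ∧ ν ≤ E ∧ q * (2 * E) ≤ e ^ 4 ∧
      q * (ν / e + (2 * E) ^ 2 / e ^ 4) ≤ E' ∧ q / e ^ 3 * (2 * E) ≤ δ ∧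
      q / e ^ 3 * (2 * E) / l ≤ δ ∧ q / e ^ 3 * (2 * E) / ((e - e') / 2) ≤ δ := by
  have hee0 : 0 < t ^ (B + 3) := by positivity
  have hl' : l = R * (1 / 2) ^ j / 16 := by
    rw [hl, hr, hr', rj_sub]; ring
  have hl0 : 0 < l := by rw [hl']; positivity
  have hede : e - e' = t ^ (B + 3) * (1 / 2) ^ j / 4 := by rw [he, he', rj_sub]
  have he1 : e ≤ t ^ (B + 3) := by rw [he]; exact rj_le hee0 j
  have he2 : t ^ (B + 3) / 2 < e := by rw [he]; exact rj_gt hee0 j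
  have he0 : 0 < e := by linarith
  obtain ⟨hq0, hqle⟩ := num_q j hC hR hee0 he0 he1 hede hl' hq
  have hEv : E = t ^ (4 * B + 14 + j) := hE
  have hEv' : E' = t ^ (4 * B + 15 + j) := by
    rw [hE']; unfold Ej; congr 1; ring
  have hKB : (K : ℝ) ^ B ≤ 2 ^ B * (4 ^ B) ^ j / t ^ B := by rw [hK]; exact Kj_pow ht ht1 B j
  have hx : Real.exp (-(2 * Real.pi * K * l)) ≤ t ^ (5 * B + 20 + 2 * j) := by
    have := num_exp (P := 5 * B + 18) j (K := K) (σ := 0) hR ht ht1 hl'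
      (by rw [hK]; exact Kj_ge t j) (by
        have : 5 * B + 18 + 2 = 5 * B + 20 := by ring
        rw [this]; exact cx)
    have h2 : 5 * B + 18 + 2 = 5 * B + 20 := by ring
    rwa [h2] at this
  have hνle := num_nu j hC2 hCR hM hR ht he0 he1 hEv hl' hKB hx hν
  have hE0 : 0 < E := by rw [hEv]; positivity
  have hν0 : 0 ≤ ν := by rw [hν]; positivity
  have hCq0 : 0 ≤ C * (128 / R) ^ A * (4 ^ A) ^ j := by positivity
  have hδ0 : 0 < δ := by rw [hδ]; positivity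
  have key := num_key j hR hd0 ht ht1 hEv hqle he2 hCq0 (c8 j)
  rw [← hδ] at key
  have hee1 : t ^ (B + 3) ≤ 1 := pow_le_one₀ ht.le ht1
  have hu1 : ((1 : ℝ) / 2) ^ j ≤ 1 := pow_le_one₀ (by norm_num) (by norm_num)
  have hu0 : (0 : ℝ) < (1 / 2) ^ j := by positivity
  refine ⟨num_H1 j hCR hR ht ht1 hEv hl' hKB (c1 j),
    num_H2 j ht ht1 hEv hνle (by positivity) (by positivity) (c2 j) (c3 j),
    num_H3 j ht ht1 hEv hqle he2 hCq0 (c4 j),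
    num_H4 j ht ht1 hEv hEv' hq0 hν0 hqle he2 hCq0 (by positivity) (by positivity) hνle (c5 j)
      (c6 j) (c7 j), ?_, ?_, ?_⟩
  · refine key.trans ?_
    calc R * (t ^ (B + 3) * (1 / 2) ^ j / 8) * δ ≤ 1 * (1 * 1 / 8) * δ := by gcongr
      _ ≤ δ := by linarith
  · rw [div_le_iff₀ hl0, hl']
    refine key.trans ?_
    have h8 : 2 * t ^ (B + 3) ≤ 1 := by
      have : t ^ (B + 3) ≤ t := by
        calc t ^ (B + 3) = t ^ (B + 2) * t := by ring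
          _ ≤ 1 * t := by
            gcongr
            exact pow_le_one₀ ht.le ht1
          _ = t := one_mul t
      linarith
    calc R * (t ^ (B + 3) * (1 / 2) ^ j / 8) * δ
        = (2 * t ^ (B + 3)) * (δ * (R * (1 / 2) ^ j / 16)) := by ring
      _ ≤ 1 * (δ * (R * (1 / 2) ^ j / 16)) := by gcongr
      _ = δ * (R * (1 / 2) ^ j / 16) := one_mul _
  · have h1 : 0 < (e - e') / 2 := by rw [hede]; positivity
    rw [div_le_iff₀ h1, hede]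
    refine key.trans ?_
    have : δ * (t ^ (B + 3) * (1 / 2) ^ j / 4 / 2) = 1 * (t ^ (B + 3) * (1 / 2) ^ j / 8) * δ := by
      ring
    rw [this]
    gcongr

/-- the choice of `t` -/
theorem num_exists {A A2 B : ℕ} {C C2 CR M R d0 ρ τ : ℝ} (hC : 0 < C) (hC2 : 0 < C2) (hCR : 0 < CR)
    (hM : 0 < M) (hR : 0 < R) (hR1 : R ≤ 1) (hd0 : 0 < d0) (hρ : 0 < ρ) (hτ : 0 < τ) :
    ∃ t : ℝ, 0 < t ∧ t ≤ 1 ∧ t ≤ τ ∧ 24 * M / ρ * (t ^ (B + 3)) ^ 5 ≤ t ^ (4 * B + 14) ∧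
      ∀ (j : ℕ) {r r' e e' E E' δ l ν q : ℝ} {K : ℕ}
        (hr : r = rj R j) (hr' : r' = rj R (j + 1))
        (he : e = rj (t ^ (B + 3)) j) (he' : e' = rj (t ^ (B + 3)) (j + 1))
        (hE : E = Ej t B j) (hE' : E' = Ej t B (j + 1)) (hδ : δ = d0 / 2 * (1 / 2) ^ j)
        (hK : K = Kj t j) (hl : l = (r - r') / 4)
        (hν : ν = C2 / l ^ A2 * (e * (CR * (K : ℝ) ^ B * E ^ 2) +
          4 * M * Real.exp (-(2 * Real.pi * K * l))))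
        (hq : q = C / (l * ((e - (e + e') / 2) / e)) ^ A),
        CR * (K : ℝ) ^ B * E ≤ l ∧ ν ≤ E ∧ q * (2 * E) ≤ e ^ 4 ∧
          q * (ν / e + (2 * E) ^ 2 / e ^ 4) ≤ E' ∧ q / e ^ 3 * (2 * E) ≤ δ ∧
          q / e ^ 3 * (2 * E) / l ≤ δ ∧ q / e ^ 3 * (2 * E) / ((e - e') / 2) ≤ δ := by
  have k1 := ev_small (16 * CR * 2 ^ B / R) (2 * 4 ^ B) (by positivity) (by positivity)
  have k2 := ev_small (2 * (C2 * (16 / R) ^ A2 * CR * 2 ^ B)) (2 ^ A2 * 4 ^ B)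
    (by positivity) (by positivity)
  have k3 := ev_small (2 * (C2 * (16 / R) ^ A2 * (4 * M))) (2 ^ A2) (by positivity) (by positivity)
  have k4 := ev_small (32 * (C * (128 / R) ^ A)) (4 ^ A) (by positivity) (by positivity)
  have k5 := ev_small (8 * (C * (128 / R) ^ A) * (C2 * (16 / R) ^ A2 * CR * 2 ^ B))
    (4 ^ A * (2 ^ A2 * 4 ^ B)) (by positivity) (by positivity)
  have k6 := ev_small (8 * (C * (128 / R) ^ A) * (C2 * (16 / R) ^ A2 * (4 * M)))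
    (4 ^ A * 2 ^ A2) (by positivity) (by positivity)
  have k7 := ev_small (128 * (C * (128 / R) ^ A)) (4 ^ A) (by positivity) (by positivity)
  have k8 := ev_small (512 * (C * (128 / R) ^ A) / (R * d0)) (4 * 4 ^ A)
    (by positivity) (by positivity)
  have k9 := ev_small 2 0 (by positivity) le_rfl
  have k10 := ev_small (1 / τ) 0 (by positivity) le_rfl
  have k11 := ev_small (24 * M / ρ) 0 (by positivity) le_rfl
  have kx := ev_exp (R / 4) (by positivity) (5 * B + 20)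
  have hall := (k1.and (k2.and (k3.and (k4.and (k5.and (k6.and (k7.and (k8.and (k9.and
    (k10.and (k11.and (kx.and eventually_mem_nhdsWithin))))))))))))
  obtain ⟨t, a1, a2, a3, a4, a5, a6, a7, a8, a9, a10, a11, ax, ht⟩ := hall.exists
  have ht0 : (0 : ℝ) < t := ht
  have b9 := a9 0
  have b10 := a10 0
  have b11 := a11 0
  simp only [pow_zero, mul_one, zero_add, pow_one] at b9 b10 b11
  have ht1 : t ≤ 1 := by linarith
  refine ⟨t, ht0, ht1, ?_, ?_, ?_⟩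
  · rw [one_div, inv_mul_le_iff₀ hτ, mul_one] at b10
    exact b10
  · have e1 : (t ^ (B + 3)) ^ 5 = t * t ^ B * t ^ (4 * B + 14) := by
      rw [← pow_mul]; ring
    rw [e1]
    calc 24 * M / ρ * (t * t ^ B * t ^ (4 * B + 14)) = (24 * M / ρ * t) * t ^ B * t ^ (4 * B + 14) := by
          ring
      _ ≤ 1 * 1 * t ^ (4 * B + 14) := by
        gcongr
        exact pow_le_one₀ ht0.le ht1
      _ = t ^ (4 * B + 14) := by ring
  · intro j r r' e e' E E' δ l ν q K hr hr' he he' hE hE' hδ hK hl hν hq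
    exact num_step hC hC2 hCR hM hR hR1 hd0 ht0 ht1 a1 a2 a3 a4 a5 a6 a7 a8 b9 ax j hr hr' he he'
      hE hE' hδ hK hl hν hq

end Vale.Agent.P097.TA
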