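import Vale.Agent.P097.H707.Nrm
import Vale.Agent.P097.H707.Num

/-! # P097 / Theorem A / A6: convergence of the Newton iteration

`A6`: resonances (`ResP`), division (`L2P`) and the one-step theorem (`StepP`) give the exact family
of leaves `Fam`, jointly holomorphic across the boundary. -/

set_option linter.all false

open scoped ComplexConjugate Topology
open Filter Metric

namespace Vale.Agent.P097.TA

theorem A6 {ρ M : ℝ} {b : ℂ → ℂ → ℂ} (hG : Gen ρ M b) {B A2 A : ℕ}
    {CR dR eR rR C2 C dS eS rS : ℝ}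
    (hCR : 0 < CR) (hdR : 0 < dR) (heR : 0 < eR) (hrR : 0 < rR) (hC2 : 0 < C2) (hC : 0 < C)
    (hdS : 0 < dS) (heS : 0 < eS) (hrS : 0 < rS)
    (hRes : ResP b B CR dR eR rR) (hL2 : L2P A2 C2) (hStep : StepP b A C dS eS rS) :
    ∃ (L r e : ℝ) (θ : ℂ → ℂ → ℂ), Fam b L r e θ := by
  have hρ := hG.hρ
  have hρ1 := hG.hρ1
  have hM := hG.hM
  set R : ℝ := min (min rR rS) (ρ / 4) with hRdef
  have hR : 0 < R := lt_min (lt_min hrR hrS) (by linarith)
  have hR1 : R ≤ rR := (min_le_left _ _).trans (min_le_left _ _)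
  have hR2 : R ≤ rS := (min_le_left _ _).trans (min_le_right _ _)
  have hR3 : R ≤ ρ / 4 := min_le_right _ _
  set d0 : ℝ := min (min dR dS) (R / 8) with hd0def
  have hd0 : 0 < d0 := lt_min (lt_min hdR hdS) (by linarith)
  have hd1 : d0 ≤ dR := (min_le_left _ _).trans (min_le_left _ _)
  have hd2 : d0 ≤ dS := (min_le_left _ _).trans (min_le_right _ _)
  have hd3 : d0 ≤ R / 8 := min_le_right _ _
  set τ : ℝ := min (min eR eS) (min (ρ / 4) (min (R / 2) (1 / 2))) with hτdef
  have hτ : 0 < τ := lt_min (lt_min heR heS) (lt_min (by linarith) (lt_min (by linarith) (by norm_num)))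
  have hτ1 : τ ≤ eR := (min_le_left _ _).trans (min_le_left _ _)
  have hτ2 : τ ≤ eS := (min_le_left _ _).trans (min_le_right _ _)
  have hτ3 : τ ≤ ρ / 4 := (min_le_right _ _).trans (min_le_left _ _)
  have hτ4 : τ ≤ R / 2 := (min_le_right _ _).trans ((min_le_right _ _).trans (min_le_left _ _))
  have hτ5 : τ ≤ 1 / 2 := (min_le_right _ _).trans ((min_le_right _ _).trans (min_le_right _ _))
  obtain ⟨t, ht, ht1, htτ, hst, hnum⟩ := num_exists (A := A) (A2 := A2) (B := B + 1) (C := C)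
    (C2 := C2) (CR := CR) (M := M) (R := R) (d0 := d0) (ρ := ρ) (τ := τ) hC hC2 hCR (by linarith)
    hR (by linarith) hd0 hρ hτ
  set ee : ℝ := t ^ (B + 1 + 3) with hee
  have hee0 : 0 < ee := by positivity
  have heet : ee ≤ t := by
    calc ee = t ^ (B + 3) * t := by rw [hee]; ring
      _ ≤ 1 * t := by
        gcongr
        exact pow_le_one₀ ht.le ht1
      _ = t := one_mul t
  -- the start
  have hstart : Apx b (fun x _ => x) (rj R 0) (rj ee 0) 0 (Ej t (B + 1) 0) := by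
    have e1 : rj ee 0 = ee := by unfold rj; norm_num
    have e2 : rj R 0 = R := by unfold rj; norm_num
    rw [e1, e2]
    refine (apx_start hG (r := R) (e := ee) hR3 hee0 (by linarith)).mono le_rfl le_rfl le_rfl ?_
    refine hst.trans (le_of_eq ?_)
    unfold Ej; congr 1
  -- the steps
  have hstep : ∀ j, OneStep b d0 (rj R j) (rj ee j) (rj R (j + 1)) (rj ee (j + 1)) (Ej t (B + 1) j)
      (Ej t (B + 1) (j + 1)) (d0 / 2 * (1 / 2) ^ j) := by
    intro j
    obtain ⟨h1, h2, h3, h4, h5, h6, h7⟩ := hnum j (r := rj R j) (r' := rj R (j + 1))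
      (e := rj ee j) (e' := rj ee (j + 1)) (E := Ej t (B + 1) j) (E' := Ej t (B + 1) (j + 1))
      (δ := d0 / 2 * (1 / 2) ^ j) (l := (rj R j - rj R (j + 1)) / 4)
      (ν := C2 / ((rj R j - rj R (j + 1)) / 4) ^ A2 *
        (Kj t j * rj ee j * (CR * (Kj t j : ℝ) ^ B * Ej t (B + 1) j ^ 2) +
        4 * M * Real.exp (-(2 * Real.pi * Kj t j * ((rj R j - rj R (j + 1)) / 4)))))
      (q := C / ((rj R j - rj R (j + 1)) / 4 * ((rj ee j - (rj ee j + rj ee (j + 1)) / 2) / rj ee j)) ^ A)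
      (K := Kj t j) rfl rfl rfl rfl rfl rfl rfl rfl rfl (by rw [pow_succ]; ring) rfl
    have hE0 : 0 < Ej t (B + 1) j := by unfold Ej; positivity
    have hK1 : (1 : ℝ) ≤ Kj t j := by exact_mod_cast one_le_Kj ht j
    have h1' : CR * (Kj t j : ℝ) ^ B * Ej t (B + 1) j ≤ (rj R j - rj R (j + 1)) / 4 := by
      refine le_trans ?_ h1
      have : (Kj t j : ℝ) ^ B ≤ (Kj t j : ℝ) ^ (B + 1) := pow_le_pow_right₀ hK1 (Nat.le_succ B)
      gcongr
    have a1 := rj_lt hR j
    have a2 := rj_lt hee0 j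
    have a3 := rj_le hR j
    have a4 := rj_le hee0 j
    have a5 := rj_gt hR (j + 1)
    have a6 := rj_gt hee0 (j + 1)
    exact oneStep hG hRes hL2 hStep hCR hC2 hC hd1 hd2 (by linarith) (a3.trans hR1) (a3.trans hR2)
      (a3.trans hR3) (by linarith) a1 (by linarith) (by linarith) (by linarith) (by linarith)
      (by linarith) a2 hE0 (one_le_Kj ht j) rfl h1' rfl h2 rfl h3 h4 h5 h6 h7
  have hgeo : HasSum (fun j : ℕ => d0 / 2 * (1 / 2 : ℝ) ^ j) (d0 / 2 * 2) :=
    hasSum_geometric_two.mul_left _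
  have hsum : Summable fun j : ℕ => d0 / 2 * (1 / 2 : ℝ) ^ j := hgeo.summable
  have hle : ∀ j, ∑ i ∈ Finset.range j, d0 / 2 * (1 / 2 : ℝ) ^ i ≤ d0 := by
    intro j
    have := hsum.sum_le_tsum (Finset.range j) (fun i _ => by positivity)
    rw [hgeo.tsum_eq] at this
    linarith
  obtain ⟨θ, hA, hdiff⟩ := iterate (d0 := d0) (rs := fun j => rj R j) (es := fun j => rj ee j)
    (Es := fun j => Ej t (B + 1) j) (δs := fun j => d0 / 2 * (1 / 2 : ℝ) ^ j) hstart hstep
    (fun j => by positivity) hle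
  have hElim : Tendsto (fun j => Ej t (B + 1) j) atTop (𝓝 0) := by
    have h1 : Tendsto (fun j : ℕ => t ^ j) atTop (𝓝 0) :=
      tendsto_pow_atTop_nhds_zero_of_lt_one ht.le (by linarith)
    have h2 := h1.const_mul (t ^ (4 * (B + 1) + 14))
    rw [mul_zero] at h2
    refine h2.congr fun j => ?_
    unfold Ej; rw [← pow_add]
  obtain ⟨g, hg1, hg2, hg3, hg4, hg5, hg6⟩ := limit_family hG (r := R / 2) (e := ee / 2) hA hdiff
    (fun j => (rj_gt hR j).le) (fun j => (rj_gt hee0 j).le) (by linarith) (by linarith) hsum hElim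
  obtain ⟨L, θ', hF⟩ := fam_of_exact hG hg1 (by linarith) (by linarith) hg2 hg3 hg4 hg5
    (by linarith) (by linarith) (by linarith) hg6
  exact ⟨L, _, _, θ', hF⟩

end Vale.Agent.P097.TA
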