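import Vale.Agent.P097.H707.A6
import Vale.Agent.P097.H799.ResP
import Vale.Agent.P097.H900.L2
import Vale.Agent.P097.H477.Main

/-! # P097 / Theorem A: existence of the family of leaves, jointly holomorphic across the boundary

Closed theorem: A4/A7 (helper799), L1/L2 (helper900), A5 (helper477), A6 (helper707). -/

set_option linter.all false

open scoped ComplexConjugate Topology
open Filter Metric

namespace Vale.Agent.P097.TA

/-- the division, from helper900's sharp form -/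
theorem l2P : L2P 1 2 := by
  intro r e r' M μ K f hK hr' hrr hr he her hM hμ hf hp h0 hb hres
  obtain ⟨S, h1, h2, h3, h4, h5, h6⟩ := H900.L2_sharp (hr'.trans hrr) hrr he (by linarith) hM hμ hf
    hp (fun x => h0 x (by simpa using hr'.trans hrr)) hb hres
  refine ⟨S, h1, h2, ?_, h5, h6⟩
  rw [pow_one]
  exact h4

/-- the one-step theorem, from helper477's form -/
theorem stepP {ρ M : ℝ} {b : ℂ → ℂ → ℂ} (hG : Gen ρ M b) :
    ∃ C e0 : ℝ, 0 < C ∧ 0 < e0 ∧ StepP b 8 C (min (1 / 50) (ρ / 4)) e0 (ρ / 2) := by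
  obtain ⟨C, e0, hC, he0, he16, hst⟩ := H477.step hG
  refine ⟨C, e0, by linarith, he0, ?_⟩
  intro r e r' e' dl E ν q θ S hr' hrr hr he' hee he her hdl0 hdl hE hν hq hsm hA hS hSp hSe hSr hB
  have hρ1 := hG.hρ1
  have hepos : 0 < e := he'.trans hee
  have hr1 : r - r' ≤ 1 := by linarith
  have hrp : 0 < r - r' := by linarith
  have hep : 0 < e - e' := by linarith
  set κ : ℝ := e / ((r - r') * (e - e')) with hκ
  have hκ0 : 0 < κ := by positivity
  have hκ1 : 1 ≤ κ := by
    rw [hκ, le_div_iff₀ (by positivity), one_mul]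
    calc (r - r') * (e - e') ≤ 1 * e := by
          gcongr
          linarith
      _ = e := one_mul e
  have hq' : q = C * κ ^ 8 := by
    rw [hq, hκ]
    have : (r - r') * ((e - e') / e) = ((r - r') * (e - e')) / e := by ring
    rw [this, div_pow, div_pow, div_div_eq_mul_div]
    ring
  have hκ38 : κ ^ 3 ≤ κ ^ 8 := pow_le_pow_right₀ hκ1 (by norm_num)
  have hle : C * (κ ^ 3 * (E + ν) / e ^ 3) ≤ q / e ^ 3 * (E + ν) := by
    rw [hq']
    calc C * (κ ^ 3 * (E + ν) / e ^ 3) = C * κ ^ 3 / e ^ 3 * (E + ν) := by ring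
      _ ≤ C * κ ^ 8 / e ^ 3 * (E + ν) := by gcongr
  have hsmall : C * (κ ^ 3 * (E + ν) / e ^ 3) ≤ e := by
    refine hle.trans ?_
    have : q / e ^ 3 * (E + ν) = q * (E + ν) / e ^ 3 := by ring
    rw [this, div_le_iff₀ (by positivity)]
    calc q * (E + ν) ≤ e ^ 4 := hsm
      _ = e * e ^ 3 := by ring
  obtain ⟨θ', g1, g2, g3, g4, g5, g6⟩ := hst r e r' e' dl E ν κ θ S hr' hrr hr he' hee he her
    (hdl.trans (min_le_left _ _)) (hdl.trans (min_le_right _ _)) hE.le hν hA hS hSp hSe hSr hB hκ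
    hsmall
  refine ⟨θ', g1, g2, g3, g4, g5.mono hle subset_rfl, g6.mono (le_of_eq ?_) subset_rfl⟩
  rw [hq']

/-- helper402's interface -/
def FamEx : Prop := ∀ (ρ M η CH : ℝ) (b : ℂ → ℂ → ℂ), Gen ρ M b → 0 < η → 1 ≤ CH →
  LeafMap b η CH → ∃ (L r e : ℝ) (θ : ℂ → ℂ → ℂ), Fam b L r e θ

/-- **Existence of the family of leaves.** -/
theorem famEx : FamEx := by
  intro ρ M η CH b hG hη hCH hL
  obtain ⟨h1, h2, h3, h4, hRes⟩ := resP hG hη hL hCH
  obtain ⟨C, e0, hC, he0, hStep⟩ := stepP hG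
  have hρ := hG.hρ
  exact A6 hG h1 h2 h3 h4 (by norm_num) hC (lt_min (by norm_num) (by linarith)) he0 (by linarith)
    hRes l2P hStep

end Vale.Agent.P097.TA
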