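import Vale.Agent.P097.H707.Ident
import Vale.Agent.P097.H477.Apx
import Vale.Agent.P097.H477.GenF

/-! # P097 / Theorem A / A6, part 1: the action density of an approximate family, the starting point -/

set_option linter.all false

open scoped ComplexConjugate Topology
open Filter Metric

namespace Vale.Agent.P097.TA

open Vale.Agent.P097.TA.H477

variable {ρ M : ℝ} {b θ : ℂ → ℂ → ℂ} {r e dl E : ℝ}

/-- consecutive points of a family close to the identity -/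
theorem cl_mem_Om (hcl : ∀ x ε : ℂ, (x, ε) ∈ WW 0 r e → ‖θ x ε - x‖ ≤ dl) {s t : ℝ}
    (hs : r + dl ≤ s) (ht : e + 2 * dl ≤ t)
    {m ε : ℂ} (h : (m, ε) ∈ WW (1 / 2) r e) :
    (θ (m - ε / 2) ε, θ (m + ε / 2) ε) ∈ Om s t := by
  have h0 : (m, ε) ∈ WW (0 + 1 / 2) r e := by simpa using h
  have hp := hcl _ _ (WW_add_half h0)
  have hm := hcl _ _ (WW_sub_half h0)
  have hI : |m.im| + 1 / 2 * |ε.im| < r := h.2
  have hε : ‖ε‖ < e := h.1
  rw [mem_Om]
  constructor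
  · have e1 : (θ (m - ε / 2) ε + θ (m + ε / 2) ε) / 2 =
        m + ((θ (m - ε / 2) ε - (m - ε / 2)) + (θ (m + ε / 2) ε - (m + ε / 2))) / 2 := by ring
    rw [e1, Complex.add_im]
    have e2 : |(((θ (m - ε / 2) ε - (m - ε / 2)) + (θ (m + ε / 2) ε - (m + ε / 2))) / 2).im| ≤ dl := by
      refine (Complex.abs_im_le_norm _).trans ?_
      rw [norm_div, Complex.norm_ofNat]
      have := norm_add_le (θ (m - ε / 2) ε - (m - ε / 2)) (θ (m + ε / 2) ε - (m + ε / 2))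
      linarith
    have := abs_add_le m.im (((θ (m - ε / 2) ε - (m - ε / 2)) + (θ (m + ε / 2) ε - (m + ε / 2))) / 2).im
    have := abs_nonneg ε.im
    linarith
  · have e1 : θ (m + ε / 2) ε - θ (m - ε / 2) ε =
        ε + ((θ (m + ε / 2) ε - (m + ε / 2)) - (θ (m - ε / 2) ε - (m - ε / 2))) := by ring
    rw [e1]
    have h1 := norm_add_le ε ((θ (m + ε / 2) ε - (m + ε / 2)) - (θ (m - ε / 2) ε - (m - ε / 2)))
    have h2 := norm_sub_le (θ (m + ε / 2) ε - (m + ε / 2)) (θ (m - ε / 2) ε - (m - ε / 2))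
    linarith

theorem cl_mem_Om_left (hcl : ∀ x ε : ℂ, (x, ε) ∈ WW 0 r e → ‖θ x ε - x‖ ≤ dl) {s t : ℝ}
    (hs : r + dl ≤ s) (ht : e + 2 * dl ≤ t)
    {x ε : ℂ} (h : (x, ε) ∈ WW 1 r e) : (θ (x - ε) ε, θ x ε) ∈ Om s t := by
  have h1 : (x, ε) ∈ WW (1 / 2 + 1 / 2) r e := by
    have : (1 / 2 + 1 / 2 : ℝ) = 1 := by norm_num
    rw [this]; exact h
  have := cl_mem_Om hcl hs ht (WW_sub_half h1)
  have e1 : x - ε / 2 - ε / 2 = x - ε := by ring
  have e2 : x - ε / 2 + ε / 2 = x := by ring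
  rwa [e1, e2] at this

theorem cl_mem_Om_right (hcl : ∀ x ε : ℂ, (x, ε) ∈ WW 0 r e → ‖θ x ε - x‖ ≤ dl) {s t : ℝ}
    (hs : r + dl ≤ s) (ht : e + 2 * dl ≤ t)
    {x ε : ℂ} (h : (x, ε) ∈ WW 1 r e) : (θ x ε, θ (x + ε) ε) ∈ Om s t := by
  have h1 : (x, ε) ∈ WW (1 / 2 + 1 / 2) r e := by
    have : (1 / 2 + 1 / 2 : ℝ) = 1 := by norm_num
    rw [this]; exact h
  have := cl_mem_Om hcl hs ht (WW_add_half h1)
  have e1 : x + ε / 2 - ε / 2 = x := by ring
  have e2 : x + ε / 2 + ε / 2 = x + ε := by ring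
  rwa [e1, e2] at this

/-- consecutive points of an approximate family -/
theorem Apx.mem_Om (hA : Apx b θ r e dl E) {s t : ℝ} (hs : r + dl ≤ s) (ht : e + 2 * dl ≤ t)
    {m ε : ℂ} (h : (m, ε) ∈ WW (1 / 2) r e) :
    (θ (m - ε / 2) ε, θ (m + ε / 2) ε) ∈ Om s t := cl_mem_Om hA.cl hs ht h

theorem Apx.mem_Om_left (hA : Apx b θ r e dl E) {s t : ℝ} (hs : r + dl ≤ s) (ht : e + 2 * dl ≤ t)
    {x ε : ℂ} (h : (x, ε) ∈ WW 1 r e) : (θ (x - ε) ε, θ x ε) ∈ Om s t :=
  cl_mem_Om_left hA.cl hs ht h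

theorem Apx.mem_Om_right (hA : Apx b θ r e dl E) {s t : ℝ} (hs : r + dl ≤ s) (ht : e + 2 * dl ≤ t)
    {x ε : ℂ} (h : (x, ε) ∈ WW 1 r e) : (θ x ε, θ (x + ε) ε) ∈ Om s t :=
  cl_mem_Om_right hA.cl hs ht h

/-- the action density is jointly holomorphic -/
theorem Apx.JD_ff (hG : Gen ρ M b) (hA : Apx b θ r e dl E) (hs : r + dl ≤ ρ)
    (ht : e + 2 * dl ≤ ρ) : JD (ff b θ) (WW (1 / 2) r e) := by
  have h1 : JD (fun m ε => θ (m - ε / 2) ε) (WW (1 / 2) r e) := by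
    have := hA.hol.sub_half
    simpa using this
  have h2 : JD (fun m ε => θ (m + ε / 2) ε) (WW (1 / 2) r e) := by
    have := hA.hol.add_half
    simpa using this
  have h3 : JD (fun m ε => Fg b (θ (m - ε / 2) ε) (θ (m + ε / 2) ε)) (WW (1 / 2) r e) :=
    JD.comp (F := Fg b) (JD_Fg hG) h1 h2 fun m ε h => hA.mem_Om hs ht h
  exact h3

theorem Apx.Per_ff (hG : Gen ρ M b) (hA : Apx b θ r e dl E) (hs : r + dl ≤ ρ)
    (ht : e + 2 * dl ≤ ρ) : Per (ff b θ) (WW (1 / 2) r e) := by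
  intro m ε h
  have h0 : (m, ε) ∈ WW (0 + 1 / 2) r e := by simpa using h
  have hO := hA.mem_Om hs ht h
  rw [TA.H477.mem_Om] at hO
  unfold ff Fg
  rw [show m + 1 - ε / 2 = m - ε / 2 + 1 by ring, show m + 1 + ε / 2 = m + ε / 2 + 1 by ring,
    hA.per _ _ (WW_sub_half h0), hA.per _ _ (WW_add_half h0)]
  have e1 : (θ (m - ε / 2) ε + 1 + (θ (m + ε / 2) ε + 1)) / 2 =
      (θ (m - ε / 2) ε + θ (m + ε / 2) ε) / 2 + 1 := by ring
  have e2 : θ (m + ε / 2) ε + 1 - (θ (m - ε / 2) ε + 1) = θ (m + ε / 2) ε - θ (m - ε / 2) ε := by ring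
  rw [e1, e2, hG.per _ _ hO.1 hO.2]

theorem Apx.ff_zero (b θ : ℂ → ℂ → ℂ) (x : ℂ) : ff b θ x 0 = 0 := by
  unfold ff Fg; simp

theorem Apx.ff_neg (hG : Gen ρ M b) (hA : Apx b θ r e dl E) (hs : r + dl ≤ ρ)
    (ht : e + 2 * dl ≤ ρ) {x ε : ℂ} (h : (x, ε) ∈ WW (1 / 2) r e) :
    ff b θ x (-ε) = -ff b θ x ε := by
  have h0 : (x, ε) ∈ WW (0 + 1 / 2) r e := by simpa using h
  have hO := hA.mem_Om hs ht h
  have e1 : ff b θ x (-ε) = Fg b (θ (x + ε / 2) (-ε)) (θ (x - ε / 2) (-ε)) := by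
    unfold ff
    rw [show x - -ε / 2 = x + ε / 2 by ring, show x + -ε / 2 = x - ε / 2 by ring]
  rw [e1, hA.ev _ _ (WW_add_half h0), hA.ev _ _ (WW_sub_half h0), Fg_anti hG hO]
  rfl

theorem Apx.ff_conj (hG : Gen ρ M b) (hA : Apx b θ r e dl E) (hs : r + dl ≤ ρ)
    (ht : e + 2 * dl ≤ ρ) {x ε : ℂ} (h : (x, ε) ∈ WW (1 / 2) r e) :
    ff b θ (conj x) (conj ε) = conj (ff b θ x ε) := by
  have h0 : (x, ε) ∈ WW (0 + 1 / 2) r e := by simpa using h
  have hO := hA.mem_Om hs ht h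
  rw [TA.H477.mem_Om] at hO
  have e1 : ff b θ (conj x) (conj ε) =
      Fg b (conj (θ (x - ε / 2) ε)) (conj (θ (x + ε / 2) ε)) := by
    unfold ff
    rw [← hA.re _ _ (WW_sub_half h0), ← hA.re _ _ (WW_add_half h0)]
    simp only [map_sub, map_add, map_div₀, Complex.conj_ofNat]
  rw [e1]
  unfold ff Fg
  have e2 : (conj (θ (x - ε / 2) ε) + conj (θ (x + ε / 2) ε)) / 2 =
      conj ((θ (x - ε / 2) ε + θ (x + ε / 2) ε) / 2) := by
    simp only [map_add, map_div₀, Complex.conj_ofNat]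
  have e3 : conj (θ (x + ε / 2) ε) - conj (θ (x - ε / 2) ε) =
      conj (θ (x + ε / 2) ε - θ (x - ε / 2) ε) := by simp only [map_sub]
  rw [e2, e3, hG.real _ _ hO.1 hO.2]
  simp only [map_add, map_mul, map_div₀, map_pow, Complex.conj_ofNat]

theorem Apx.Bd_ff (hG : Gen ρ M b) (hA : Apx b θ r e dl E) (hs : r + dl ≤ ρ)
    (ht : e + 2 * dl ≤ ρ) : Bd (ff b θ) (2 * M) (WW (1 / 2) r e) := by
  intro m ε h
  have hO := hA.mem_Om hs ht h
  rw [TA.H477.mem_Om] at hO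
  have hM := hG.hM
  have h1 : ‖θ (m + ε / 2) ε - θ (m - ε / 2) ε‖ ≤ 1 := (hO.2.le).trans hG.hρ1
  unfold ff Fg
  refine (norm_add_le _ _).trans ?_
  rw [norm_div, norm_pow, norm_mul, norm_pow, Complex.norm_ofNat]
  have h2 := hG.bd _ _ hO.1 hO.2
  have h3 : ‖θ (m + ε / 2) ε - θ (m - ε / 2) ε‖ ^ 3 ≤ 1 := pow_le_one₀ (norm_nonneg _) h1
  have h5 : ‖θ (m + ε / 2) ε - θ (m - ε / 2) ε‖ ^ 5 ≤ 1 := pow_le_one₀ (norm_nonneg _) h1
  have h6 : ‖θ (m + ε / 2) ε - θ (m - ε / 2) ε‖ ^ 5 *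
      ‖b ((θ (m - ε / 2) ε + θ (m + ε / 2) ε) / 2) (θ (m + ε / 2) ε - θ (m - ε / 2) ε)‖ ≤ 1 * M :=
    mul_le_mul h5 h2 (norm_nonneg _) zero_le_one
  linarith

/-- restriction of the domain, larger constants -/
theorem Apx.mono (hA : Apx b θ r e dl E) {r' e' dl' E' : ℝ} (hr : r' ≤ r) (he : e' ≤ e)
    (hd : dl ≤ dl') (hE : E ≤ E') : Apx b θ r' e' dl' E' := by
  have hs : WW 0 r' e' ⊆ WW 0 r e := WW_mono le_rfl hr he
  have hs1 : WW 1 r' e' ⊆ WW 1 r e := WW_mono le_rfl hr he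
  exact ⟨hA.hol.mono hs, fun x ε h => hA.per x ε (hs h), fun x ε h => hA.ev x ε (hs h),
    fun x ε h => hA.re x ε (hs h), fun x ε h => (hA.cl x ε (hs h)).trans hd,
    fun x ε h => (hA.dx1 x ε (hs h)).trans hd, fun x ε h => (hA.de0 x ε (hs h)).trans hd,
    hA.er.mono hE hs1⟩

/-! ## the starting point `θ = x` -/

theorem de_Bg_formula (hG : Gen ρ M b) {x y : ℂ} (h : (x, y) ∈ Om ρ ρ) :
    de (Bg b) x y = 5 * (y - x) ^ 4 * b ((x + y) / 2) (y - x) +
      (y - x) ^ 5 * (dx b ((x + y) / 2) (y - x) / 2 + de b ((x + y) / 2) (y - x)) := by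
  have hO : IsOpen {p : ℂ × ℂ | |p.1.im| < ρ ∧ ‖p.2‖ < ρ} := by
    apply IsOpen.inter
    · exact isOpen_lt ((Complex.continuous_im.comp continuous_fst).abs) continuous_const
    · exact isOpen_lt (continuous_norm.comp continuous_snd) continuous_const
  rw [TA.H477.mem_Om] at h
  have h1 : HasDerivAt (fun t => b ((x + t) / 2) (t - x))
      (dx b ((x + y) / 2) (y - x) * (1 / 2) + de b ((x + y) / 2) (y - x) * 1) y :=
    hG.hol.hasDerivAt_comp hO (u := fun t => (x + t) / 2) (v := fun t => t - x)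
      (((hasDerivAt_id y).const_add x).div_const 2) ((hasDerivAt_id y).sub_const x) h
  have h2 : HasDerivAt (fun t : ℂ => (t - x) ^ 5) (5 * (y - x) ^ 4) y := by
    have := ((hasDerivAt_id y).sub_const x).fun_pow 5
    refine this.congr_deriv ?_
    simp only [id]; push_cast; ring
  have h3 := (h2.mul h1).deriv
  have h4 : de (Bg b) x y = deriv (fun t => (t - x) ^ 5 * b ((x + t) / 2) (t - x)) y := rfl
  rw [h4]
  exact h3.trans (by ring)

theorem dx_Bg_eq (hG : Gen ρ M b) {x y : ℂ} (h : (x, y) ∈ Om ρ ρ) :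
    dx (Bg b) x y = -de (Bg b) y x := by
  have h1 : (fun t => Bg b t y) =ᶠ[𝓝 x] fun t => -Bg b y t := by
    filter_upwards [ev_x h] with t ht
    have := Bg_anti hG ht
    rw [this]; ring
  have h2 := h1.deriv_eq
  have h3 : dx (Bg b) x y = deriv (fun t => Bg b t y) x := rfl
  have h4 : de (Bg b) y x = deriv (fun t => Bg b y t) x := rfl
  rw [h3, h4, h2, deriv.fun_neg]

/-- the starting point of the iteration -/
theorem apx_start (hG : Gen ρ M b) {r e : ℝ} (hr : r ≤ ρ / 4) (he : 0 < e) (he1 : e ≤ ρ / 4) :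
    Apx b (fun x _ => x) r e 0 (24 * M / ρ * e ^ 5) := by
  have hρ := hG.hρ
  have hM := hG.hM
  refine ⟨JD.fst, fun _ _ _ => rfl, fun _ _ _ => rfl, fun _ _ _ => rfl, fun _ _ _ => by simp,
    fun x ε _ => ?_, fun x ε _ => ?_, ?_⟩
  · have : dx (fun x _ => x) x ε = 1 := by unfold dx; exact (hasDerivAt_id x).deriv
    rw [this]; simp
  · have : de (fun x _ => x) x ε = 0 := by unfold de; exact (hasDerivAt_const ε x).deriv
    rw [this]; simp
  · intro x ε hx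
    have hε : ‖ε‖ < e := hx.1
    have hI : |x.im| + 1 * |ε.im| < r := hx.2
    have hεi := Complex.abs_im_le_norm ε
    have hO : IsOpen {p : ℂ × ℂ | |p.1.im| < ρ ∧ ‖p.2‖ < ρ} := by
      apply IsOpen.inter
      · exact isOpen_lt ((Complex.continuous_im.comp continuous_fst).abs) continuous_const
      · exact isOpen_lt (continuous_norm.comp continuous_snd) continuous_const
    -- derivative bounds for b
    have hbx : ∀ m d : ℂ, |m.im| < ρ / 2 → ‖d‖ < ρ → ‖dx b m d‖ ≤ M / (ρ / 2) := by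
      intro m d hm hd
      have hsub : ∀ z ∈ closedBall m (ρ / 2), (z, d) ∈ {p : ℂ × ℂ | |p.1.im| < ρ ∧ ‖p.2‖ < ρ} := by
        intro z hz
        have h1 : ‖z - m‖ ≤ ρ / 2 := by rwa [mem_closedBall, dist_eq_norm] at hz
        refine ⟨?_, hd⟩
        have h2 := Complex.abs_im_le_norm (z - m)
        rw [Complex.sub_im] at h2
        have h3 := abs_sub_abs_le_abs_sub z.im m.im
        show |z.im| < ρ
        linarith
      refine Complex.norm_deriv_le_of_forall_mem_sphere_norm_le (by linarith) ?_ ?_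
      · exact (hG.hol.differentiableOn_x (U := closedBall m (ρ / 2)) hsub).diffContOnCl_ball
          (le_refl _)
      · intro z hz
        have := hsub z (sphere_subset_closedBall hz)
        exact hG.bd _ _ this.1 this.2
    have hbd : ∀ m d : ℂ, |m.im| < ρ → ‖d‖ < ρ / 2 → ‖de b m d‖ ≤ M / (ρ / 2) := by
      intro m d hm hd
      have hsub : ∀ z ∈ closedBall d (ρ / 2), (m, z) ∈ {p : ℂ × ℂ | |p.1.im| < ρ ∧ ‖p.2‖ < ρ} := by
        intro z hz
        have h1 : ‖z - d‖ ≤ ρ / 2 := by rwa [mem_closedBall, dist_eq_norm] at hz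
        refine ⟨hm, ?_⟩
        have := norm_sub_norm_le z d
        show ‖z‖ < ρ
        linarith
      refine Complex.norm_deriv_le_of_forall_mem_sphere_norm_le (by linarith) ?_ ?_
      · exact (hG.hol.differentiableOn_e (U := closedBall d (ρ / 2)) hsub).diffContOnCl_ball
          (le_refl _)
      · intro z hz
        have := hsub z (sphere_subset_closedBall hz)
        exact hG.bd _ _ this.1 this.2
    have hmp : |(x + ε / 2).im| < ρ / 2 := by
      have e1 : (x + ε / 2).im = x.im + ε.im / 2 := by simp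
      rw [e1]
      have := abs_add_le x.im (ε.im / 2)
      rw [abs_div, abs_two] at this
      have := abs_nonneg ε.im
      linarith
    have hmm : |(x - ε / 2).im| < ρ / 2 := by
      have e1 : (x - ε / 2).im = x.im - ε.im / 2 := by simp
      rw [e1]
      have := abs_sub x.im (ε.im / 2)
      rw [abs_div, abs_two] at this
      have := abs_nonneg ε.im
      linarith
    have hεn : ‖-ε‖ < ρ / 2 := by rw [norm_neg]; linarith
    have hεp : ‖ε‖ < ρ / 2 := by linarith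
    have hOm1 : (x - ε, x) ∈ Om ρ ρ := by
      rw [TA.H477.mem_Om]
      rw [show (x - ε + x) / 2 = x - ε / 2 by ring, show x - (x - ε) = ε by ring]
      exact ⟨by linarith, by linarith⟩
    have hOm2 : (x, x + ε) ∈ Om ρ ρ := by
      rw [TA.H477.mem_Om]
      rw [show (x + (x + ε)) / 2 = x + ε / 2 by ring, show x + ε - x = ε by ring]
      exact ⟨by linarith, by linarith⟩
    have hOm3 : (x + ε, x) ∈ Om ρ ρ := Om_swap hOm2
    have key : Er b (fun x _ => x) x ε =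
        5 * ε ^ 4 * (b (x - ε / 2) ε - b (x + ε / 2) ε) +
        ε ^ 5 * ((dx b (x - ε / 2) ε / 2 + de b (x - ε / 2) ε) +
          (dx b (x + ε / 2) (-ε) / 2 + de b (x + ε / 2) (-ε))) := by
      have h1 : Er b (fun x _ => x) x ε = de (Fg b) (x - ε) x + dx (Fg b) x (x + ε) := rfl
      rw [h1, de_Fg hG hOm1, dx_Fg hG hOm2, dx_Bg_eq hG hOm2, de_Bg_formula hG hOm1,
        de_Bg_formula hG hOm3]
      have hev : b (x + ε / 2) (-ε) = b (x + ε / 2) ε :=
        hG.even _ _ (by linarith) (by linarith)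
      rw [show (x - ε + x) / 2 = x - ε / 2 by ring, show x - (x - ε) = ε by ring,
        show (x + ε + x) / 2 = x + ε / 2 by ring, show x - (x + ε) = -ε by ring,
        show x + ε - x = ε by ring, hev]
      ring
    rw [key]
    have hseg : ‖b (x - ε / 2) ε - b (x + ε / 2) ε‖ ≤ M / (ρ / 2) * ‖ε‖ := by
      have hconv : Convex ℝ {z : ℂ | |z.im| < ρ / 2} := by
        intro z hz w hw s t hs ht hst
        have := convex_WW (a := 0) (r := ρ / 2) (e := 1) le_rfl (x := (z, (0 : ℂ))) (y := (w, 0))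
          (by simpa [WW] using hz) (by simpa [WW] using hw) hs ht hst
        simpa [WW] using this
      have hO2 : IsOpen {z : ℂ | |z.im| < ρ / 2} :=
        isOpen_lt (Complex.continuous_im.abs) continuous_const
      have := hconv.norm_image_sub_le_of_norm_hasDerivWithin_le (𝕜 := ℂ)
        (f := fun z => b z ε) (f' := fun z => dx b z ε) (C := M / (ρ / 2))
        (fun z hz => ((hG.hol.hasDerivAt_x hO (x := z) (ε := ε)
          ⟨lt_of_lt_of_le hz (by linarith), by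
            show ‖ε‖ < ρ
            linarith⟩)).hasDerivWithinAt)
        (fun z hz => hbx z ε hz (by linarith)) hmp hmm
      refine this.trans (le_of_eq ?_)
      have e1 : x - ε / 2 - (x + ε / 2) = -ε := by ring
      rw [e1, norm_neg]
    have hA := hbx _ _ hmm (show ‖ε‖ < ρ by linarith)
    have hB := hbx _ _ hmp (show ‖-ε‖ < ρ by linarith)
    have hC := hbd _ _ (show |(x - ε / 2).im| < ρ by linarith) hεp
    have hD := hbd _ _ (show |(x + ε / 2).im| < ρ by linarith) hεn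
    have hMρ : M / (ρ / 2) = 2 * M / ρ := by field_simp
    rw [hMρ] at hA hB hC hD hseg
    set Q := 2 * M / ρ with hQ
    have hQ0 : 0 ≤ Q := by positivity
    have t1 : ‖5 * ε ^ 4 * (b (x - ε / 2) ε - b (x + ε / 2) ε)‖ ≤ 5 * Q * ‖ε‖ ^ 5 := by
      rw [norm_mul, norm_mul, norm_pow, Complex.norm_ofNat]
      calc 5 * ‖ε‖ ^ 4 * ‖b (x - ε / 2) ε - b (x + ε / 2) ε‖ ≤ 5 * ‖ε‖ ^ 4 * (Q * ‖ε‖) := by gcongr
        _ = 5 * Q * ‖ε‖ ^ 5 := by ring
    have t2 : ‖ε ^ 5 * ((dx b (x - ε / 2) ε / 2 + de b (x - ε / 2) ε) +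
          (dx b (x + ε / 2) (-ε) / 2 + de b (x + ε / 2) (-ε)))‖ ≤ 3 * Q * ‖ε‖ ^ 5 := by
      rw [norm_mul, norm_pow]
      have s1 : ‖dx b (x - ε / 2) ε / 2 + de b (x - ε / 2) ε‖ ≤ Q / 2 + Q := by
        refine (norm_add_le _ _).trans ?_
        rw [norm_div, Complex.norm_ofNat]
        linarith
      have s2 : ‖dx b (x + ε / 2) (-ε) / 2 + de b (x + ε / 2) (-ε)‖ ≤ Q / 2 + Q := by
        refine (norm_add_le _ _).trans ?_
        rw [norm_div, Complex.norm_ofNat]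
        linarith
      calc ‖ε‖ ^ 5 * ‖(dx b (x - ε / 2) ε / 2 + de b (x - ε / 2) ε) +
            (dx b (x + ε / 2) (-ε) / 2 + de b (x + ε / 2) (-ε))‖
          ≤ ‖ε‖ ^ 5 * (3 * Q) := by
            gcongr
            refine (norm_add_le _ _).trans ?_
            linarith
        _ = 3 * Q * ‖ε‖ ^ 5 := by ring
    have t3 : ‖ε‖ ^ 5 ≤ e ^ 5 := by gcongr
    calc _ ≤ 5 * Q * ‖ε‖ ^ 5 + 3 * Q * ‖ε‖ ^ 5 := (norm_add_le _ _).trans (add_le_add t1 t2)
      _ = 8 * Q * ‖ε‖ ^ 5 := by ring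
      _ ≤ 8 * Q * e ^ 5 := by gcongr
      _ ≤ 24 * M / ρ * e ^ 5 := by
        have : 8 * Q * e ^ 5 = 16 * M / ρ * e ^ 5 := by rw [hQ]; ring
        rw [this]
        gcongr
        norm_num

end Vale.Agent.P097.TA
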