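import Vale.Agent.P097.H707.OneStep

/-! # P097 / Theorem A / A6, part 3: the iteration and its limit -/

set_option linter.all false

open scoped ComplexConjugate Topology
open Filter Metric

namespace Vale.Agent.P097.TA

open Vale.Agent.P097.TA.H477

/-- the sequence of approximate families -/
theorem iterate {b θ₀ : ℂ → ℂ → ℂ} {d0 : ℝ} {rs es Es δs : ℕ → ℝ}
    (hst : Apx b θ₀ (rs 0) (es 0) 0 (Es 0))
    (hstep : ∀ j, OneStep b d0 (rs j) (es j) (rs (j + 1)) (es (j + 1)) (Es j) (Es (j + 1)) (δs j))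
    (hδ0 : ∀ j, 0 ≤ δs j) (hle : ∀ j, ∑ i ∈ Finset.range j, δs i ≤ d0) :
    ∃ θ : ℕ → ℂ → ℂ → ℂ,
      (∀ j, Apx b (θ j) (rs j) (es j) d0 (Es j)) ∧
      ∀ j, Bd (fun x ε => θ (j + 1) x ε - θ j x ε) (δs j) (WW 0 (rs (j + 1)) (es (j + 1))) := by
  classical
  let X : ℕ → Type := fun j =>
    {θ : ℂ → ℂ → ℂ // Apx b θ (rs j) (es j) (∑ i ∈ Finset.range j, δs i) (Es j)}
  have hnn : ∀ j, 0 ≤ ∑ i ∈ Finset.range j, δs i := fun j => Finset.sum_nonneg fun i _ => hδ0 i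
  have hex : ∀ (j : ℕ) (x : X j), ∃ y : X (j + 1),
      Bd (fun x' ε => y.1 x' ε - x.1 x' ε) (δs j) (WW 0 (rs (j + 1)) (es (j + 1))) := by
    intro j x
    obtain ⟨θ', h1, h2⟩ := hstep j x.1 _ (hnn j) (hle j) x.2
    refine ⟨⟨θ', ?_⟩, h2⟩
    rw [Finset.sum_range_succ]
    exact h1
  choose nxt hn using hex
  let x0 : X 0 := ⟨θ₀, by simpa using hst⟩
  let seq : (j : ℕ) → X j := fun j => Nat.rec x0 (fun j x => nxt j x) j
  refine ⟨fun j => (seq j).1, fun j => (seq j).2.mono le_rfl le_rfl (hle j) le_rfl, fun j => ?_⟩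
  exact hn j (seq j)

theorem tendsto_two {ι : Type} {l : Filter ι} {F : ℂ → ℂ → ℂ} {u v : ι → ℂ} {a c : ℂ}
    (h : ContinuousAt (fun p : ℂ × ℂ => F p.1 p.2) (a, c)) (hu : Tendsto u l (𝓝 a))
    (hv : Tendsto v l (𝓝 c)) : Tendsto (fun j => F (u j) (v j)) l (𝓝 (F a c)) := by
  have h1 : Tendsto (fun j => (u j, v j)) l (𝓝 (a, c)) := hu.prodMk_nhds hv
  exact Tendsto.comp h h1

/-- the limit family -/
theorem limit_family {ρ M : ℝ} {b : ℂ → ℂ → ℂ} (hG : Gen ρ M b) {d0 r e : ℝ} {rs es Es δs : ℕ → ℝ}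
    {θ : ℕ → ℂ → ℂ → ℂ}
    (hA : ∀ j, Apx b (θ j) (rs j) (es j) d0 (Es j))
    (hd : ∀ j, Bd (fun x ε => θ (j + 1) x ε - θ j x ε) (δs j) (WW 0 (rs (j + 1)) (es (j + 1))))
    (hr : ∀ j, r ≤ rs j) (he : ∀ j, e ≤ es j) (hs : r + d0 ≤ ρ) (ht : e + 2 * d0 ≤ ρ)
    (hsum : Summable δs) (hE : Tendsto Es atTop (𝓝 0)) :
    ∃ g : ℂ → ℂ → ℂ, JD g (WW 0 r e) ∧
      (∀ x ε : ℂ, (x, ε) ∈ WW 0 r e → g (x + 1) ε = g x ε + 1) ∧
      (∀ x ε : ℂ, (x, ε) ∈ WW 0 r e → g x (-ε) = g x ε) ∧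
      (∀ x ε : ℂ, (x, ε) ∈ WW 0 r e → g (conj x) (conj ε) = conj (g x ε)) ∧
      (∀ x ε : ℂ, (x, ε) ∈ WW 0 r e → ‖g x ε - x‖ ≤ d0) ∧
      ∀ x ε : ℂ, (x, ε) ∈ WW 1 r e → Er b g x ε = 0 := by
  have hsub : ∀ j, WW 0 r e ⊆ WW 0 (rs j) (es j) := fun j => WW_mono le_rfl (hr j) (he j)
  have hsub1 : ∀ j, WW 1 r e ⊆ WW 1 (rs j) (es j) := fun j => WW_mono le_rfl (hr j) (he j)
  obtain ⟨g, hg, hlim, -⟩ := exists_limit (isOpen_WW 0 r e) (fun j => (hA j).hol.mono (hsub j))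
    hsum (fun j => (hd j).mono le_rfl (hsub (j + 1)))
  have hcl : ∀ x ε : ℂ, (x, ε) ∈ WW 0 r e → ‖g x ε - x‖ ≤ d0 := by
    intro x ε h
    have h1 : Tendsto (fun j => ‖θ j x ε - x‖) atTop (𝓝 ‖g x ε - x‖) :=
      ((hlim x ε h).sub_const x).norm
    exact le_of_tendsto' h1 fun j => (hA j).cl x ε (hsub j h)
  refine ⟨g, hg, ?_, ?_, ?_, hcl, ?_⟩
  · intro x ε h
    have h1 := hlim _ _ (WW_one h)
    have h2 := (hlim _ _ h).add_const 1
    refine tendsto_nhds_unique h1 (h2.congr fun j => ?_)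
    exact ((hA j).per x ε (hsub j h)).symm
  · intro x ε h
    have h1 := hlim _ _ (WW_neg h)
    have h2 := hlim _ _ h
    refine tendsto_nhds_unique h1 (h2.congr fun j => ?_)
    exact ((hA j).ev x ε (hsub j h)).symm
  · intro x ε h
    have h1 := hlim _ _ (WW_conj h)
    have h2 := (Complex.continuous_conj.tendsto _).comp (hlim _ _ h)
    refine tendsto_nhds_unique h1 (h2.congr fun j => ?_)
    exact ((hA j).re x ε (hsub j h)).symm
  · intro x ε h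
    have hx : (x, ε) ∈ WW (0 + 1) r e := by simpa using h
    have hx0 : (x, ε) ∈ WW 0 r e := WW_mono (by norm_num) le_rfl le_rfl h
    have hl := cl_mem_Om_left hcl hs ht h
    have hrt := cl_mem_Om_right hcl hs ht h
    have hO := isOpen_Om ρ ρ
    have hF := JD_Fg hG
    have c1 : ContinuousAt (fun p : ℂ × ℂ => de (Fg b) p.1 p.2) (g (x - ε) ε, g x ε) :=
      (hF.de hO).continuousOn.continuousAt (hO.mem_nhds hl)
    have c2 : ContinuousAt (fun p : ℂ × ℂ => dx (Fg b) p.1 p.2) (g x ε, g (x + ε) ε) :=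
      (hF.dx hO).continuousOn.continuousAt (hO.mem_nhds hrt)
    have l31 : Tendsto (fun j => de (Fg b) (θ j (x - ε) ε) (θ j x ε)) atTop
        (𝓝 (de (Fg b) (g (x - ε) ε) (g x ε))) :=
      tendsto_two (F := de (Fg b)) c1 (hlim _ _ (WW_sub hx)) (hlim _ _ hx0)
    have l32 : Tendsto (fun j => dx (Fg b) (θ j x ε) (θ j (x + ε) ε)) atTop
        (𝓝 (dx (Fg b) (g x ε) (g (x + ε) ε))) :=
      tendsto_two (F := dx (Fg b)) c2 (hlim _ _ hx0) (hlim _ _ (WW_add hx))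
    have l3 : Tendsto (fun j => Er b (θ j) x ε) atTop (𝓝 (Er b g x ε)) := l31.add l32
    have l4 : ‖Er b g x ε‖ ≤ 0 := by
      refine le_of_tendsto_of_tendsto' l3.norm hE fun j => ?_
      exact (hA j).er x ε (hsub1 j h)
    exact norm_le_zero_iff.1 l4

end Vale.Agent.P097.TA
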