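import Vale.Agent.P097.H707.Iter

/-! # P097 / Theorem A / A6, part 4: normalisation of the exact family at the boundary -/

set_option linter.all false

open scoped ComplexConjugate Topology
open Filter Metric

namespace Vale.Agent.P097.TA

open Vale.Agent.P097.TA.H477

section

variable {ρ M : ℝ} {b g : ℂ → ℂ → ℂ} {r e d : ℝ}

/-- first and second difference quotients in the direction `(ε, 0)` -/
theorem exists_quotients (hg : JD g (WW 0 r e)) (hr : 0 < r) (he : 0 < e) :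
    ∃ T1 T3 : ℂ → ℂ → ℂ, JD T1 (WW 1 r e) ∧ JD T3 (WW 2 r e) ∧
      (∀ x ε, (x, ε) ∈ WW 1 r e → g (x + ε) ε - g x ε = ε * T1 x ε) ∧
      (∀ x ε, (x, ε) ∈ WW 2 r e → T1 x ε - T1 (x - ε) ε = ε * T3 x ε) ∧
      (∀ x : ℂ, |x.im| < r → T1 x 0 = dx g x 0) ∧
      (∀ x : ℂ, |x.im| < r → T3 x 0 = dx (dx g) x 0) := by
  have m0 : ∀ {a : ℝ} {x : ℂ}, |x.im| < r → (x, (0 : ℂ)) ∈ WW a r e := by
    intro a x hx
    refine ⟨by simpa using he, by simpa using hx⟩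
  have hT : JD (fun x ε => g (x + ε) ε - g x ε) (WW 1 r e) := by
    have h1 := hg.shift 1
    simp only [Complex.ofReal_one, one_mul, abs_one, zero_add] at h1
    exact h1.sub (hg.mono (WW_mono (by norm_num) le_rfl le_rfl))
  obtain ⟨T1, hT1, hT1e, hT10, -⟩ := exists_div_e hT (fun x hx => by simp)
  have hT1x : ∀ x : ℂ, |x.im| < r → T1 x 0 = dx g x 0 := by
    intro x hx
    rw [hT10 x]
    have h1 := hg.hasDerivAt_comp (isOpen_WW 0 r e) (u := fun t => x + t) (v := fun t => t)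
      (t := 0) ((hasDerivAt_id 0).const_add x) (hasDerivAt_id 0) (by simpa using m0 hx)
    have h2 := hg.hasDerivAt_e (isOpen_WW 0 r e) (m0 (a := 0) hx)
    have h3 := (h1.sub h2).deriv
    have h4 : de (fun x ε => g (x + ε) ε - g x ε) x 0 =
        deriv ((fun t => g (x + t) t) - fun t => g x t) 0 := rfl
    rw [h4, h3]
    simp
  have hU : JD (fun x ε => T1 x ε - T1 (x - ε) ε) (WW 2 r e) := by
    have h1 := hT1.shift (-1)
    have h3 : (1 : ℝ) + |(-1 : ℝ)| = 2 := by norm_num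
    rw [h3] at h1
    have h2 : JD (fun x ε => T1 (x - ε) ε) (WW 2 r e) := by
      refine h1.congr fun x ε _ => ?_
      congr 1
      push_cast; ring
    exact (hT1.mono (WW_mono (by norm_num) le_rfl le_rfl)).sub h2
  obtain ⟨T3, hT3, hT3e, hT30, -⟩ := exists_div_e hU (fun x hx => by simp)
  refine ⟨T1, T3, hT1, hT3, hT1e, hT3e, hT1x, fun x hx => ?_⟩
  rw [hT30 x]
  have h1 := hT1.hasDerivAt_comp (isOpen_WW 1 r e) (u := fun t => x - t) (v := fun t => t)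
    (t := 0) ((hasDerivAt_id 0).const_sub x) (hasDerivAt_id 0) (by simpa using m0 hx)
  have h2 := hT1.hasDerivAt_e (isOpen_WW 1 r e) (m0 (a := 1) hx)
  have h3 := (h2.sub h1).deriv
  have h4 : de (fun x ε => T1 x ε - T1 (x - ε) ε) x 0 =
      deriv ((fun t => T1 x t) - fun t => T1 (x - t) t) 0 := rfl
  rw [h4, h3]
  have h5 : dx T1 x 0 = dx (dx g) x 0 := by
    have hev : (fun t => T1 t 0) =ᶠ[𝓝 x] fun t => dx g t 0 := by
      have hO : IsOpen {z : ℂ | |z.im| < r} :=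
        isOpen_lt (Complex.continuous_im.abs) continuous_const
      filter_upwards [hO.mem_nhds hx] with t ht using hT1x t ht
    exact hev.deriv_eq
  rw [← h5]
  simp

/-- the boundary value has vanishing second derivative -/
theorem dxx_zero (hG : Gen ρ M b) (hg : JD g (WW 0 r e)) (hr : 0 < r) (he : 0 < e)
    (hcl : ∀ x ε : ℂ, (x, ε) ∈ WW 0 r e → ‖g x ε - x‖ ≤ d)
    (hs : r + d < ρ) (ht : e + 2 * d ≤ ρ)
    (her : ∀ x ε : ℂ, (x, ε) ∈ WW 1 r e → Er b g x ε = 0)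
    {x : ℂ} (hx : |x.im| < r) (h1 : ‖dx g x 0 - 1‖ ≤ 1 / 2) : dx (dx g) x 0 = 0 := by
  obtain ⟨T1, T3, hT1, hT3, hT1e, hT3e, hT10, hT30⟩ := exists_quotients hg hr he
  have hρ := hG.hρ
  have hM := hG.hM
  have m0 : ∀ {a : ℝ}, (x, (0 : ℂ)) ∈ WW a r e := by
    intro a
    refine ⟨by simpa using he, by simpa using hx⟩
  have cpair : Tendsto (fun ε : ℂ => (x, ε)) (𝓝[≠] 0) (𝓝 (x, 0)) :=
    ((by fun_prop : Continuous fun ε : ℂ => (x, ε)).tendsto 0).mono_left nhdsWithin_le_nhds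
  have cT1 : ContinuousAt (fun p : ℂ × ℂ => T1 p.1 p.2) (x, 0) :=
    hT1.continuousOn.continuousAt ((isOpen_WW 1 r e).mem_nhds m0)
  have cT3 : ContinuousAt (fun p : ℂ × ℂ => T3 p.1 p.2) (x, 0) :=
    hT3.continuousOn.continuousAt ((isOpen_WW 2 r e).mem_nhds m0)
  have lid : Tendsto (fun ε : ℂ => ε) (𝓝[≠] (0 : ℂ)) (𝓝 0) :=
    (continuous_id.tendsto (0 : ℂ)).mono_left nhdsWithin_le_nhds
  have lsub : Tendsto (fun ε : ℂ => x - ε) (𝓝[≠] (0 : ℂ)) (𝓝 x) := by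
    have := ((by fun_prop : Continuous fun ε : ℂ => x - ε).tendsto 0)
    rw [sub_zero] at this
    exact this.mono_left nhdsWithin_le_nhds
  have l1 : Tendsto (fun ε : ℂ => T1 x ε) (𝓝[≠] 0) (𝓝 (T1 x 0)) :=
    tendsto_two cT1 tendsto_const_nhds lid
  have l2 : Tendsto (fun ε : ℂ => T1 (x - ε) ε) (𝓝[≠] 0) (𝓝 (T1 x 0)) := tendsto_two cT1 lsub lid
  have l3 : Tendsto (fun ε : ℂ => T3 x ε) (𝓝[≠] 0) (𝓝 (T3 x 0)) :=
    tendsto_two cT3 tendsto_const_nhds lid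
  have l4 : Tendsto (fun ε : ℂ => ‖T3 x ε * (T1 x ε + T1 (x - ε) ε)‖) (𝓝[≠] 0)
      (𝓝 ‖T3 x 0 * (T1 x 0 + T1 x 0)‖) := (l3.mul (l1.add l2)).norm
  have hT1n : ‖T1 x 0‖ < 6 := by
    rw [hT10 x hx]
    have e1 : dx g x 0 = (dx g x 0 - 1) + 1 := by ring
    rw [e1]
    refine (norm_add_le _ _).trans_lt ?_
    rw [norm_one]; linarith
  have ev1 : ∀ᶠ ε : ℂ in 𝓝[≠] 0, ‖T1 x ε‖ < 6 := l1.norm.eventually (gt_mem_nhds hT1n)
  have ev2 : ∀ᶠ ε : ℂ in 𝓝[≠] 0, ‖T1 (x - ε) ε‖ < 6 := l2.norm.eventually (gt_mem_nhds hT1n)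
  have ev3 : ∀ᶠ ε : ℂ in 𝓝[≠] 0, (x, ε) ∈ WW 2 r e :=
    cpair.eventually ((isOpen_WW 2 r e).mem_nhds m0)
  have ev4 : ∀ᶠ ε : ℂ in 𝓝[≠] 0, ‖ε‖ < min (ρ / 8) (ρ - (r + d)) := by
    have h2 : Tendsto (fun ε : ℂ => ‖ε‖) (𝓝[≠] 0) (𝓝 ‖(0 : ℂ)‖) :=
      (continuous_norm.tendsto (0 : ℂ)).mono_left nhdsWithin_le_nhds
    rw [norm_zero] at h2
    exact h2.eventually (gt_mem_nhds (lt_min (by linarith) (by linarith)))
  have ev5 : ∀ᶠ ε : ℂ in 𝓝[≠] 0, ε ≠ 0 := eventually_mem_nhdsWithin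
  have hbound : ∀ᶠ ε : ℂ in 𝓝[≠] 0,
      ‖T3 x ε * (T1 x ε + T1 (x - ε) ε)‖ ≤ 4 * (M * 8 ^ 5) * ‖ε‖ := by
    filter_upwards [ev1, ev2, ev3, ev4, ev5] with ε a1 a2 a3 a4 a5
    have hεpos : 0 < ‖ε‖ := norm_pos_iff.2 a5
    have hm1 : (x, ε) ∈ WW 1 r e := WW_mono (by norm_num) le_rfl le_rfl a3
    have a3' : (x, ε) ∈ WW (1 + 1) r e := by
      have : (1 + 1 : ℝ) = 2 := by norm_num
      rw [this]; exact a3
    have hm2 : (x - ε, ε) ∈ WW 1 r e := WW_sub a3'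
    have hv := hT1e (x - ε) ε hm2
    rw [sub_add_cancel] at hv
    have hw := hT1e x ε hm1
    have h3 := hT3e x ε a3
    have a41 := (lt_min_iff.1 a4).1
    have a42 := (lt_min_iff.1 a4).2
    have hOl := cl_mem_Om_left hcl (s := ρ - ‖ε‖) (t := ρ) (by linarith) ht hm1
    have hOr := cl_mem_Om_right hcl (s := ρ - ‖ε‖) (t := ρ) (by linarith) ht hm1
    have hnl : ‖g x ε - g (x - ε) ε‖ < 6 * ‖ε‖ := by
      rw [hv, norm_mul, mul_comm]
      exact mul_lt_mul_of_pos_right a2 hεpos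
    have hnr : ‖g (x + ε) ε - g x ε‖ < 6 * ‖ε‖ := by
      rw [hw, norm_mul, mul_comm]
      exact mul_lt_mul_of_pos_right a1 hεpos
    have hOl' : (g (x - ε) ε, g x ε) ∈ Om (ρ - ‖ε‖) (6 * ‖ε‖) := ⟨hOl.1, hnl⟩
    have hOr' : (g x ε, g (x + ε) ε) ∈ Om (ρ - ‖ε‖) (6 * ‖ε‖) := ⟨hOr.1, hnr⟩
    have b1 := Bd_deB hG hεpos (by linarith) _ _ hOl'
    have b2 := Bd_dxB hG hεpos (by linarith) _ _ hOr'
    have hEr := her x ε hm1
    have hOl2 : (g (x - ε) ε, g x ε) ∈ Om ρ ρ := Om_mono (by linarith) le_rfl hOl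
    have hOr2 : (g x ε, g (x + ε) ε) ∈ Om ρ ρ := Om_mono (by linarith) le_rfl hOr
    have hEr' : de (Fg b) (g (x - ε) ε) (g x ε) + dx (Fg b) (g x ε) (g (x + ε) ε) = 0 := hEr
    rw [de_Fg hG hOl2, dx_Fg hG hOr2, hv, hw] at hEr'
    have key : ε ^ 3 * (T3 x ε * (T1 x ε + T1 (x - ε) ε)) =
        2 * (de (Bg b) (g (x - ε) ε) (g x ε) + dx (Bg b) (g x ε) (g (x + ε) ε)) := by
      have h4 : ε ^ 3 * (T3 x ε * (T1 x ε + T1 (x - ε) ε)) =
          ε ^ 2 * ((ε * T3 x ε) * (T1 x ε + T1 (x - ε) ε)) := by ring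
      rw [h4, ← h3]
      linear_combination -2 * hEr'
    have hn : ‖ε‖ ^ 3 * ‖T3 x ε * (T1 x ε + T1 (x - ε) ε)‖ ≤ ‖ε‖ ^ 3 * (4 * (M * 8 ^ 5) * ‖ε‖) := by
      rw [← norm_pow, ← norm_mul, key, norm_mul, Complex.norm_ofNat]
      have h5 := norm_add_le (de (Bg b) (g (x - ε) ε) (g x ε)) (dx (Bg b) (g x ε) (g (x + ε) ε))
      calc 2 * ‖de (Bg b) (g (x - ε) ε) (g x ε) + dx (Bg b) (g x ε) (g (x + ε) ε)‖
          ≤ 2 * (M * 8 ^ 5 * ‖ε‖ ^ 4 + M * 8 ^ 5 * ‖ε‖ ^ 4) := by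
            gcongr
            exact h5.trans (add_le_add b1 b2)
        _ = ‖ε ^ 3‖ * (4 * (M * 8 ^ 5) * ‖ε‖) := by rw [norm_pow]; ring
    exact le_of_mul_le_mul_left hn (by positivity)
  have l5 : Tendsto (fun ε : ℂ => 4 * (M * 8 ^ 5) * ‖ε‖) (𝓝[≠] 0) (𝓝 0) := by
    have h2 : Tendsto (fun ε : ℂ => ‖ε‖) (𝓝[≠] 0) (𝓝 ‖(0 : ℂ)‖) :=
      (continuous_norm.tendsto (0 : ℂ)).mono_left nhdsWithin_le_nhds
    have := h2.const_mul (4 * (M * 8 ^ 5))
    simpa using this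
  have h0 : ‖T3 x 0 * (T1 x 0 + T1 x 0)‖ ≤ 0 := le_of_tendsto_of_tendsto l4 l5 hbound
  have h2 : T3 x 0 * (T1 x 0 + T1 x 0) = 0 := norm_le_zero_iff.1 h0
  have h3 : T1 x 0 ≠ 0 := by
    intro h
    rw [hT10 x hx] at h
    rw [h] at h1
    norm_num at h1
  rw [← hT30 x hx]
  rcases mul_eq_zero.1 h2 with h | h
  · exact h
  · exfalso; apply h3
    have : (2 : ℂ) * T1 x 0 = 0 := by rw [two_mul]; exact h
    simpa using this

/-- the boundary value is a real translation -/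
theorem boundary_value (hG : Gen ρ M b) (hg : JD g (WW 0 r e)) (hr : 0 < r) (he : 0 < e)
    (hper : ∀ x ε : ℂ, (x, ε) ∈ WW 0 r e → g (x + 1) ε = g x ε + 1)
    (hre : ∀ x ε : ℂ, (x, ε) ∈ WW 0 r e → g (conj x) (conj ε) = conj (g x ε))
    (hcl : ∀ x ε : ℂ, (x, ε) ∈ WW 0 r e → ‖g x ε - x‖ ≤ d)
    (hd : d ≤ r / 4) (hs : r + d < ρ) (ht : e + 2 * d ≤ ρ)
    (her : ∀ x ε : ℂ, (x, ε) ∈ WW 1 r e → Er b g x ε = 0) :
    ∃ c : ℝ, ∀ x : ℂ, |x.im| < r / 2 → g x 0 = x + c := by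
  have hO := isOpen_WW 0 r e
  have m0 : ∀ {x : ℂ}, |x.im| < r → (x, (0 : ℂ)) ∈ WW 0 r e := by
    intro x hx
    refine ⟨by simpa using he, by simpa using hx⟩
  have hD : JD (fun x ε => g x ε - x) (WW 0 r e) := hg.sub JD.fst
  have hDb : Bd (fun x ε => g x ε - x) d (WW 0 r e) := fun x ε h => hcl x ε h
  have hdx := Bd.dx (r' := r / 2) hD hDb (by linarith)
  set U : Set ℂ := {z : ℂ | |z.im| < r / 2} with hU
  have hUo : IsOpen U := isOpen_lt (Complex.continuous_im.abs) continuous_const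
  have hUc : Convex ℝ U := by
    intro z hz w hw s t hs ht hst
    have := convex_WW (a := 0) (r := r / 2) (e := 1) le_rfl (x := (z, (0 : ℂ))) (y := (w, 0))
      (by simpa [WW, hU] using hz) (by simpa [WW, hU] using hw) hs ht hst
    simpa [WW, hU] using this
  have hUm : ∀ {x : ℂ}, x ∈ U → |x.im| < r := fun {x} hx => by
    have h1 : |x.im| < r / 2 := hx
    linarith
  have h1 : ∀ x ∈ U, ‖dx g x 0 - 1‖ ≤ 1 / 2 := by
    intro x hx
    have e1 : dx (fun x ε => g x ε - x) x 0 = dx g x 0 - 1 :=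
      ((hg.hasDerivAt_x hO (m0 (hUm hx))).sub (hasDerivAt_id x)).deriv
    have h2 := hdx x 0 ⟨by simpa using he, by
      show |x.im| + 0 * |(0 : ℂ).im| < r / 2
      have : |x.im| < r / 2 := hx
      simpa using this⟩
    rw [e1] at h2
    refine h2.trans ?_
    rw [div_le_iff₀ (by linarith)]
    linarith
  have h2 : ∀ x ∈ U, dx (dx g) x 0 = 0 := fun x hx =>
    dxx_zero hG hg hr he hcl hs ht her (hUm hx) (h1 x hx)
  have h3 : ∀ x ∈ U, HasDerivAt (fun t => dx g t 0) 0 x := by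
    intro x hx
    have := (hg.dx hO).hasDerivAt_x hO (m0 (hUm hx))
    rw [h2 x hx] at this
    exact this
  have hz0 : (0 : ℂ) ∈ U := by
    show |(0 : ℂ).im| < r / 2
    simp; linarith
  have hconst : ∀ x ∈ U, dx g x 0 = dx g 0 0 := by
    intro x hx
    exact hUo.is_const_of_deriv_eq_zero hUc.isPreconnected
      (fun y hy => (h3 y hy).differentiableAt.differentiableWithinAt)
      (fun y hy => (h3 y hy).deriv) hx hz0
  set κ := dx g 0 0 with hκ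
  have h4 : ∀ x ∈ U, HasDerivAt (fun t => g t 0 - κ * t) 0 x := by
    intro x hx
    have h5 := hg.hasDerivAt_x hO (m0 (hUm hx))
    rw [hconst x hx] at h5
    have h6 := h5.sub ((hasDerivAt_id x).const_mul κ)
    rw [mul_one, sub_self] at h6
    exact h6
  have h5 : ∀ x ∈ U, g x 0 - κ * x = g 0 0 - κ * 0 := by
    intro x hx
    exact hUo.is_const_of_deriv_eq_zero (f := fun t => g t 0 - κ * t) hUc.isPreconnected
      (fun y hy => (h4 y hy).differentiableAt.differentiableWithinAt)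
      (fun y hy => (h4 y hy).deriv) hx hz0
  have h1U : (1 : ℂ) ∈ U := by
    show |(1 : ℂ).im| < r / 2
    simp; linarith
  have hκ1 : κ = 1 := by
    have h6 := h5 1 h1U
    have h7 := hper 0 0 (m0 (by simpa using hr))
    rw [zero_add] at h7
    rw [h7] at h6
    linear_combination -h6
  have hcr : (g 0 0).im = 0 := by
    have h6 := hre 0 0 (m0 (by simpa using hr))
    rw [map_zero] at h6
    exact Complex.conj_eq_iff_im.1 h6.symm
  refine ⟨(g 0 0).re, fun x hx => ?_⟩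
  have h6 := h5 x hx
  rw [hκ1] at h6
  have h7 : ((g 0 0).re : ℂ) = g 0 0 := by
    apply Complex.ext
    · simp
    · simp [hcr]
  rw [h7]
  linear_combination h6

/-- normalisation: from an exact family close to the identity to `Fam` -/
theorem fam_of_exact (hG : Gen ρ M b) (hg : JD g (WW 0 r e)) (hr : 0 < r) (he : 0 < e)
    (hper : ∀ x ε : ℂ, (x, ε) ∈ WW 0 r e → g (x + 1) ε = g x ε + 1)
    (hev : ∀ x ε : ℂ, (x, ε) ∈ WW 0 r e → g x (-ε) = g x ε)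
    (hre : ∀ x ε : ℂ, (x, ε) ∈ WW 0 r e → g (conj x) (conj ε) = conj (g x ε))
    (hcl : ∀ x ε : ℂ, (x, ε) ∈ WW 0 r e → ‖g x ε - x‖ ≤ d)
    (hd : d ≤ r / 4) (hs : r + d < ρ) (ht : e + 2 * d ≤ ρ)
    (her : ∀ x ε : ℂ, (x, ε) ∈ WW 1 r e → Er b g x ε = 0) :
    ∃ (L : ℝ) (θ : ℂ → ℂ → ℂ), Fam b L (r / 2) e θ := by
  obtain ⟨c, hc⟩ := boundary_value hG hg hr he hper hre hcl hd hs ht her
  have hr2 : 0 < r / 2 := by linarith
  have hsh : ∀ {a : ℝ} {x ε : ℂ}, (x, ε) ∈ WW a (r / 2) e → (x - c, ε) ∈ WW a (r / 2) e := by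
    intro a x ε h
    have := WW_real h (-c)
    rwa [Complex.ofReal_neg, ← sub_eq_add_neg] at this
  have hsub : ∀ {a : ℝ}, WW a (r / 2) e ⊆ WW a r e := fun {a} =>
    WW_mono le_rfl (by linarith) le_rfl
  have hJ : JD (fun x ε => g (x - c) ε) (WW 0 (r / 2) e) :=
    JD.comp (F := g) (f := fun x _ => x - c) (g := fun _ ε => ε) hg (JD.fst.sub (JD.const _)) JD.snd
      fun x ε h => hsub (hsh h)
  have hD : JD (fun x ε => g (x - c) ε - x) (WW 0 (r / 2) e) := hJ.sub JD.fst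
  have hDb : Bd (fun x ε => g (x - c) ε - x) (d + |c|) (WW 0 (r / 2) e) := by
    intro x ε h
    show ‖g (x - c) ε - x‖ ≤ d + |c|
    have e1 : g (x - c) ε - x = (g (x - c) ε - (x - c)) - c := by ring
    rw [e1]
    refine (norm_sub_le _ _).trans (add_le_add (hcl _ _ (hsub (hsh h))) ?_)
    rw [Complex.norm_real]; rfl
  have hD0 : ∀ x : ℂ, |x.im| < r / 2 → g (x - c) 0 - x = 0 := by
    intro x hx
    rw [hc (x - c) (by simpa using hx)]; ring
  obtain ⟨g1, hg1, hg1e, hg10, -⟩ := exists_div_e hD hD0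
  have hO := isOpen_WW 0 (r / 2) e
  have hg1z : ∀ x : ℂ, |x.im| < r / 2 → g1 x 0 = 0 := by
    intro x hx
    have hm : (x, (0 : ℂ)) ∈ WW 0 (r / 2) e := ⟨by simpa using he, by simpa using hx⟩
    rw [hg10 x]
    -- the derivative of an even function at `0`
    have h1 := hD.hasDerivAt_e hO hm
    have h2 : HasDerivAt (fun t => g (x - c) (-t) - x)
        (-(de (fun x ε => g (x - c) ε - x) x 0)) 0 := by
      have h3 : HasDerivAt (fun t => g (x - c) t - x)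
        (de (fun x ε => g (x - c) ε - x) x 0) (-(0 : ℂ)) := by rw [neg_zero]; exact h1
      have := h3.comp (0 : ℂ) (hasDerivAt_neg (0 : ℂ))
      rw [mul_neg_one] at this
      exact this
    have h4 : (fun t => g (x - c) (-t) - x) =ᶠ[𝓝 0] fun t => g (x - c) t - x := by
      have hc : ContinuousAt (fun t : ℂ => (x, t)) 0 := by fun_prop
      filter_upwards [hc.eventually (hO.mem_nhds hm)] with t ht
      rw [hev _ _ (hsub (hsh ht))]
    have h5 := h2.congr_of_eventuallyEq h4.symm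
    have h6 := h1.unique h5
    have h7 : (2 : ℂ) * de (fun x ε => g (x - c) ε - x) x 0 = 0 := by
      linear_combination h6
    simpa using h7
  obtain ⟨g2, hg2, hg2e, -, -⟩ := exists_div_e hg1 hg1z
  have hsq : ∀ x ε, (x, ε) ∈ WW 0 (r / 2) e → g (x - c) ε - x = ε ^ 2 * g2 x ε := by
    intro x ε h
    rw [hg1e x ε h, hg2e x ε h]; ring
  have hB2 := Bd.div_pow (r' := r / 2) (δ := e / 2) (k := 2) le_rfl hg2 hsq hDb (by linarith)
    (by linarith) (by simp) le_rfl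
  refine ⟨(d + |c|) / (e / 2) ^ 2, fun x ε => g (x - c) ε, ⟨hr2, he, hJ, ?_, ?_, ?_, ?_, ?_⟩⟩
  · intro x ε h
    have := hper (x - c) ε (hsub (hsh h))
    rw [← this]
    congr 1; ring
  · intro x ε h
    exact hev _ _ (hsub (hsh h))
  · intro x ε h
    have := hre (x - c) ε (hsub (hsh h))
    rw [← this]
    congr 1
    rw [map_sub, Complex.conj_ofReal]
  · intro x ε h
    rw [hsq x ε h, norm_mul, norm_pow, mul_comm]
    exact mul_le_mul_of_nonneg_right (hB2 x ε h) (by positivity)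
  · intro x ε h
    have h1 := her (x - c) ε (hsub (hsh h))
    have h2 : EL b (g (x - c - ε) ε) (g (x - c) ε) (g (x - c + ε) ε) = 0 := h1
    show EL b (g (x - ε - c) ε) (g (x - c) ε) (g (x + ε - c) ε) = 0
    rw [show x - ε - c = x - c - ε by ring, show x + ε - c = x - c + ε by ring]
    exact h2

end

end Vale.Agent.P097.TA
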